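import Vale.Agent.Lib.P037.Params
open Finset

namespace Vale.Agent.Lib.P037

theorem polyRemoval_I2 : PolyRemoval I2 := by
  refine ⟨1 / (256 * 33 ^ 58), 58, by positivity, by norm_num, ?_⟩
  intro n hn ε hε0 hε1 A hfar
  have hnR : (0 : ℝ) < n := by exact_mod_cast hn
  have hN0 : 1 ≤ (copies I2 A).card := by
    by_contra hcon
    have h0 : (copies I2 A).card = 0 := by omega
    have hfree : IsFree I2 A := Finset.card_eq_zero.mp h0
    have h1 := hfar A hfree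
    have hd : diffCount A A = 0 := by simp [diffCount]
    rw [hd] at h1
    have h2 : 0 < ε * (n : ℝ) ^ 2 := by positivity
    simp at h1
    linarith
  obtain ⟨Z, hZ_def⟩ : ∃ Z, Z = ⌈32 / ε⌉₊ := ⟨_, rfl⟩
  have hZ1 : 32 / ε ≤ (Z : ℝ) := by rw [hZ_def]; exact Nat.le_ceil _
  have hZ2 : (Z : ℝ) < 32 / ε + 1 := by rw [hZ_def]; exact Nat.ceil_lt_add_one (by positivity)
  have hZ32 : 32 ≤ Z := by
    have : (32 : ℝ) ≤ 32 / ε := by rw [le_div_iff₀ hε0]; nlinarith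
    exact_mod_cast le_trans this hZ1
  have h3 : 32 ≤ ε * Z := by
    rw [div_le_iff₀ hε0] at hZ1; linarith
  have h4 : ε * Z ≤ 33 := by
    have : ε * Z < ε * (32 / ε + 1) := mul_lt_mul_of_pos_left hZ2 hε0
    have h5 : ε * (32 / ε + 1) = 32 + ε := by field_simp
    linarith
  have hmain : n ^ 4 ≤ 256 * Z ^ 58 * (copies I2 A).card := by
    by_contra hcon
    obtain ⟨B, hB, hd⟩ := main_nat A Z hZ32 hN0 (not_le.mp hcon)
    have h1 := hfar B hB
    have h2 : (Z : ℝ) * (diffCount A B : ℝ) ≤ 6 * (n : ℝ) ^ 2 := by exact_mod_cast hd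
    have hn2 : (0 : ℝ) < (n : ℝ) ^ 2 := by positivity
    have hZR : (0 : ℝ) < Z := by
      have : (32 : ℝ) ≤ Z := by exact_mod_cast hZ32
      linarith
    have h5 : (Z : ℝ) * (ε * (n : ℝ) ^ 2) ≤ 6 * (n : ℝ) ^ 2 :=
      le_trans (mul_le_mul_of_nonneg_left h1 hZR.le) h2
    nlinarith
  have hmainR : (n : ℝ) ^ 4 ≤ 256 * (Z : ℝ) ^ 58 * ((copies I2 A).card : ℝ) := by exact_mod_cast hmain
  have hpow : ε ^ (58 : ℝ) = ε ^ (58 : ℕ) := by
    rw [← Real.rpow_natCast]; norm_num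
  rw [hpow]
  have h6 : (ε * Z) ^ 58 ≤ (33 : ℝ) ^ 58 := pow_le_pow_left₀ (by positivity) h4 58
  have hNR : (0 : ℝ) ≤ ((copies I2 A).card : ℝ) := by positivity
  calc 1 / (256 * 33 ^ 58) * ε ^ 58 * (n : ℝ) ^ (2 * 2)
      = 1 / (256 * 33 ^ 58) * ε ^ 58 * (n : ℝ) ^ 4 := by norm_num
    _ ≤ 1 / (256 * 33 ^ 58) * ε ^ 58 * (256 * (Z : ℝ) ^ 58 * ((copies I2 A).card : ℝ)) := by
        apply mul_le_mul_of_nonneg_left hmainR (by positivity)
    _ = (ε * Z) ^ 58 / 33 ^ 58 * ((copies I2 A).card : ℝ) := by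
        rw [mul_pow]; field_simp
    _ ≤ 1 * ((copies I2 A).card : ℝ) := by
        apply mul_le_mul_of_nonneg_right _ hNR
        rw [div_le_one (by positivity)]
        exact h6
    _ = _ := one_mul _

end Vale.Agent.Lib.P037
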