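import Vale.Agent.Lib.P037.LMain
open Finset

namespace Vale.Agent.Lib.P037

variable {n : ℕ}

theorem main_nat_L (A : Fin n → Fin n → Bool) (M : ℕ) (hM : 32 ≤ M)
    (hN0 : 1 ≤ (copies L2 A).card) (hlt : 2 ^ 76 * M ^ 28 * (copies L2 A).card < n ^ 4) :
    ∃ B : Fin n → Fin n → Bool, IsFree L2 B ∧ M * diffCount A B ≤ 6 * n ^ 2 := by
  obtain ⟨N, hN_def⟩ : ∃ N, N = (copies L2 A).card := ⟨_, rfl⟩
  rw [← hN_def] at hN0 hlt
  have hM0 : 0 < M := by omega
  obtain ⟨q, hq⟩ : ∃ q, q = 256 * M ^ 3 := ⟨_, rfl⟩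
  have hq0 : 0 < q := by rw [hq]; positivity
  obtain ⟨D, hD⟩ : ∃ D, D = 8 * M * q ^ 2 := ⟨_, rfl⟩
  have hD0 : 0 < D := by rw [hD]; positivity
  have hD4 : D ^ 4 = 2 ^ 76 * M ^ 28 := by rw [hD, hq]; ring
  have hnD : D ≤ n := by
    by_contra hcon
    have hcon := not_le.mp hcon
    have h1 : n ^ 4 < D ^ 4 := Nat.pow_lt_pow_left hcon (by norm_num)
    have h3 : D ^ 4 ≤ 2 ^ 76 * M ^ 28 * N := by
      rw [hD4]; exact Nat.le_mul_of_pos_right _ hN0
    omega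
  have hn0 : 0 < n := lt_of_lt_of_le hD0 hnD
  obtain ⟨u, hu⟩ : ∃ u, u = n / D := ⟨_, rfl⟩
  have hu1 : 1 ≤ u := by rw [hu]; exact Nat.div_pos hnD hD0
  have Fa : D * u ≤ n := by rw [hu]; exact Nat.mul_div_le n _
  have Fb : n < D * (u + 1) := by rw [hu]; exact Nat.lt_mul_div_succ n hD0
  have Fc : n < 2 * (D * u) := by
    have : D * (u + 1) ≤ 2 * (D * u) := by nlinarith
    omega
  have hs0 : 0 < 65536 * M ^ 5 * u := by positivity
  have hg0 : 0 < q ^ 2 * u := by positivity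
  have hms : n / (65536 * M ^ 5 * u) + 1 ≤ 16 * M ^ 2 := by
    have : n / (65536 * M ^ 5 * u) < 16 * M ^ 2 := by
      apply Nat.div_lt_of_lt_mul
      calc n < 2 * (D * u) := Fc
        _ = 65536 * M ^ 5 * u * (16 * M ^ 2) := by rw [hD, hq]; ring
    omega
  have hQ : 2 * ((n / (65536 * M ^ 5 * u) + 1) * n) < (q + 1) * (2 * q ^ 2 * u) := by
    calc 2 * ((n / (65536 * M ^ 5 * u) + 1) * n) ≤ 2 * ((16 * M ^ 2) * n) := by
          apply Nat.mul_le_mul_left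
          exact Nat.mul_le_mul_right _ hms
      _ = 32 * M ^ 2 * n := by ring
      _ < 32 * M ^ 2 * (2 * (D * u)) := by
          apply Nat.mul_lt_mul_of_pos_left Fc (by positivity)
      _ = q * (2 * q ^ 2 * u) := by rw [hD, hq]; ring
      _ ≤ (q + 1) * (2 * q ^ 2 * u) := Nat.mul_le_mul_right _ (by omega)
  have hq2u : u + 1 ≤ 4 * q ^ 2 * u := by
    have : 1 ≤ q ^ 2 := Nat.one_le_pow _ _ hq0
    nlinarith
  have he : q * (u * u + 2 * u) < (q * u + 1) * (4 * q ^ 2 * u + 1) := by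
    calc q * (u * u + 2 * u) < (q * u + 1) * (u + 2) := by nlinarith
      _ ≤ (q * u + 1) * (4 * q ^ 2 * u + 1) := Nat.mul_le_mul_left _ (by omega)
  have hnum : q ^ 2 * u + q * q * (2 * u) + 2 * (2 * q ^ 2 * u) + q * u ≤ 2 * (4 * q ^ 2 * u) := by
    have : q * u ≤ q ^ 2 * u := by
      apply Nat.mul_le_mul_right
      calc q = q ^ 1 := by ring
        _ ≤ q ^ 2 := Nat.pow_le_pow_right hq0 (by norm_num)
    nlinarith
  obtain ⟨B, hBfree, d, x, hd, hx, hdiff⟩ := coreL A (65536 * M ^ 5 * u) (4 * q ^ 2 * u)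
    (2 * q ^ 2 * u) (4 * q ^ 2 * u) u (8 * q * u) q (q * u) (q ^ 2 * u) hs0 hg0 hQ he hnum
  rw [← hN_def] at hd
  refine ⟨B, hBfree, ?_⟩
  -- the potential term
  have X1 : M * x ≤ n * n := by
    have h1 : (q ^ 2 * u) * (M * x) ≤ (q ^ 2 * u) * (n * n) := by
      calc (q ^ 2 * u) * (M * x) = M * ((q ^ 2 * u) * x) := by ring
        _ ≤ M * (65536 * M ^ 5 * u * (n * n)) := Nat.mul_le_mul_left _ hx
        _ = (q ^ 2 * u) * (n * n) := by rw [hq]; ring
    exact Nat.le_of_mul_le_mul_left h1 hg0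
  -- the main term
  have X2 : M * (2 * (4 * q ^ 2 * u) + q * q * (2 * u) + 2 * (4 * q ^ 2 * u)) ≤ 3 * n := by
    calc M * (2 * (4 * q ^ 2 * u) + q * q * (2 * u) + 2 * (4 * q ^ 2 * u))
        = 18 * (M * q ^ 2 * u) := by ring
      _ ≤ 24 * (M * q ^ 2 * u) := by omega
      _ = 3 * (D * u) := by rw [hD]; ring
      _ ≤ 3 * n := Nat.mul_le_mul_left _ Fa
  -- partners
  have X3 : M * (q * (8 * q * u)) ≤ n := by
    calc M * (q * (8 * q * u)) = D * u := by rw [hD]; ring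
      _ ≤ n := Fa
  -- dirty rows
  have X4 : M * d ≤ n := by
    by_contra hcon
    have hcon := not_le.mp hcon
    have hP : n < 2 * M * q * (8 * q * u + 1) := by
      calc n < D * (u + 1) := Fb
        _ ≤ D * (2 * u) := Nat.mul_le_mul_left _ (by omega)
        _ = 2 * M * q * (8 * q * u) := by rw [hD]; ring
        _ ≤ 2 * M * q * (8 * q * u + 1) := Nat.mul_le_mul_left _ (by omega)
    have hU : n * n < (D * (u + 1)) * (D * (u + 1)) := Nat.mul_lt_mul'' Fb Fb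
    have h3 : n * (n * n) < (2 * M * q * (8 * q * u + 1)) * ((D * (u + 1)) * (D * (u + 1))) :=
      Nat.mul_lt_mul'' hP hU
    have h4 : n * (n * (n * n)) < (M * d) * ((2 * M * q * (8 * q * u + 1)) * ((D * (u + 1)) * (D * (u + 1)))) :=
      Nat.mul_lt_mul'' hcon h3
    have h5 : (M * d) * ((2 * M * q * (8 * q * u + 1)) * ((D * (u + 1)) * (D * (u + 1))))
        = 2 * M ^ 2 * q * D ^ 2 * (d * ((8 * q * u + 1) * ((u + 1) * (u + 1)))) := by ring
    have h6 : 2 * M ^ 2 * q * D ^ 2 * (d * ((8 * q * u + 1) * ((u + 1) * (u + 1))))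
        ≤ 2 * M ^ 2 * q * D ^ 2 * (2 * N) := Nat.mul_le_mul_left _ hd
    have h7 : 2 * M ^ 2 * q * D ^ 2 * (2 * N) = 2 ^ 48 * M ^ 19 * N := by rw [hD, hq]; ring
    have h8 : 2 ^ 48 * M ^ 19 * N ≤ 2 ^ 76 * M ^ 28 * N := by
      apply Nat.mul_le_mul_right
      apply Nat.mul_le_mul
      · exact Nat.pow_le_pow_right (by norm_num) (by norm_num)
      · exact Nat.pow_le_pow_right hM0 (by norm_num)
    have h9 : n ^ 4 = n * (n * (n * n)) := by ring
    omega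
  calc M * diffCount A B
      ≤ M * (n * (2 * (4 * q ^ 2 * u) + q * q * (2 * u) + 2 * (4 * q ^ 2 * u)) +
          (d + q * (8 * q * u)) * n + x) := Nat.mul_le_mul_left _ hdiff
    _ = n * (M * (2 * (4 * q ^ 2 * u) + q * q * (2 * u) + 2 * (4 * q ^ 2 * u))) +
          (M * d + M * (q * (8 * q * u))) * n + M * x := by ring
    _ ≤ n * (3 * n) + (n + n) * n + n * n := by
        apply Nat.add_le_add
        · apply Nat.add_le_add
          · exact Nat.mul_le_mul_left _ X2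
          · exact Nat.mul_le_mul_right _ (Nat.add_le_add X4 X3)
        · exact X1
    _ = 6 * n ^ 2 := by ring

theorem polyRemoval_L2 : PolyRemoval L2 := by
  refine ⟨1 / (2 ^ 76 * 33 ^ 28), 28, by positivity, by norm_num, ?_⟩
  intro n hn ε hε0 hε1 A hfar
  have hnR : (0 : ℝ) < n := by exact_mod_cast hn
  have hN0 : 1 ≤ (copies L2 A).card := by
    by_contra hcon
    have h0 : (copies L2 A).card = 0 := by omega
    have hfree : IsFree L2 A := Finset.card_eq_zero.mp h0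
    have h1 := hfar A hfree
    have hd : diffCount A A = 0 := by simp [diffCount]
    rw [hd] at h1
    have h2 : 0 < ε * (n : ℝ) ^ 2 := by positivity
    simp at h1
    linarith
  obtain ⟨Z, hZ_def⟩ : ∃ Z, Z = ⌈32 / ε⌉₊ := ⟨_, rfl⟩
  have hZ1 : 32 / ε ≤ (Z : ℝ) := by rw [hZ_def]; exact Nat.le_ceil _
  have hZ2 : (Z : ℝ) < 32 / ε + 1 := by rw [hZ_def]; exact Nat.ceil_lt_add_one (by positivity)
  have hZ32 : 32 ≤ Z := by
    have : (32 : ℝ) ≤ 32 / ε := by rw [le_div_iff₀ hε0]; nlinarith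
    exact_mod_cast le_trans this hZ1
  have h3 : 32 ≤ ε * Z := by
    rw [div_le_iff₀ hε0] at hZ1; linarith
  have h4 : ε * Z ≤ 33 := by
    have : ε * Z < ε * (32 / ε + 1) := mul_lt_mul_of_pos_left hZ2 hε0
    have h5 : ε * (32 / ε + 1) = 32 + ε := by field_simp
    linarith
  have hmain : n ^ 4 ≤ 2 ^ 76 * Z ^ 28 * (copies L2 A).card := by
    by_contra hcon
    obtain ⟨B, hB, hd⟩ := main_nat_L A Z hZ32 hN0 (not_le.mp hcon)
    have h1 := hfar B hB
    have h2 : (Z : ℝ) * (diffCount A B : ℝ) ≤ 6 * (n : ℝ) ^ 2 := by exact_mod_cast hd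
    have hn2 : (0 : ℝ) < (n : ℝ) ^ 2 := by positivity
    have hZR : (0 : ℝ) < Z := by
      have : (32 : ℝ) ≤ Z := by exact_mod_cast hZ32
      linarith
    have h5 : (Z : ℝ) * (ε * (n : ℝ) ^ 2) ≤ 6 * (n : ℝ) ^ 2 :=
      le_trans (mul_le_mul_of_nonneg_left h1 hZR.le) h2
    nlinarith
  have hmainR : (n : ℝ) ^ 4 ≤ 2 ^ 76 * (Z : ℝ) ^ 28 * ((copies L2 A).card : ℝ) := by
    exact_mod_cast hmain
  have hpow : ε ^ (28 : ℝ) = ε ^ (28 : ℕ) := by
    rw [← Real.rpow_natCast]; norm_num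
  rw [hpow]
  have h6 : (ε * Z) ^ 28 ≤ (33 : ℝ) ^ 28 := pow_le_pow_left₀ (by positivity) h4 28
  have hNR : (0 : ℝ) ≤ ((copies L2 A).card : ℝ) := by positivity
  calc 1 / (2 ^ 76 * 33 ^ 28) * ε ^ 28 * (n : ℝ) ^ (2 * 2)
      = 1 / (2 ^ 76 * 33 ^ 28) * ε ^ 28 * (n : ℝ) ^ 4 := by norm_num
    _ ≤ 1 / (2 ^ 76 * 33 ^ 28) * ε ^ 28 * (2 ^ 76 * (Z : ℝ) ^ 28 * ((copies L2 A).card : ℝ)) := by
        apply mul_le_mul_of_nonneg_left hmainR (by positivity)
    _ = (ε * Z) ^ 28 / 33 ^ 28 * ((copies L2 A).card : ℝ) := by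
        rw [mul_pow]; field_simp
    _ ≤ 1 * ((copies L2 A).card : ℝ) := by
        apply mul_le_mul_of_nonneg_right _ hNR
        rw [div_le_one (by positivity)]
        exact h6
    _ = _ := one_mul _

end Vale.Agent.Lib.P037
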