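import Vale.Agent.Lib.P037.EqRows
import Vale.Agent.Lib.P037.Identity
import Vale.Agent.Lib.P037.LParams
open Finset

namespace Vale.Agent.Lib.P037

/-- the matrix with the four given entries -/
def mk2 (a b c d : Bool) : Fin 2 → Fin 2 → Bool := ![![a, b], ![c, d]]

lemma eq_mk2 (H : Fin 2 → Fin 2 → Bool) : H = mk2 (H 0 0) (H 0 1) (H 1 0) (H 1 1) := by
  funext i j
  fin_cases i <;> fin_cases j <;> rfl

lemma polyRemoval_crev {k : ℕ} (H : Fin k → Fin k → Bool) (h : PolyRemoval H) :
    PolyRemoval (tr (rrev (tr H))) :=
  polyRemoval_tr _ (polyRemoval_rrev _ (polyRemoval_tr _ h))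

theorem polyRemoval_all2 (H : Fin 2 → Fin 2 → Bool) : PolyRemoval H := by
  rw [eq_mk2 H]
  have hL := polyRemoval_L2
  have hI := polyRemoval_I2
  cases H 0 0 <;> cases H 0 1 <;> cases H 1 0 <;> cases H 1 1
  · -- 00/00
    have e : mk2 false false false false = eqRows ![false, false] := by decide
    rw [e]; exact polyRemoval_eqRows _
  · -- 00/01
    have e : mk2 false false false true = bcompl L2 := by decide
    rw [e]; exact polyRemoval_compl _ hL
  · -- 00/10
    have e : mk2 false false true false = bcompl (tr (rrev (tr L2))) := by decide
    rw [e]; exact polyRemoval_compl _ (polyRemoval_crev _ hL)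
  · -- 00/11
    have e : mk2 false false true true = tr (eqRows ![false, true]) := by decide
    rw [e]; exact polyRemoval_tr _ (polyRemoval_eqRows _)
  · -- 01/00
    have e : mk2 false true false false = bcompl (rrev L2) := by decide
    rw [e]; exact polyRemoval_compl _ (polyRemoval_rrev _ hL)
  · -- 01/01
    have e : mk2 false true false true = eqRows ![false, true] := by decide
    rw [e]; exact polyRemoval_eqRows _
  · -- 01/10
    have e : mk2 false true true false = bcompl I2 := by decide
    rw [e]; exact polyRemoval_compl _ hI
  · -- 01/11
    have e : mk2 false true true true = rrev (tr (rrev (tr L2))) := by decide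
    rw [e]; exact polyRemoval_rrev _ (polyRemoval_crev _ hL)
  · -- 10/00
    have e : mk2 true false false false = bcompl (rrev (tr (rrev (tr L2)))) := by decide
    rw [e]; exact polyRemoval_compl _ (polyRemoval_rrev _ (polyRemoval_crev _ hL))
  · -- 10/01
    have e : mk2 true false false true = I2 := by decide
    rw [e]; exact hI
  · -- 10/10
    have e : mk2 true false true false = eqRows ![true, false] := by decide
    rw [e]; exact polyRemoval_eqRows _
  · -- 10/11
    have e : mk2 true false true true = rrev L2 := by decide
    rw [e]; exact polyRemoval_rrev _ hL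
  · -- 11/00
    have e : mk2 true true false false = tr (eqRows ![true, false]) := by decide
    rw [e]; exact polyRemoval_tr _ (polyRemoval_eqRows _)
  · -- 11/01
    have e : mk2 true true false true = tr (rrev (tr L2)) := by decide
    rw [e]; exact polyRemoval_crev _ hL
  · -- 11/10
    have e : mk2 true true true false = L2 := by decide
    rw [e]; exact hL
  · -- 11/11
    have e : mk2 true true true true = eqRows ![true, true] := by decide
    rw [e]; exact polyRemoval_eqRows _

end Vale.Agent.Lib.P037
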