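import Vale.Agent.Lib.P037_helper12.Blow
open Finset

/-!
P037: the alternating `a × 2` patterns (rows `10`, `01`, `10`, ...).  Basic counting.
-/

namespace Vale.Agent.Lib.P037

variable {n : ℕ}

/-- the alternating pattern with `a` rows and two columns: rows `10`, `01`, `10`, ... -/
def alt (a : ℕ) : Fin a → Fin 2 → Bool := fun i j => decide ((i.val + j.val) % 2 = 0)

/-- rows of strip `i` showing the letter number `k` of the alternating pattern on `(c, c')` -/
def xsA (A : Fin n → Fin n → Bool) (s i k : ℕ) (c c' : Fin n) : Finset (Fin n) :=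
  if k % 2 = 0 then xs A s i c c' else xs A s i c' c

lemma mem_xsA (A : Fin n → Fin n → Bool) (s i k : ℕ) (c c' r : Fin n)
    (h : r ∈ xsA A s i k c c') :
    r.val / s = i ∧ A r c = decide (k % 2 = 0) ∧ A r c' = decide ((k + 1) % 2 = 0) := by
  unfold xsA at h
  split_ifs at h with hk
  · simp only [xs, mem_filter, mem_univ, true_and] at h
    refine ⟨h.1, ?_, ?_⟩
    · rw [h.2.1]; simp [hk]
    · rw [h.2.2]
      have : ¬ (k + 1) % 2 = 0 := by omega
      simp [this]
  · simp only [xs, mem_filter, mem_univ, true_and] at h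
    refine ⟨h.1, ?_, ?_⟩
    · rw [h.2.2]; simp [hk]
    · rw [h.2.1]
      have : (k + 1) % 2 = 0 := by omega
      simp [this]

open Classical in
/-- row tuples completing the column pair `(c, c')` to a copy of the alternating pattern -/
noncomputable def rowT (A : Fin n → Fin n → Bool) (a : ℕ) (c c' : Fin n) :
    Finset (Fin a → Fin n) :=
  univ.filter fun ρ => StrictMono ρ ∧ ∀ k, A (ρ k) c = alt a k 0 ∧ A (ρ k) c' = alt a k 1

lemma prod_xsA_le (A : Fin n → Fin n → Bool) (s a : ℕ) (i : Fin a → ℕ) (hi : StrictMono i)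
    (c c' : Fin n) :
    ∏ k : Fin a, (xsA A s (i k) k.val c c').card ≤ (rowT A a c c').card := by
  classical
  rw [← Fintype.card_piFinset]
  apply card_le_card
  intro ρ hρ
  rw [Fintype.mem_piFinset] at hρ
  simp only [rowT, mem_filter, mem_univ, true_and]
  refine ⟨?_, ?_⟩
  · intro k k' hkk
    have h1 := (mem_xsA A s _ _ c c' _ (hρ k)).1
    have h2 := (mem_xsA A s _ _ c c' _ (hρ k')).1
    have h3 := hi hkk
    by_contra hcon
    have hle : (ρ k').val ≤ (ρ k).val := not_lt.mp hcon
    have := Nat.div_le_div_right (c := s) hle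
    omega
  · intro k
    have h := mem_xsA A s _ _ c c' _ (hρ k)
    refine ⟨?_, ?_⟩
    · rw [h.2.1]; simp [alt]
    · rw [h.2.2]; simp [alt]

lemma pow_le_rowT (A : Fin n → Fin n → Bool) (s a X : ℕ) (i : Fin a → ℕ) (hi : StrictMono i)
    (c c' : Fin n) (hX : ∀ k : Fin a, X ≤ (xsA A s (i k) k.val c c').card) :
    X ^ a ≤ (rowT A a c c').card := by
  refine le_trans ?_ (prod_xsA_le A s a i hi c c')
  calc X ^ a = ∏ _k : Fin a, X := by simp
    _ ≤ _ := Finset.prod_le_prod (fun _ _ => Nat.zero_le _) (fun k _ => hX k)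

lemma copies_geT (A : Fin n → Fin n → Bool) (a : ℕ) (S : Finset (Fin n × Fin n)) (X : ℕ)
    (hS : ∀ p ∈ S, p.1 < p.2 ∧ X ≤ (rowT A a p.1 p.2).card) :
    S.card * X ≤ (copiesR (alt a) A).card := by
  classical
  calc S.card * X = ∑ _p ∈ S, X := by simp
    _ ≤ ∑ p ∈ S, (rowT A a p.1 p.2).card := Finset.sum_le_sum (fun p hp => (hS p hp).2)
    _ = (S.sigma (fun p => rowT A a p.1 p.2)).card := by rw [card_sigma]
    _ ≤ (copiesR (alt a) A).card := by
      apply Finset.card_le_card_of_injOn
        (fun q => (q.2, (![q.1.1, q.1.2] : Fin 2 → Fin n)))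
      · intro q hq
        simp only [coe_sigma, Set.mem_sigma_iff, mem_coe] at hq
        obtain ⟨hq1, hq2⟩ := hq
        have hlt := (hS q.1 hq1).1
        simp only [rowT, mem_filter, mem_univ, true_and] at hq2
        obtain ⟨h1, h2⟩ := hq2
        rw [mem_coe, mem_copiesR]
        refine ⟨h1, ?_, ?_⟩
        · intro x y hxy
          fin_cases x <;> fin_cases y <;> simp_all
        · intro k j
          fin_cases j
          · exact (h2 k).1
          · exact (h2 k).2
      · intro q _ q' _ hqq
        simp only [Prod.mk.injEq] at hqq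
        obtain ⟨h1, h2⟩ := hqq
        have b1 := congrFun h2 0
        have b2 := congrFun h2 1
        simp at b1 b2
        obtain ⟨⟨x1, x2⟩, y⟩ := q
        obtain ⟨⟨x1', x2'⟩, y'⟩ := q'
        simp_all

end Vale.Agent.Lib.P037
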