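import Vale.Agent.Lib.P037.AltCut
open Finset

namespace Vale.Agent.Lib.P037

variable {n : ℕ}

open Classical in
/-- the deleted columns coming from the tuples of row classes -/
noncomputable def Dela (A : Fin n → Fin n → Bool) (s G K m L : ℕ) (t : ℕ → ℕ) (a : ℕ)
    (κ : (Fin a → ℕ × ℕ) → ℕ) : Finset (Fin n) :=
  (Fintype.piFinset (fun _ : Fin a => range m ×ˢ range (L + 1))).biUnion (fun x =>
    if StrictMono (fun k => (x k).1) then
      ((DDa A s G K m t a x).filter (fun c => c.val < κ x)) ∪
      ((EEa A s G K m t a x).filter (fun c => κ x ≤ c.val))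
    else ∅)

lemma Dela_card (A : Fin n → Fin n → Bool) (s G K m L μ : ℕ) (t : ℕ → ℕ) (a : ℕ)
    (κ : (Fin a → ℕ × ℕ) → ℕ)
    (hκ : ∀ x, StrictMono (fun k => (x k).1) → (∀ k, (x k).1 < m) →
      ((DDa A s G K m t a x).filter (fun c => c.val < κ x)).card +
      ((EEa A s G K m t a x).filter (fun c => κ x ≤ c.val)).card ≤ 2 * μ) :
    (Dela A s G K m L t a κ).card ≤ (m * (L + 1)) ^ a * (2 * μ) := by
  classical
  have := Finset.card_biUnion_le_card_mul
    (Fintype.piFinset (fun _ : Fin a => range m ×ˢ range (L + 1)))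
    (fun x => if StrictMono (fun k => (x k).1) then
      ((DDa A s G K m t a x).filter (fun c => c.val < κ x)) ∪
      ((EEa A s G K m t a x).filter (fun c => κ x ≤ c.val))
    else ∅) (2 * μ) (by
      intro x hx
      rw [Fintype.mem_piFinset] at hx
      split_ifs with hlt
      · refine le_trans (card_union_le _ _) (hκ x hlt ?_)
        intro k
        have := hx k
        simp only [mem_product, mem_range] at this
        exact this.1
      · simp)
  have hcard : (Fintype.piFinset (fun _ : Fin a => range m ×ˢ range (L + 1))).card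
      = (m * (L + 1)) ^ a := by
    rw [Fintype.card_piFinset]
    simp
  rw [hcard] at this
  exact this

open Classical in
/-- the repaired matrix, for an arbitrary set of deleted columns -/
noncomputable def BBg (A : Fin n → Fin n → Bool) (s G K m L h : ℕ) (t : ℕ → ℕ)
    (Del : Finset (Fin n)) (lsel : Fin n → ℕ) : Fin n → Fin n → Bool :=
  fun r c => decide (good A s G K L h t r ∧ c ∉ Buf A s G K m t ∧ c ∉ Del ∧
    thr (t (r.val / s)) K (lsel r) ≤ ee A s G (r.val / s) c)

lemma BBa_free (A : Fin n → Fin n → Bool) (s G K m L h : ℕ) (t : ℕ → ℕ) (a : ℕ) (ha : 2 ≤ a)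
    (κ : (Fin a → ℕ × ℕ) → ℕ) (lsel : Fin n → ℕ) (hm : ∀ r : Fin n, r.val / s < m)
    (hl : ∀ r, good A s G K L h t r → lsel r ≤ L) :
    IsFreeR (alt a) (BBg A s G K m L h t (Dela A s G K m L t a κ) lsel) := by
  classical
  obtain ⟨b, rfl⟩ := Nat.exists_eq_add_of_le' ha
  unfold IsFreeR
  rw [Finset.eq_empty_iff_forall_notMem]
  intro p hp
  rw [mem_copiesR] at hp
  obtain ⟨hr, hc, hpat⟩ := hp
  have hc12 : p.2 0 < p.2 1 := hc (by decide)
  set Del := Dela A s G K m L t (b + 2) κ with hDel
  have hP0 : ∀ k, ((good A s G K L h t (p.1 k) ∧ p.2 0 ∉ Buf A s G K m t ∧ p.2 0 ∉ Del ∧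
      thr (t ((p.1 k).val / s)) K (lsel (p.1 k)) ≤ ee A s G ((p.1 k).val / s) (p.2 0)) ↔
      k.val % 2 = 0) := by
    intro k
    have := hpat k 0
    simp only [BBg, alt, decide_eq_decide] at this
    simpa using this
  have hP1 : ∀ k, ((good A s G K L h t (p.1 k) ∧ p.2 1 ∉ Buf A s G K m t ∧ p.2 1 ∉ Del ∧
      thr (t ((p.1 k).val / s)) K (lsel (p.1 k)) ≤ ee A s G ((p.1 k).val / s) (p.2 1)) ↔
      k.val % 2 = 1) := by
    intro k
    have := hpat k 1
    simp only [BBg, alt, decide_eq_decide] at this
    rw [this]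
    simp only [Fin.val_one]
    omega
  obtain ⟨-, b0, d0, -⟩ := (hP0 0).mpr (by simp)
  obtain ⟨-, b1, d1, -⟩ := (hP1 1).mpr (by simp)
  have hgood : ∀ k, good A s G K L h t (p.1 k) := by
    intro k
    rcases Nat.mod_two_eq_zero_or_one k.val with h0 | h1
    · exact ((hP0 k).mpr h0).1
    · exact ((hP1 k).mpr h1).1
  have hl0 : ∀ k, (thr (t ((p.1 k).val / s)) K (lsel (p.1 k)) ≤ ee A s G ((p.1 k).val / s) (p.2 0)
      ↔ k.val % 2 = 0) := by
    intro k
    constructor
    · intro hx
      exact (hP0 k).mp ⟨hgood k, b0, d0, hx⟩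
    · intro hx
      exact ((hP0 k).mpr hx).2.2.2
  have hl1 : ∀ k, (thr (t ((p.1 k).val / s)) K (lsel (p.1 k)) ≤ ee A s G ((p.1 k).val / s) (p.2 1)
      ↔ k.val % 2 = 1) := by
    intro k
    constructor
    · intro hx
      exact (hP1 k).mp ⟨hgood k, b1, d1, hx⟩
    · intro hx
      exact ((hP1 k).mpr hx).2.2.2
  let x : Fin (b + 2) → ℕ × ℕ := fun k => ((p.1 k).val / s, lsel (p.1 k))
  have hmono : StrictMono (fun k => (x k).1) := by
    rw [Fin.strictMono_iff_lt_succ]
    intro i
    show (p.1 i.castSucc).val / s < (p.1 i.succ).val / s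
    have hlt : p.1 i.castSucc < p.1 i.succ := hr (Fin.castSucc_lt_succ)
    have hle : (p.1 i.castSucc).val / s ≤ (p.1 i.succ).val / s :=
      Nat.div_le_div_right (le_of_lt hlt)
    rcases Nat.lt_or_ge ((p.1 i.castSucc).val / s) ((p.1 i.succ).val / s) with hlt' | hge
    · exact hlt'
    · exfalso
      have heq : (p.1 i.castSucc).val / s = (p.1 i.succ).val / s := le_antisymm hle hge
      have q0 := hl0 i.castSucc
      have q1 := hl1 i.castSucc
      have q0' := hl0 i.succ
      have q1' := hl1 i.succ
      rw [heq] at q0 q1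
      simp only [Fin.val_castSucc, Fin.val_succ] at q0 q1 q0' q1'
      rcases Nat.mod_two_eq_zero_or_one i.val with h0 | h1
      · have e1 := q0.mpr h0
        have e2 : ¬ _ := fun hx => absurd (q1.mp hx) (by omega)
        have e3 := q1'.mpr (by omega)
        have e4 : ¬ _ := fun hx => absurd (q0'.mp hx) (by omega)
        omega
      · have e1 := q1.mpr h1
        have e2 : ¬ _ := fun hx => absurd (q0.mp hx) (by omega)
        have e3 := q0'.mpr (by omega)
        have e4 : ¬ _ := fun hx => absurd (q1'.mp hx) (by omega)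
        omega
  have hD : p.2 0 ∈ DDa A s G K m t (b + 2) x := by
    simp only [DDa, mem_filter, mem_univ, true_and]
    exact ⟨b0, hl0⟩
  have hE : p.2 1 ∈ EEa A s G K m t (b + 2) x := by
    simp only [EEa, mem_filter, mem_univ, true_and]
    exact ⟨b1, hl1⟩
  have hidx : x ∈ Fintype.piFinset (fun _ : Fin (b + 2) => range m ×ˢ range (L + 1)) := by
    rw [Fintype.mem_piFinset]
    intro k
    simp only [mem_product, mem_range]
    exact ⟨hm _, Nat.lt_succ_of_le (hl _ (hgood k))⟩
  have k1 : κ x ≤ (p.2 0).val := by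
    by_contra hcon
    apply d0
    rw [hDel]
    simp only [Dela, mem_biUnion]
    refine ⟨x, hidx, ?_⟩
    rw [if_pos hmono, mem_union, mem_filter]
    left
    exact ⟨hD, not_le.mp hcon⟩
  have k2 : (p.2 1).val < κ x := by
    by_contra hcon
    apply d1
    rw [hDel]
    simp only [Dela, mem_biUnion]
    refine ⟨x, hidx, ?_⟩
    rw [if_pos hmono, mem_union, mem_filter, mem_filter]
    right
    exact ⟨hE, not_lt.mp hcon⟩
  have : (p.2 0).val < (p.2 1).val := hc12
  omega

lemma row_diff_good_g (A : Fin n → Fin n → Bool) (s G K m L h : ℕ) (t : ℕ → ℕ)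
    (Del : Finset (Fin n)) (lsel : Fin n → ℕ) (r : Fin n)
    (hg : good A s G K L h t r)
    (hl : mism A s G r (thr (t (r.val / s)) K (lsel r)) ≤ 2 * h) :
    (univ.filter (fun c => A r c ≠ BBg A s G K m L h t Del lsel r c)).card ≤
      2 * h + (Buf A s G K m t).card + Del.card := by
  classical
  have hsub : (univ.filter (fun c => A r c ≠ BBg A s G K m L h t Del lsel r c)) ⊆
      ((((univ.filter fun c => A r c = true).filter
          (fun c => ee A s G (r.val / s) c < thr (t (r.val / s)) K (lsel r))) ∪
        ((univ.filter fun c => A r c = false).filter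
          (fun c => thr (t (r.val / s)) K (lsel r) ≤ ee A s G (r.val / s) c))) ∪
        (Buf A s G K m t)) ∪ Del := by
    intro c hc
    simp only [mem_filter, mem_univ, true_and] at hc
    simp only [BBg] at hc
    simp only [mem_union, mem_filter, mem_univ, true_and]
    by_cases hb : c ∈ Buf A s G K m t
    · left; right; exact hb
    by_cases hd : c ∈ Del
    · right; exact hd
    left; left
    by_cases hthr : thr (t (r.val / s)) K (lsel r) ≤ ee A s G (r.val / s) c
    · right
      refine ⟨?_, hthr⟩
      have : decide (good A s G K L h t r ∧ c ∉ Buf A s G K m t ∧ c ∉ Del ∧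
        thr (t (r.val / s)) K (lsel r) ≤ ee A s G (r.val / s) c) = true := by
        simp only [decide_eq_true_eq]
        exact ⟨hg, hb, hd, hthr⟩
      rw [this] at hc
      simpa using hc
    · left
      refine ⟨?_, not_le.mp hthr⟩
      have : decide (good A s G K L h t r ∧ c ∉ Buf A s G K m t ∧ c ∉ Del ∧
        thr (t (r.val / s)) K (lsel r) ≤ ee A s G (r.val / s) c) = false := by
        simp only [decide_eq_false_iff_not]
        intro hx
        exact hthr hx.2.2.2
      rw [this] at hc
      simpa using hc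
  refine le_trans (card_le_card hsub) ?_
  refine le_trans (card_union_le _ _) ?_
  refine Nat.add_le_add_right ?_ _
  refine le_trans (card_union_le _ _) ?_
  refine Nat.add_le_add_right ?_ _
  refine le_trans (card_union_le _ _) ?_
  exact hl

theorem core_a (A : Fin n → Fin n → Bool) (a g K G h μ : ℕ) (ha : 2 ≤ a) (hg : 0 < g) (hK : 0 < K)
    (hG : 0 < G)
    (hN1 : (copiesR (alt a) A).card < (μ + 1) * (μ + 1) * G ^ a)
    (hN2 : 2 * (n / (g * K * G) + 1) * (copiesR (alt a) A).card ≤ (K * G) ^ a * n ^ 2) :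
    ∃ B : Fin n → Fin n → Bool, IsFreeR (alt a) B ∧ ∃ bad : ℕ,
      bad * ((h + 1) * (h + 1)) ≤
        2 * (K * G) * (n / (g * K * G) + 1) * n ^ 2 + (a + 1) * (g * K * G) * n ^ 2 ∧
      diffCount A B ≤ bad * n + n * (2 * h + (n / (g * K * G) + 1) * (n / K) +
        ((n / (g * K * G) + 1) * (g + 3)) ^ a * (2 * μ)) := by
  classical
  set s := g * K * G with hs_def
  set m := n / s + 1 with hm_def
  have hs : 0 < s := by positivity
  have ha0 : 0 < a := by omega
  have hm : ∀ r : Fin n, r.val / s < m := by
    intro r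
    have : r.val / s ≤ n / s := Nat.div_le_div_right (le_of_lt r.isLt)
    omega
  choose t ht1 ht2 using fun i => exists_offset A s G K i hK
  choose κ hκ using fun x => exists_cut_a A s G K m μ hG t ht1 a ha0 hN1 x
  have hsel : ∀ r : Fin n, ∃ l, good A s G K (g + 2) h t r →
      (l ≤ g + 2 ∧ mism A s G r (thr (t (r.val / s)) K l) ≤ 2 * h) := by
    intro r
    by_cases hgr : good A s G K (g + 2) h t r
    · obtain ⟨l, hl1, hl2⟩ := hgr
      exact ⟨l, fun _ => ⟨hl1, hl2⟩⟩
    · exact ⟨0, fun hx => absurd hx hgr⟩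
  choose lsel hlsel using hsel
  refine ⟨BBg A s G K m (g + 2) h t (Dela A s G K m (g + 2) t a κ) lsel,
    BBa_free A s G K m (g + 2) h t a ha κ lsel hm (fun r hr => (hlsel r hr).1),
    (univ.filter (fun r => ¬ good A s G K (g + 2) h t r)).card, ?_, ?_⟩
  · -- bound on bad rows
    have h1 := count_bad A s G K m ((h + 1) * (h + 1)) hs hG hm
      (univ.filter (fun r => ¬ good A s G K (g + 2) h t r)) (by
        intro r hr
        rw [mem_filter] at hr
        exact bad_row A g K G h hs t ht1 r hr.2)
    have h2 := sum_kk_le_a A s (K * G) m a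
    have h3 := PPa_card A s (K * G) m a (by positivity) ha0
    have hw : 0 < (K * G) ^ a := by positivity
    have h4 : m * (PPa A s (K * G) m a).card ≤ n ^ 2 := by
      have : (m * (PPa A s (K * G) m a).card) * (K * G) ^ a ≤ n ^ 2 * (K * G) ^ a := by
        calc (m * (PPa A s (K * G) m a).card) * (K * G) ^ a
            = m * ((PPa A s (K * G) m a).card * (K * G) ^ a) := by ring
          _ ≤ m * (2 * (copiesR (alt a) A).card) := Nat.mul_le_mul_left m h3
          _ = 2 * m * (copiesR (alt a) A).card := by ring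
          _ ≤ (K * G) ^ a * n ^ 2 := hN2
          _ = n ^ 2 * (K * G) ^ a := by ring
      exact Nat.le_of_mul_le_mul_right this hw
    calc _ ≤ 2 * (K * G) * m * n ^ 2 + s * ∑ p : Fin n × Fin n, kk A s (K * G) m p := h1
      _ ≤ 2 * (K * G) * m * n ^ 2 + s * (a * n ^ 2 + n ^ 2) := by
          apply Nat.add_le_add_left
          apply Nat.mul_le_mul_left
          omega
      _ = _ := by ring
  · rw [diffCount_eq]
    have hB := Buf_card A s G K m t ht2
    have hD := Dela_card A s G K m (g + 2) μ t a κ hκ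
    have hrow : ∀ r ∈ (univ : Finset (Fin n)),
        (univ.filter (fun c => A r c ≠
          BBg A s G K m (g + 2) h t (Dela A s G K m (g + 2) t a κ) lsel r c)).card ≤
        (if ¬ good A s G K (g + 2) h t r then n else 0) +
          (2 * h + m * (n / K) + (m * (g + 3)) ^ a * (2 * μ)) := by
      intro r _
      by_cases hgr : good A s G K (g + 2) h t r
      · have := row_diff_good_g A s G K m (g + 2) h t (Dela A s G K m (g + 2) t a κ) lsel r hgr
          (hlsel r hgr).2
        simp only [hgr, not_true_eq_false, if_false]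
        have e : g + 2 + 1 = g + 3 := rfl
        rw [e] at hD
        omega
      · simp only [hgr, not_false_eq_true, if_true]
        have : (univ.filter (fun c => A r c ≠
            BBg A s G K m (g + 2) h t (Dela A s G K m (g + 2) t a κ) lsel r c)).card ≤ n := by
          calc _ ≤ (univ : Finset (Fin n)).card := card_filter_le _ _
            _ = n := by simp
        omega
    refine le_trans (Finset.sum_le_sum hrow) ?_
    rw [Finset.sum_add_distrib]
    simp only [sum_const, card_univ, Fintype.card_fin, smul_eq_mul]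
    rw [← Finset.sum_filter]
    simp only [sum_const, smul_eq_mul]
    exact le_rfl

end Vale.Agent.Lib.P037
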