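import Vale.Agent.Lib.P037.AltBasic
open Finset

namespace Vale.Agent.Lib.P037

variable {n : ℕ}

open Classical in
/-- column pairs crossing in at least `a` strips -/
noncomputable def PPa (A : Fin n → Fin n → Bool) (s w m a : ℕ) : Finset (Fin n × Fin n) :=
  univ.filter (fun p => a ≤ kk A s w m p)

open Classical in
lemma sum_kk_le_a (A : Fin n → Fin n → Bool) (s w m a : ℕ) :
    ∑ p : Fin n × Fin n, kk A s w m p ≤ a * n ^ 2 + m * (PPa A s w m a).card := by
  have h1 : ∀ p ∈ (univ : Finset (Fin n × Fin n)),
      kk A s w m p ≤ a + m * (if a ≤ kk A s w m p then 1 else 0) := by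
    intro p _
    have hk : kk A s w m p ≤ m := by
      unfold kk
      calc _ ≤ (range m).card := card_filter_le _ _
        _ = m := card_range m
    split_ifs with h
    · omega
    · omega
  refine le_trans (Finset.sum_le_sum h1) ?_
  rw [Finset.sum_add_distrib, ← Finset.mul_sum]
  simp only [sum_const, card_univ, Fintype.card_prod, Fintype.card_fin, smul_eq_mul, PPa]
  rw [Finset.card_filter]
  apply le_of_eq
  ring

lemma PPa_spec (A : Fin n → Fin n → Bool) (s w m a : ℕ) (hw : 0 < w) (ha : 0 < a)
    (p : Fin n × Fin n) (hp : p ∈ PPa A s w m a) :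
    (p.1 < p.2 ∧ w ^ a ≤ (rowT A a p.1 p.2).card) ∨
    (p.2 < p.1 ∧ w ^ a ≤ (rowT A a p.2 p.1).card) := by
  classical
  unfold PPa at hp
  rw [mem_filter] at hp
  have hp2 := hp.2
  unfold kk at hp2
  set F := (range m).filter (fun i => cross A s w i p.1 p.2) with hF
  let i : Fin a → ℕ := fun k => F.orderEmbOfCardLe hp2 k
  have hi : StrictMono i := (F.orderEmbOfCardLe hp2).strictMono
  have hmem : ∀ k, cross A s w (i k) p.1 p.2 := by
    intro k
    have := F.orderEmbOfCardLe_mem hp2 k
    exact (mem_filter.mp this).2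
  have hne : p.1 ≠ p.2 := by
    intro heq
    have h0 : (xs A s (i ⟨0, ha⟩) p.1 p.2).card = 0 := by
      rw [card_eq_zero]
      apply Finset.filter_eq_empty_iff.mpr
      intro r _ hr
      rw [heq] at hr
      obtain ⟨-, h1, h2⟩ := hr
      rw [h1] at h2
      exact absurd h2 (by simp)
    have := (hmem ⟨0, ha⟩).1
    omega
  rcases lt_or_gt_of_ne hne with hlt | hgt
  · left
    refine ⟨hlt, pow_le_rowT A s a w i hi p.1 p.2 ?_⟩
    intro k
    unfold xsA
    split_ifs
    · exact (hmem k).1
    · exact (hmem k).2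
  · right
    refine ⟨hgt, pow_le_rowT A s a w i hi p.2 p.1 ?_⟩
    intro k
    unfold xsA
    split_ifs
    · exact (hmem k).2
    · exact (hmem k).1

lemma PPa_card (A : Fin n → Fin n → Bool) (s w m a : ℕ) (hw : 0 < w) (ha : 0 < a) :
    (PPa A s w m a).card * w ^ a ≤ 2 * (copiesR (alt a) A).card := by
  classical
  have h1 := Finset.card_filter_add_card_filter_not (s := PPa A s w m a) (fun p => p.1 < p.2)
  have h2 : ((PPa A s w m a).filter (fun p => p.1 < p.2)).card * w ^ a ≤
      (copiesR (alt a) A).card := by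
    apply copies_geT
    intro p hp
    rw [mem_filter] at hp
    rcases PPa_spec A s w m a hw ha p hp.1 with h | h
    · exact h
    · exact absurd hp.2 (not_lt.mpr (le_of_lt h.1))
  have h3 : ((PPa A s w m a).filter (fun p => ¬ p.1 < p.2)).card * w ^ a ≤
      (copiesR (alt a) A).card := by
    have himg : (((PPa A s w m a).filter (fun p => ¬ p.1 < p.2)).image Prod.swap).card =
        ((PPa A s w m a).filter (fun p => ¬ p.1 < p.2)).card :=
      Finset.card_image_of_injective _ Prod.swap_injective
    rw [← himg]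
    apply copies_geT
    intro q hq
    rw [mem_image] at hq
    obtain ⟨p, hp, rfl⟩ := hq
    rw [mem_filter] at hp
    rcases PPa_spec A s w m a hw ha p hp.1 with h | h
    · exact absurd h.1 hp.2
    · exact h
  calc (PPa A s w m a).card * w ^ a
      = ((PPa A s w m a).filter (fun p => p.1 < p.2)).card * w ^ a +
        ((PPa A s w m a).filter (fun p => ¬ p.1 < p.2)).card * w ^ a := by
        rw [← h1]; ring
    _ ≤ 2 * (copiesR (alt a) A).card := by omega

end Vale.Agent.Lib.P037
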