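import Vale.Agent.Lib.P037.AltCount
open Finset

namespace Vale.Agent.Lib.P037

variable {n : ℕ}

/-- columns with pattern one, zero, one, ... with respect to `a` row classes -/
def DDa (A : Fin n → Fin n → Bool) (s G K m : ℕ) (t : ℕ → ℕ) (a : ℕ) (x : Fin a → ℕ × ℕ) :
    Finset (Fin n) :=
  univ.filter (fun c => c ∉ Buf A s G K m t ∧
    ∀ k : Fin a, (thr (t (x k).1) K (x k).2 ≤ ee A s G (x k).1 c ↔ k.val % 2 = 0))

/-- columns with pattern zero, one, zero, ... with respect to `a` row classes -/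
def EEa (A : Fin n → Fin n → Bool) (s G K m : ℕ) (t : ℕ → ℕ) (a : ℕ) (x : Fin a → ℕ × ℕ) :
    Finset (Fin n) :=
  univ.filter (fun c => c ∉ Buf A s G K m t ∧
    ∀ k : Fin a, (thr (t (x k).1) K (x k).2 ≤ ee A s G (x k).1 c ↔ k.val % 2 = 1))

lemma DDa_EEa_robust (A : Fin n → Fin n → Bool) (s G K m : ℕ) (hG : 0 < G) (t : ℕ → ℕ)
    (ht : ∀ i, t i < K) (a : ℕ) (x : Fin a → ℕ × ℕ) (hmono : StrictMono (fun k => (x k).1))
    (hx : ∀ k, (x k).1 < m) (c c' : Fin n)
    (hc : c ∈ DDa A s G K m t a x) (hc' : c' ∈ EEa A s G K m t a x) :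
    G ^ a ≤ (rowT A a c c').card := by
  simp only [DDa, EEa, mem_filter, mem_univ, true_and] at hc hc'
  obtain ⟨hb, h1⟩ := hc
  obtain ⟨hb', h1'⟩ := hc'
  refine pow_le_rowT A s a G (fun k => (x k).1) hmono c c' ?_
  intro k
  unfold xsA
  split_ifs with hk
  · have e1 := (h1 k).mpr hk
    have e2 : ¬ thr (t (x k).1) K (x k).2 ≤ ee A s G (x k).1 c' := by
      intro hcon
      have := (h1' k).mp hcon
      omega
    have g1 := thr_gap (t (x k).1) K (ht _) (x k).2 _ (not_le.mp e2)
      (not_mem_Buf A s G K m t c' hb' _ (hx k))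
    exact xs_ge_of_gap A s G _ hG c c' (by omega)
  · have e1 := (h1' k).mpr (by omega)
    have e2 : ¬ thr (t (x k).1) K (x k).2 ≤ ee A s G (x k).1 c := by
      intro hcon
      exact hk ((h1 k).mp hcon)
    have g1 := thr_gap (t (x k).1) K (ht _) (x k).2 _ (not_le.mp e2)
      (not_mem_Buf A s G K m t c hb _ (hx k))
    exact xs_ge_of_gap A s G _ hG c' c (by omega)

lemma exists_cut_a (A : Fin n → Fin n → Bool) (s G K m μ : ℕ) (hG : 0 < G) (t : ℕ → ℕ)
    (ht : ∀ i, t i < K) (a : ℕ) (ha : 0 < a)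
    (hN : (copiesR (alt a) A).card < (μ + 1) * (μ + 1) * G ^ a)
    (x : Fin a → ℕ × ℕ) :
    ∃ κ : ℕ, StrictMono (fun k => (x k).1) → (∀ k, (x k).1 < m) →
      ((DDa A s G K m t a x).filter (fun c => c.val < κ)).card +
      ((EEa A s G K m t a x).filter (fun c => κ ≤ c.val)).card ≤ 2 * μ := by
  by_cases hij : StrictMono (fun k => (x k).1) ∧ (∀ k, (x k).1 < m)
  · obtain ⟨hmono, hx⟩ := hij
    rcases threshold_lemma (DDa A s G K m t a x) (EEa A s G K m t a x)
      (fun c => c.val) (fun l => l) 1 μ n rfl (fun _ => le_rfl) (fun c _ => c.isLt) with h | h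
    · obtain ⟨κ, -, hκ⟩ := h
      exact ⟨κ, fun _ _ => hκ⟩
    · exfalso
      have := copies_geT A a (((DDa A s G K m t a x) ×ˢ (EEa A s G K m t a x)).filter
        (fun p => p.1.val < p.2.val + 1)) (G ^ a) (by
          intro p hp
          simp only [mem_filter, mem_product] at hp
          obtain ⟨⟨hp1, hp2⟩, hp3⟩ := hp
          refine ⟨?_, DDa_EEa_robust A s G K m hG t ht a x hmono hx p.1 p.2 hp1 hp2⟩
          have hne : p.1 ≠ p.2 := by
            intro heq
            rw [heq] at hp1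
            simp only [DDa, EEa, mem_filter, mem_univ, true_and] at hp1 hp2
            have q1 := hp1.2 ⟨0, ha⟩
            have q2 := hp2.2 ⟨0, ha⟩
            have q3 := q1.mpr (by simp)
            have q4 := q2.mp q3
            simp at q4
          have hne' : p.1.val ≠ p.2.val := fun h => hne (Fin.ext h)
          show p.1.val < p.2.val
          omega)
      have h2 := Nat.mul_le_mul_right (G ^ a) h
      omega
  · exact ⟨0, fun h1 h2 => absurd ⟨h1, h2⟩ hij⟩

end Vale.Agent.Lib.P037
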