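import Vale.Agent.Lib.P037.AltParams
open Finset

namespace Vale.Agent.Lib.P037

/-- passage from an integer parameter version to the real statement (rectangular patterns) -/
lemma polyRemovalR_of_nat {a b : ℕ} (H : Fin a → Fin b → Bool) (a0 e q : ℕ) (ha : 0 < a0)
    (he : 0 < e)
    (h : ∀ (n : ℕ) (A : Fin n → Fin n → Bool) (M : ℕ), 32 ≤ M → 1 ≤ (copiesR H A).card →
      a0 * M ^ e * (copiesR H A).card < n ^ (a + b) →
      ∃ B : Fin n → Fin n → Bool, IsFreeR H B ∧ M * diffCount A B ≤ q * n ^ 2) :
    PolyRemovalR H := by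
  have haR : (0 : ℝ) < a0 := by exact_mod_cast ha
  have hqR : (0 : ℝ) ≤ q := by positivity
  refine ⟨1 / (a0 * (33 + q) ^ e), e, by positivity, by exact_mod_cast he, ?_⟩
  intro n hn ε hε0 hε1 A hfar
  have hnR : (0 : ℝ) < n := by exact_mod_cast hn
  have hN0 : 1 ≤ (copiesR H A).card := by
    by_contra hcon
    have h0 : (copiesR H A).card = 0 := by omega
    have hfree : IsFreeR H A := Finset.card_eq_zero.mp h0
    have h1 := hfar A hfree
    have hd : diffCount A A = 0 := by simp [diffCount]
    rw [hd] at h1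
    have h2 : 0 < ε * (n : ℝ) ^ 2 := by positivity
    simp at h1
    linarith
  obtain ⟨Z, hZ_def⟩ : ∃ Z, Z = ⌈(32 + (q : ℝ)) / ε⌉₊ := ⟨_, rfl⟩
  have hZ1 : (32 + (q : ℝ)) / ε ≤ (Z : ℝ) := by rw [hZ_def]; exact Nat.le_ceil _
  have hZ2 : (Z : ℝ) < (32 + (q : ℝ)) / ε + 1 := by
    rw [hZ_def]; exact Nat.ceil_lt_add_one (by positivity)
  have hZ32 : 32 ≤ Z := by
    have : (32 : ℝ) ≤ (32 + (q : ℝ)) / ε := by rw [le_div_iff₀ hε0]; nlinarith
    exact_mod_cast le_trans this hZ1
  have h3 : 32 + (q : ℝ) ≤ ε * Z := by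
    rw [div_le_iff₀ hε0] at hZ1; linarith
  have h4 : ε * Z ≤ 33 + q := by
    have : ε * Z < ε * ((32 + (q : ℝ)) / ε + 1) := mul_lt_mul_of_pos_left hZ2 hε0
    have h5 : ε * ((32 + (q : ℝ)) / ε + 1) = 32 + q + ε := by field_simp
    linarith
  have hmain : n ^ (a + b) ≤ a0 * Z ^ e * (copiesR H A).card := by
    by_contra hcon
    obtain ⟨B, hB, hd⟩ := h n A Z hZ32 hN0 (not_le.mp hcon)
    have h1 := hfar B hB
    have h2 : (Z : ℝ) * (diffCount A B : ℝ) ≤ q * (n : ℝ) ^ 2 := by exact_mod_cast hd
    have hn2 : (0 : ℝ) < (n : ℝ) ^ 2 := by positivity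
    have hZR : (0 : ℝ) < Z := by
      have : (32 : ℝ) ≤ Z := by exact_mod_cast hZ32
      linarith
    have h5 : (Z : ℝ) * (ε * (n : ℝ) ^ 2) ≤ q * (n : ℝ) ^ 2 :=
      le_trans (mul_le_mul_of_nonneg_left h1 hZR.le) h2
    nlinarith
  have hmainR : (n : ℝ) ^ (a + b) ≤ a0 * (Z : ℝ) ^ e * ((copiesR H A).card : ℝ) := by
    exact_mod_cast hmain
  have hpow : ε ^ ((e : ℕ) : ℝ) = ε ^ (e : ℕ) := Real.rpow_natCast ε e
  rw [hpow]
  have h6 : (ε * Z) ^ e ≤ (33 + (q : ℝ)) ^ e := pow_le_pow_left₀ (by positivity) h4 e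
  have hNR : (0 : ℝ) ≤ ((copiesR H A).card : ℝ) := by positivity
  calc 1 / (a0 * (33 + (q : ℝ)) ^ e) * ε ^ e * (n : ℝ) ^ (a + b)
      ≤ 1 / (a0 * (33 + (q : ℝ)) ^ e) * ε ^ e * (a0 * (Z : ℝ) ^ e * ((copiesR H A).card : ℝ)) := by
        apply mul_le_mul_of_nonneg_left hmainR (by positivity)
    _ = (ε * Z) ^ e / (33 + (q : ℝ)) ^ e * ((copiesR H A).card : ℝ) := by
        rw [mul_pow]; field_simp
    _ ≤ 1 * ((copiesR H A).card : ℝ) := by
        apply mul_le_mul_of_nonneg_right _ hNR
        rw [div_le_one (by positivity)]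
        exact h6
    _ = _ := one_mul _

/-- polynomial removal for the alternating pattern with `a ≥ 2` rows and two columns -/
theorem polyRemovalR_alt (a : ℕ) (ha : 2 ≤ a) : PolyRemovalR (alt a) :=
  polyRemovalR_of_nat (alt a) 4 (29 * a + 2) (a + 5) (by norm_num) (by omega)
    (fun _ A M hM hN hlt => main_nat_a A a ha M hM hN hlt)

section Runs

variable {k : ℕ} (r : Fin k → Bool)

/-- extension of `r` to the natural numbers -/
def extB (t : ℕ) : Bool := if h : t < k then r ⟨t, h⟩ else false

/-- number of changes of `r` before position `t` -/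
def cnt : ℕ → ℕ
  | 0 => 0
  | (t + 1) => cnt t + (if extB r t ≠ extB r (t + 1) then 1 else 0)

lemma cnt_le_succ (t : ℕ) : cnt r t ≤ cnt r (t + 1) := by
  simp only [cnt]; omega

lemma cnt_succ_le (t : ℕ) : cnt r (t + 1) ≤ cnt r t + 1 := by
  simp only [cnt]; split_ifs <;> omega

lemma cnt_mono : Monotone (cnt r) := monotone_nat_of_le_succ (cnt_le_succ r)

lemma cnt_parity (t : ℕ) : extB r t = xor (extB r 0) (decide (cnt r t % 2 = 1)) := by
  induction t with
  | zero => simp [cnt]
  | succ t ih =>
    simp only [cnt]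
    split_ifs with h
    · have h2 : extB r (t + 1) = !(extB r t) := by
        cases h1 : extB r t <;> cases h3 : extB r (t + 1) <;> simp_all
      rw [h2, ih]
      rcases Nat.mod_two_eq_zero_or_one (cnt r t) with h0 | h0
      · have : (cnt r t + 1) % 2 = 1 := by omega
        simp [h0, this]
      · have : ¬ (cnt r t + 1) % 2 = 1 := by omega
        simp [h0, this]
    · have h2 : extB r (t + 1) = extB r t := by
        by_contra hcon
        exact h (fun hx => hcon hx.symm)
      rw [h2, ih]
      simp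

lemma cnt_surj (T v : ℕ) (hv : v ≤ cnt r T) : ∃ t ≤ T, cnt r t = v := by
  induction T with
  | zero =>
    simp only [cnt] at hv
    exact ⟨0, le_rfl, by simp only [cnt]; omega⟩
  | succ T ih =>
    by_cases h : v ≤ cnt r T
    · obtain ⟨t, ht, hc⟩ := ih h
      exact ⟨t, by omega, hc⟩
    · have := cnt_succ_le r T
      exact ⟨T + 1, le_rfl, by omega⟩

end Runs

/-- **Two complementary column blocks.**  Every `k × k` pattern all of whose rows are
`0^p 1^(k-p)` or `1^p 0^(k-p)` has the polynomial removal property. -/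
theorem polyRemoval_twoBlocks (k : ℕ) (r : Fin k → Bool) (p : ℕ) (hp0 : 0 < p) (hpk : p < k) :
    PolyRemoval (fun i j : Fin k => xor (r i) (decide (p ≤ j.val))) := by
  have hk : 0 < k := by omega
  -- the column map
  let g : Fin k → Fin 2 := fun j => if p ≤ j.val then 1 else 0
  have hg : Monotone g := by
    intro x y hxy
    have hxy' : x.val ≤ y.val := hxy
    simp only [g]
    split_ifs with h1 h2 h2
    · exact le_rfl
    · omega
    · exact Fin.zero_le _
    · exact le_rfl
  have hgs : Function.Surjective g := by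
    intro y
    fin_cases y
    · refine ⟨⟨0, hk⟩, ?_⟩
      simp only [g]
      rw [if_neg (by simp; omega)]
      rfl
    · refine ⟨⟨p, hpk⟩, ?_⟩
      simp only [g]
      rw [if_pos le_rfl]
      rfl
  have hgv : ∀ j : Fin k, (g j).val = if p ≤ j.val then 1 else 0 := by
    intro j
    simp only [g]
    split_ifs <;> rfl
  have hext : ∀ i : Fin k, extB r i.val = r i := by
    intro i
    simp [extB, i.isLt]
  by_cases hconst : cnt r (k - 1) = 0
  · -- constant `r`
    have hc : ∀ i : Fin k, r i = extB r 0 := by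
      intro i
      have h1 : cnt r i.val ≤ cnt r (k - 1) := cnt_mono r (by have := i.isLt; omega)
      have h2 := cnt_parity r i.val
      have h3 : cnt r i.val = 0 := by omega
      rw [hext, h3] at h2
      simpa using h2
    refine polyRemoval_block2 k _ (fun _ j => xor (extB r 0) (decide (j = 1))) g g hg hgs hg hgs ?_
    intro i j
    rw [hc i]
    congr 1
    simp only [g]
    split_ifs with h <;> simp [h]
  · -- at least two runs
    set a := cnt r (k - 1) + 1 with ha_def
    have ha : 2 ≤ a := by omega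
    let f : Fin k → Fin a := fun i => ⟨cnt r i.val, by
      have h1 : cnt r i.val ≤ cnt r (k - 1) := cnt_mono r (by have := i.isLt; omega)
      omega⟩
    have hf : Monotone f := by
      intro x y hxy
      exact cnt_mono r hxy
    have hfs : Function.Surjective f := by
      intro y
      obtain ⟨t, ht, hc⟩ := cnt_surj r (k - 1) y.val (by have := y.isLt; omega)
      refine ⟨⟨t, by omega⟩, ?_⟩
      apply Fin.ext
      exact hc
    have h1 : PolyRemoval (fun i j : Fin k => alt a (f i) (g j)) := by
      rw [← polyRemovalR_iff]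
      exact polyRemovalR_blow (alt a) (polyRemovalR_alt a ha) k k f g hf hfs hg hgs
    have key : ∀ i j : Fin k, xor (r i) (decide (p ≤ j.val)) =
        xor (!(extB r 0)) (alt a (f i) (g j)) := by
      intro i j
      have h2 := cnt_parity r i.val
      rw [hext] at h2
      rw [h2]
      simp only [alt, hgv, f]
      rcases Nat.mod_two_eq_zero_or_one (cnt r i.val) with h0 | h0
      · by_cases hpj : p ≤ j.val
        · have : ¬ (cnt r i.val + 1) % 2 = 0 := by omega
          simp [h0, hpj, this]
        · simp [h0, hpj]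
      · by_cases hpj : p ≤ j.val
        · have : (cnt r i.val + 1) % 2 = 0 := by omega
          simp [h0, hpj, this]
        · simp [h0, hpj]
    cases hb : extB r 0
    · -- complement
      have e : (fun i j : Fin k => xor (r i) (decide (p ≤ j.val))) =
          bcompl (fun i j : Fin k => alt a (f i) (g j)) := by
        funext i j
        rw [key, hb]
        simp [bcompl]
      rw [e]
      exact polyRemoval_compl _ h1
    · have e : (fun i j : Fin k => xor (r i) (decide (p ≤ j.val))) =
          (fun i j : Fin k => alt a (f i) (g j)) := by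
        funext i j
        rw [key, hb]
        simp
      rw [e]
      exact h1

end Vale.Agent.Lib.P037
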