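import Vale.Agent.Lib.P037.AltCore
open Finset

namespace Vale.Agent.Lib.P037

variable {n : ℕ}

theorem main_nat_a (A : Fin n → Fin n → Bool) (a : ℕ) (ha : 2 ≤ a) (Z : ℕ) (hZ : 32 ≤ Z)
    (hN0 : 1 ≤ (copiesR (alt a) A).card)
    (hlt : 4 * Z ^ (29 * a + 2) * (copiesR (alt a) A).card < n ^ (a + 2)) :
    ∃ B : Fin n → Fin n → Bool, IsFreeR (alt a) B ∧ Z * diffCount A B ≤ (a + 5) * n ^ 2 := by
  obtain ⟨N, hN_def⟩ : ∃ N, N = (copiesR (alt a) A).card := ⟨_, rfl⟩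
  rw [← hN_def] at hN0 hlt
  have hZ0 : 0 < Z := by omega
  have ha0 : a ≠ 0 := by omega
  have hnbig : 4 * Z ^ 12 ≤ n := by
    by_contra hcon
    have hcon := not_le.mp hcon
    have h0 : n < Z ^ 13 := by
      calc n < 4 * Z ^ 12 := hcon
        _ ≤ Z * Z ^ 12 := Nat.mul_le_mul_right _ (by omega)
        _ = Z ^ 13 := by ring
    have h1 : n ^ (a + 2) < (Z ^ 13) ^ (a + 2) := Nat.pow_lt_pow_left h0 (by omega)
    have h2 : (Z ^ 13) ^ (a + 2) = Z ^ (13 * a + 26) := by ring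
    have h3 : Z ^ (13 * a + 26) ≤ 4 * Z ^ (29 * a + 2) * N := by
      calc Z ^ (13 * a + 26) ≤ Z ^ (29 * a + 2) := Nat.pow_le_pow_right hZ0 (by omega)
        _ ≤ 4 * Z ^ (29 * a + 2) := by omega
        _ ≤ 4 * Z ^ (29 * a + 2) * N := Nat.le_mul_of_pos_right _ hN0
    omega
  have hn0 : 0 < n := lt_of_lt_of_le (by positivity) hnbig
  obtain ⟨G, hG_def⟩ : ∃ G, G = n / (4 * Z ^ 12) := ⟨_, rfl⟩
  obtain ⟨h, hh_def⟩ : ∃ h, h = n / (2 * Z) := ⟨_, rfl⟩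
  obtain ⟨μ, hμ_def⟩ : ∃ μ, μ = n / (2 * Z ^ (8 * a + 1)) := ⟨_, rfl⟩
  have hG1 : 1 ≤ G := by rw [hG_def]; exact Nat.div_pos hnbig (by positivity)
  have F1a : 4 * Z ^ 12 * G ≤ n := by rw [hG_def]; exact Nat.mul_div_le n _
  have F1b : n < 8 * Z ^ 12 * G := by
    have : n < 4 * Z ^ 12 * (G + 1) := by rw [hG_def]; exact Nat.lt_mul_div_succ n (by positivity)
    have h2 : 4 * Z ^ 12 * (G + 1) ≤ 8 * Z ^ 12 * G := by nlinarith [pow_pos hZ0 12]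
    omega
  have F1c : n < Z ^ 13 * G := by
    calc n < 8 * Z ^ 12 * G := F1b
      _ = 8 * (Z ^ 12 * G) := by ring
      _ ≤ Z * (Z ^ 12 * G) := Nat.mul_le_mul_right _ (by omega)
      _ = Z ^ 13 * G := by ring
  have F2a : 2 * Z * h ≤ n := by rw [hh_def]; exact Nat.mul_div_le n _
  have F2b : n < 2 * Z * (h + 1) := by rw [hh_def]; exact Nat.lt_mul_div_succ n (by positivity)
  have F3a : 2 * Z ^ (8 * a + 1) * μ ≤ n := by rw [hμ_def]; exact Nat.mul_div_le n _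
  have F3b : n < 2 * Z ^ (8 * a + 1) * (μ + 1) := by
    rw [hμ_def]; exact Nat.lt_mul_div_succ n (by positivity)
  -- first hypothesis of the core theorem
  have hpa : n ^ a < (Z ^ 13 * G) ^ a := Nat.pow_lt_pow_left F1c ha0
  have hsq3 : n ^ 2 < (2 * Z ^ (8 * a + 1) * (μ + 1)) ^ 2 := Nat.pow_lt_pow_left F3b (by norm_num)
  have hN1 : N < (μ + 1) * (μ + 1) * G ^ a := by
    have h1 : n ^ (a + 2) < 4 * Z ^ (29 * a + 2) * ((μ + 1) * (μ + 1) * G ^ a) := by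
      calc n ^ (a + 2) = n ^ 2 * n ^ a := by ring
        _ < (2 * Z ^ (8 * a + 1) * (μ + 1)) ^ 2 * (Z ^ 13 * G) ^ a :=
            Nat.mul_lt_mul'' hsq3 hpa
        _ = 4 * Z ^ (29 * a + 2) * ((μ + 1) * (μ + 1) * G ^ a) := by ring
    exact Nat.lt_of_mul_lt_mul_left (lt_trans hlt h1)
  -- the number of strips
  have hs_eq : Z ^ 4 * Z ^ 5 * G = Z ^ 9 * G := by ring
  have hs0 : 0 < Z ^ 9 * G := by positivity
  have hm : n / (Z ^ 4 * Z ^ 5 * G) + 1 ≤ 8 * Z ^ 3 := by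
    rw [hs_eq]
    have : n / (Z ^ 9 * G) < 8 * Z ^ 3 := by
      apply Nat.div_lt_of_lt_mul
      calc n < 8 * Z ^ 12 * G := F1b
        _ = Z ^ 9 * G * (8 * Z ^ 3) := by ring
    omega
  obtain ⟨m, hm_def⟩ : ∃ m, m = n / (Z ^ 4 * Z ^ 5 * G) + 1 := ⟨_, rfl⟩
  rw [← hm_def] at hm
  have hN2 : 2 * m * N ≤ (Z ^ 5 * G) ^ a * n ^ 2 := by
    have h1 : Z ^ (13 * a) * (4 * Z ^ (16 * a + 2) * N) < Z ^ (13 * a) * (G ^ a * n ^ 2) := by
      calc Z ^ (13 * a) * (4 * Z ^ (16 * a + 2) * N) = 4 * Z ^ (29 * a + 2) * N := by ring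
        _ < n ^ (a + 2) := hlt
        _ = n ^ a * n ^ 2 := by ring
        _ ≤ (Z ^ 13 * G) ^ a * n ^ 2 := Nat.mul_le_mul_right _ (le_of_lt hpa)
        _ = Z ^ (13 * a) * (G ^ a * n ^ 2) := by ring
    have h3 : 4 * Z ^ (16 * a + 2) * N < G ^ a * n ^ 2 := Nat.lt_of_mul_lt_mul_left h1
    have h4 : N ≤ G ^ a * n ^ 2 := by
      have : N ≤ 4 * Z ^ (16 * a + 2) * N := Nat.le_mul_of_pos_left _ (by positivity)
      omega
    calc 2 * m * N ≤ 2 * (8 * Z ^ 3) * N := by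
          apply Nat.mul_le_mul_right; apply Nat.mul_le_mul_left; exact hm
      _ = 16 * (Z ^ 3 * N) := by ring
      _ ≤ Z * (Z ^ 3 * N) := Nat.mul_le_mul_right _ (by omega)
      _ = Z ^ 4 * N := by ring
      _ ≤ Z ^ (5 * a) * N := Nat.mul_le_mul_right _ (Nat.pow_le_pow_right hZ0 (by omega))
      _ ≤ Z ^ (5 * a) * (G ^ a * n ^ 2) := Nat.mul_le_mul_left _ h4
      _ = _ := by ring
  obtain ⟨B, hBfree, bad, hbad, hdiff⟩ := core_a A a (Z ^ 4) (Z ^ 5) G h μ ha (by positivity)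
    (by positivity) hG1 (by rw [← hN_def]; exact hN1) (by rw [← hN_def, ← hm_def]; exact hN2)
  rw [← hm_def] at hbad hdiff
  refine ⟨B, hBfree, ?_⟩
  have hn2 : 0 < n ^ 2 := by positivity
  -- Step 1
  have hsq2 : n ^ 2 < (2 * Z * (h + 1)) ^ 2 := Nat.pow_lt_pow_left F2b (by norm_num)
  have S1a : bad ≤ 4 * Z ^ 2 * (2 * (Z ^ 5 * G) * m + (a + 1) * (Z ^ 4 * Z ^ 5 * G)) := by
    have : bad * n ^ 2 ≤
        (4 * Z ^ 2 * (2 * (Z ^ 5 * G) * m + (a + 1) * (Z ^ 4 * Z ^ 5 * G))) * n ^ 2 := by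
      calc bad * n ^ 2 ≤ bad * (2 * Z * (h + 1)) ^ 2 := Nat.mul_le_mul_left _ (le_of_lt hsq2)
        _ = 4 * Z ^ 2 * (bad * ((h + 1) * (h + 1))) := by ring
        _ ≤ 4 * Z ^ 2 * (2 * (Z ^ 5 * G) * m * n ^ 2 + (a + 1) * (Z ^ 4 * Z ^ 5 * G) * n ^ 2) :=
            Nat.mul_le_mul_left _ hbad
        _ = _ := by ring
    exact Nat.le_of_mul_le_mul_right this hn2
  have S1 : Z * bad ≤ (a + 2) * n := by
    have h1 : Z * bad ≤ (4 * a + 6) * (Z ^ 12 * G) := by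
      calc Z * bad ≤ Z * (4 * Z ^ 2 * (2 * (Z ^ 5 * G) * m + (a + 1) * (Z ^ 4 * Z ^ 5 * G))) :=
            Nat.mul_le_mul_left _ S1a
        _ ≤ Z * (4 * Z ^ 2 * (2 * (Z ^ 5 * G) * (8 * Z ^ 3) + (a + 1) * (Z ^ 4 * Z ^ 5 * G))) := by
            apply Nat.mul_le_mul_left
            apply Nat.mul_le_mul_left
            apply Nat.add_le_add_right
            exact Nat.mul_le_mul_left _ hm
        _ = 2 * (32 * (Z ^ 11 * G)) + (4 * a + 4) * (Z ^ 12 * G) := by ring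
        _ ≤ 2 * (Z * (Z ^ 11 * G)) + (4 * a + 4) * (Z ^ 12 * G) := by
            apply Nat.add_le_add_right
            apply Nat.mul_le_mul_left
            exact Nat.mul_le_mul_right _ hZ
        _ = (4 * a + 6) * (Z ^ 12 * G) := by ring
    have h2 : 4 * (Z ^ 12 * G) ≤ n := by
      calc 4 * (Z ^ 12 * G) = 4 * Z ^ 12 * G := by ring
        _ ≤ n := F1a
    calc Z * bad ≤ (4 * a + 6) * (Z ^ 12 * G) := h1
      _ ≤ ((a + 2) * 4) * (Z ^ 12 * G) := Nat.mul_le_mul_right _ (by omega)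
      _ = (a + 2) * (4 * (Z ^ 12 * G)) := by ring
      _ ≤ (a + 2) * n := Nat.mul_le_mul_left _ h2
  -- Step 2
  have S2 : Z * (2 * h) ≤ n := by
    calc Z * (2 * h) = 2 * Z * h := by ring
      _ ≤ n := F2a
  -- Step 3
  have S3 : Z * (m * (n / Z ^ 5)) ≤ n := by
    calc Z * (m * (n / Z ^ 5)) ≤ Z * ((8 * Z ^ 3) * (n / Z ^ 5)) := by
          apply Nat.mul_le_mul_left
          exact Nat.mul_le_mul_right _ hm
      _ = 8 * (Z ^ 4 * (n / Z ^ 5)) := by ring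
      _ ≤ Z * (Z ^ 4 * (n / Z ^ 5)) := Nat.mul_le_mul_right _ (by omega)
      _ = Z ^ 5 * (n / Z ^ 5) := by ring
      _ ≤ n := Nat.mul_div_le n _
  -- Step 4
  have S4 : Z * ((m * (Z ^ 4 + 3)) ^ a * (2 * μ)) ≤ n := by
    have hZ4 : Z ^ 4 + 3 ≤ 2 * Z ^ 4 := by
      have : 3 ≤ Z ^ 4 := by
        calc 3 ≤ Z := by omega
          _ = Z ^ 1 := by ring
          _ ≤ Z ^ 4 := Nat.pow_le_pow_right hZ0 (by norm_num)
      omega
    have h1 : m * (Z ^ 4 + 3) ≤ Z ^ 8 := by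
      calc m * (Z ^ 4 + 3) ≤ (8 * Z ^ 3) * (2 * Z ^ 4) := Nat.mul_le_mul hm hZ4
        _ = 16 * Z ^ 7 := by ring
        _ ≤ Z * Z ^ 7 := Nat.mul_le_mul_right _ (by omega)
        _ = Z ^ 8 := by ring
    calc Z * ((m * (Z ^ 4 + 3)) ^ a * (2 * μ))
        ≤ Z * ((Z ^ 8) ^ a * (2 * μ)) := by
          apply Nat.mul_le_mul_left
          apply Nat.mul_le_mul_right
          exact Nat.pow_le_pow_left h1 a
      _ = 2 * Z ^ (8 * a + 1) * μ := by ring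
      _ ≤ n := F3a
  calc Z * diffCount A B
      ≤ Z * (bad * n + n * (2 * h + m * (n / Z ^ 5) +
          (m * (Z ^ 4 + 3)) ^ a * (2 * μ))) := Nat.mul_le_mul_left _ hdiff
    _ = (Z * bad) * n + n * (Z * (2 * h) + Z * (m * (n / Z ^ 5)) +
          Z * ((m * (Z ^ 4 + 3)) ^ a * (2 * μ))) := by ring
    _ ≤ ((a + 2) * n) * n + n * (n + n + n) := by
        apply Nat.add_le_add
        · exact Nat.mul_le_mul_right _ S1
        · apply Nat.mul_le_mul_left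
          omega
    _ = (a + 5) * n ^ 2 := by ring

end Vale.Agent.Lib.P037
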