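import Vale.Agent.Lib.P037.Defs
open Finset

namespace Vale.Agent.Lib.P037


lemma threshold_lemma {ι : Type*} [DecidableEq ι] (O Z : Finset ι) (f : ι → ℕ) (τ : ℕ → ℕ)
    (K h L : ℕ) (h0 : τ 0 = 0) (hstep : ∀ l, τ (l+1) ≤ τ l + K) (hL : ∀ c ∈ Z, f c < τ L) :
    (∃ l ≤ L, (O.filter (fun c => f c < τ l)).card + (Z.filter (fun c => τ l ≤ f c)).card ≤ 2*h) ∨
    (h+1)*(h+1) ≤ ((O ×ˢ Z).filter (fun p => f p.1 < f p.2 + K)).card := by
  by_cases hPL : (O.filter (fun c => f c < τ L)).card ≤ h
  · left
    refine ⟨L, le_rfl, ?_⟩
    have : (Z.filter (fun c => τ L ≤ f c)) = ∅ := by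
      apply Finset.filter_eq_empty_iff.mpr
      intro c hc
      have := hL c hc
      omega
    rw [this]; simp; omega
  · -- find the first failure
    have hex : ∃ l, ¬ (O.filter (fun c => f c < τ l)).card ≤ h := ⟨L, hPL⟩
    classical
    let l' := Nat.find hex
    have hl' : ¬ (O.filter (fun c => f c < τ l')).card ≤ h := Nat.find_spec hex
    have hl'L : l' ≤ L := Nat.find_min' hex hPL
    have hl'0 : l' ≠ 0 := by
      intro h00
      apply hl'
      rw [h00, h0]
      simp
    obtain ⟨l, hl⟩ : ∃ l, l' = l + 1 := Nat.exists_eq_succ_of_ne_zero hl'0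
    have hPl : (O.filter (fun c => f c < τ l)).card ≤ h := by
      by_contra hcon
      have := Nat.find_min' hex hcon
      omega
    by_cases hZ : (Z.filter (fun c => τ l ≤ f c)).card ≤ h
    · left
      exact ⟨l, by omega, by omega⟩
    · right
      have hsub : (O.filter (fun c => f c < τ (l+1))) ×ˢ (Z.filter (fun c => τ l ≤ f c)) ⊆
          ((O ×ˢ Z).filter (fun p => f p.1 < f p.2 + K)) := by
        intro p hp
        simp only [mem_product, mem_filter] at hp ⊢
        obtain ⟨⟨h1, h2⟩, h3, h4⟩ := hp
        refine ⟨⟨h1, h3⟩, ?_⟩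
        have := hstep l
        omega
      calc (h+1)*(h+1) ≤ (O.filter (fun c => f c < τ (l+1))).card * (Z.filter (fun c => τ l ≤ f c)).card := by
            apply Nat.mul_le_mul
            · rw [hl] at hl'; omega
            · omega
        _ = ((O.filter (fun c => f c < τ (l+1))) ×ˢ (Z.filter (fun c => τ l ≤ f c))).card := by
            rw [card_product]
        _ ≤ _ := card_le_card hsub

variable {n : ℕ}

/-- the identity pattern -/
def I2 : Fin 2 → Fin 2 → Bool := fun i j => decide (i = j)

/-- rows of strip `i` (strip length `s`) having a one in column `c` and a zero in column `c'`. -/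
def xs (A : Fin n → Fin n → Bool) (s i : ℕ) (c c' : Fin n) : Finset (Fin n) :=
  univ.filter fun r => r.val / s = i ∧ A r c = true ∧ A r c' = false

/-- degree of column `c` inside strip `i`. -/
def deg (A : Fin n → Fin n → Bool) (s i : ℕ) (c : Fin n) : ℕ :=
  (univ.filter fun r : Fin n => r.val / s = i ∧ A r c = true).card

/-- row pairs completing the column pair `(c, c')` to a copy of the identity pattern. -/
def rowPairs (A : Fin n → Fin n → Bool) (c c' : Fin n) : Finset (Fin n × Fin n) :=
  univ.filter fun p => p.1 < p.2 ∧ A p.1 c = true ∧ A p.1 c' = false ∧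
    A p.2 c = false ∧ A p.2 c' = true

lemma deg_add (A : Fin n → Fin n → Bool) (s i : ℕ) (c c' : Fin n) :
    deg A s i c + (xs A s i c' c).card = deg A s i c' + (xs A s i c c').card := by
  have h1 : deg A s i c = (univ.filter fun r : Fin n => r.val / s = i ∧ A r c = true ∧ A r c' = true).card
      + (xs A s i c c').card := by
    unfold deg xs
    rw [← Finset.card_filter_add_card_filter_not (s := univ.filter fun r : Fin n => r.val / s = i ∧ A r c = true) (fun r => A r c' = true)]
    congr 1
    · congr 1
      ext r; simp [and_assoc]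
    · congr 1
      ext r; simp [and_assoc]
  have h2 : deg A s i c' = (univ.filter fun r : Fin n => r.val / s = i ∧ A r c = true ∧ A r c' = true).card
      + (xs A s i c' c).card := by
    unfold deg xs
    rw [← Finset.card_filter_add_card_filter_not (s := univ.filter fun r : Fin n => r.val / s = i ∧ A r c' = true) (fun r => A r c = true)]
    congr 1
    · congr 1
      ext r; simp; tauto
    · congr 1
      ext r; simp [and_assoc]
  omega

lemma xs_card_le (A : Fin n → Fin n → Bool) (s i : ℕ) (hs : 0 < s) (c c' : Fin n) :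
    (xs A s i c c').card ≤ s := by
  have : (xs A s i c c').card ≤ (Finset.Ico (i*s) (i*s+s)).card := by
    apply Finset.card_le_card_of_injOn (fun r => r.val)
    · intro r hr
      simp only [xs, mem_coe, mem_filter, mem_univ, true_and] at hr
      simp only [coe_Ico, Set.mem_Ico]
      obtain ⟨h1, -, -⟩ := hr
      constructor
      · rw [← h1]; exact Nat.div_mul_le_self _ _
      · rw [← h1]
        have h2 := Nat.div_add_mod r.val s
        have h3 := Nat.mod_lt r.val hs
        nlinarith [Nat.mul_comm s (r.val / s)]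
    · intro a _ b _ hab
      exact Fin.ext hab
  simpa using this

lemma deg_le (A : Fin n → Fin n → Bool) (s i : ℕ) (hs : 0 < s) (c : Fin n) :
    deg A s i c ≤ s := by
  have : deg A s i c ≤ (Finset.Ico (i*s) (i*s+s)).card := by
    apply Finset.card_le_card_of_injOn (fun r => r.val)
    · intro r hr
      simp only [mem_coe, mem_filter, mem_univ, true_and] at hr
      simp only [coe_Ico, Set.mem_Ico]
      obtain ⟨h1, -⟩ := hr
      constructor
      · rw [← h1]; exact Nat.div_mul_le_self _ _
      · rw [← h1]
        have h2 := Nat.div_add_mod r.val s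
        have h3 := Nat.mod_lt r.val hs
        nlinarith [Nat.mul_comm s (r.val / s)]
    · intro a _ b _ hab
      exact Fin.ext hab
  simpa using this

lemma xs_mul_le (A : Fin n → Fin n → Bool) (s i j : ℕ) (hij : i < j) (c c' : Fin n) :
    (xs A s i c c').card * (xs A s j c' c).card ≤ (rowPairs A c c').card := by
  rw [← card_product]
  apply card_le_card
  intro p hp
  simp only [xs, mem_product, mem_filter, mem_univ, true_and, rowPairs] at hp ⊢
  obtain ⟨⟨h1, h2, h3⟩, h4, h5, h6⟩ := hp
  refine ⟨?_, h2, h3, h6, h5⟩
  by_contra hcon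
  have hle : p.2.val ≤ p.1.val := by
    have := not_lt.mp hcon
    exact this
  have := Nat.div_le_div_right (c := s) hle
  omega

lemma copies_ge (A : Fin n → Fin n → Bool) (S : Finset (Fin n × Fin n)) (X : ℕ)
    (hS : ∀ p ∈ S, p.1 < p.2 ∧ X ≤ (rowPairs A p.1 p.2).card) :
    S.card * X ≤ (copies I2 A).card := by
  classical
  calc S.card * X = ∑ _p ∈ S, X := by simp
    _ ≤ ∑ p ∈ S, (rowPairs A p.1 p.2).card := Finset.sum_le_sum (fun p hp => (hS p hp).2)
    _ = (S.sigma (fun p => rowPairs A p.1 p.2)).card := by rw [card_sigma]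
    _ ≤ (copies I2 A).card := by
      apply Finset.card_le_card_of_injOn
        (fun q => ((![q.2.1, q.2.2] : Fin 2 → Fin n), (![q.1.1, q.1.2] : Fin 2 → Fin n)))
      · intro q hq
        simp only [coe_sigma, Set.mem_sigma_iff, mem_coe] at hq
        obtain ⟨hq1, hq2⟩ := hq
        have hlt := (hS q.1 hq1).1
        simp only [rowPairs, mem_filter, mem_univ, true_and] at hq2
        obtain ⟨h1, h2, h3, h4, h5⟩ := hq2
        simp only [copies, mem_coe, mem_filter, mem_univ, true_and]
        refine ⟨?_, ?_, ?_⟩
        · intro a b hab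
          fin_cases a <;> fin_cases b <;> simp_all
        · intro a b hab
          fin_cases a <;> fin_cases b <;> simp_all
        · intro a b
          fin_cases a <;> fin_cases b <;> simp_all [I2]
      · intro q _ q' _ hqq
        simp only [Prod.mk.injEq] at hqq
        obtain ⟨h1, h2⟩ := hqq
        have a1 := congrFun h1 0
        have a2 := congrFun h1 1
        have b1 := congrFun h2 0
        have b2 := congrFun h2 1
        simp at a1 a2 b1 b2
        obtain ⟨⟨x1, x2⟩, ⟨y1, y2⟩⟩ := q
        obtain ⟨⟨x1', x2'⟩, ⟨y1', y2'⟩⟩ := q'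
        simp_all

end Vale.Agent.Lib.P037
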