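import Vale.Agent.Lib.P037.Cut
open Finset

namespace Vale.Agent.Lib.P037

variable {n : ℕ}

/-- mismatch of row `r` with the level set at threshold `τ` -/
def mism (A : Fin n → Fin n → Bool) (s G : ℕ) (r : Fin n) (τ : ℕ) : ℕ :=
  ((univ.filter fun c => A r c = true).filter (fun c => ee A s G (r.val / s) c < τ)).card +
  ((univ.filter fun c => A r c = false).filter (fun c => τ ≤ ee A s G (r.val / s) c)).card

/-- a row is good if it is close to some allowed level set -/
def good (A : Fin n → Fin n → Bool) (s G K L h : ℕ) (t : ℕ → ℕ) (r : Fin n) : Prop :=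
  ∃ l ≤ L, mism A s G r (thr (t (r.val / s)) K l) ≤ 2 * h

lemma ee_le (A : Fin n → Fin n → Bool) (g K G i : ℕ) (hs : 0 < g * K * G) (c : Fin n) :
    ee A (g * K * G) G i c ≤ g * K := by
  unfold ee
  have := deg_le A (g * K * G) i hs c
  exact Nat.div_le_of_le_mul (by nlinarith)

lemma bad_row (A : Fin n → Fin n → Bool) (g K G h : ℕ) (hs : 0 < g * K * G)
    (t : ℕ → ℕ) (ht : ∀ i, t i < K) (r : Fin n)
    (hr : ¬ good A (g * K * G) G K (g + 2) h t r) :
    (h + 1) * (h + 1) ≤ (NIset A (g * K * G) G K r).card := by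
  rcases threshold_lemma (univ.filter fun c => A r c = true) (univ.filter fun c => A r c = false)
    (fun c => ee A (g * K * G) G (r.val / (g * K * G)) c) (thr (t (r.val / (g * K * G))) K) K h (g + 2)
    rfl (thr_step _ K (ht _)) (by
      intro c _
      have h1 := ee_le A g K G (r.val / (g * K * G)) hs c
      have hK : 0 < K := lt_of_le_of_lt (Nat.zero_le _) (ht 0)
      show _ < thr _ K (g + 1 + 1)
      simp only [thr]
      nlinarith) with h1 | h1
  · exact absurd h1 hr
  · exact h1

/-- the deleted columns coming from the class pairs -/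
def Del2 (A : Fin n → Fin n → Bool) (s G K m L : ℕ) (t : ℕ → ℕ) (κ : ℕ → ℕ → ℕ → ℕ → ℕ) :
    Finset (Fin n) :=
  ((range m ×ˢ range (L + 1)) ×ˢ (range m ×ˢ range (L + 1))).biUnion (fun x =>
    if x.1.1 < x.2.1 then
      ((DD A s G K m t x.1.1 x.1.2 x.2.1 x.2.2).filter (fun c => c.val < κ x.1.1 x.1.2 x.2.1 x.2.2)) ∪
      ((EE A s G K m t x.1.1 x.1.2 x.2.1 x.2.2).filter (fun c => κ x.1.1 x.1.2 x.2.1 x.2.2 ≤ c.val))
    else ∅)

lemma Del2_card (A : Fin n → Fin n → Bool) (s G K m L μ : ℕ) (t : ℕ → ℕ) (κ : ℕ → ℕ → ℕ → ℕ → ℕ)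
    (hκ : ∀ i l j l', i < j → j < m →
      ((DD A s G K m t i l j l').filter (fun c => c.val < κ i l j l')).card +
      ((EE A s G K m t i l j l').filter (fun c => κ i l j l' ≤ c.val)).card ≤ 2 * μ) :
    (Del2 A s G K m L t κ).card ≤ (m * (L + 1)) * (m * (L + 1)) * (2 * μ) := by
  have := Finset.card_biUnion_le_card_mul ((range m ×ˢ range (L + 1)) ×ˢ (range m ×ˢ range (L + 1)))
    (fun x => if x.1.1 < x.2.1 then
      ((DD A s G K m t x.1.1 x.1.2 x.2.1 x.2.2).filter (fun c => c.val < κ x.1.1 x.1.2 x.2.1 x.2.2)) ∪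
      ((EE A s G K m t x.1.1 x.1.2 x.2.1 x.2.2).filter (fun c => κ x.1.1 x.1.2 x.2.1 x.2.2 ≤ c.val))
    else ∅) (2 * μ) (by
      intro x hx
      simp only [mem_product, mem_range] at hx
      split_ifs with hlt
      · exact le_trans (card_union_le _ _) (hκ _ _ _ _ hlt hx.2.1)
      · simp)
  simpa [Del2] using this

open Classical in
/-- the repaired matrix -/
noncomputable def BB (A : Fin n → Fin n → Bool) (s G K m L h : ℕ) (t : ℕ → ℕ)
    (κ : ℕ → ℕ → ℕ → ℕ → ℕ) (lsel : Fin n → ℕ) : Fin n → Fin n → Bool :=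
  fun r c => decide (good A s G K L h t r ∧ c ∉ Buf A s G K m t ∧ c ∉ Del2 A s G K m L t κ ∧
    thr (t (r.val / s)) K (lsel r) ≤ ee A s G (r.val / s) c)

lemma BB_free (A : Fin n → Fin n → Bool) (s G K m L h : ℕ) (t : ℕ → ℕ)
    (κ : ℕ → ℕ → ℕ → ℕ → ℕ) (lsel : Fin n → ℕ) (hm : ∀ r : Fin n, r.val / s < m)
    (hl : ∀ r, good A s G K L h t r → lsel r ≤ L) :
    IsFree I2 (BB A s G K m L h t κ lsel) := by
  classical
  unfold IsFree
  rw [Finset.eq_empty_iff_forall_notMem]
  intro p hp
  simp only [copies, mem_filter, mem_univ, true_and] at hp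
  obtain ⟨hr, hc, hpat⟩ := hp
  have hr12 : p.1 0 < p.1 1 := hr (by decide)
  have hc12 : p.2 0 < p.2 1 := hc (by decide)
  have h00 := hpat 0 0
  have h01 := hpat 0 1
  have h10 := hpat 1 0
  have h11 := hpat 1 1
  simp only [BB, I2] at h00 h01 h10 h11
  simp only [decide_eq_decide] at h00 h01 h10 h11
  have a00 := h00.mpr trivial
  have a11 := h11.mpr trivial
  have a01 : ¬ _ := fun hx => absurd (h01.mp hx) (by decide)
  have a10 : ¬ _ := fun hx => absurd (h10.mp hx) (by decide)
  obtain ⟨g1, b1, d1, e1⟩ := a00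
  obtain ⟨g2, b2, d2, e2⟩ := a11
  have e3 : ¬ thr (t ((p.1 0).val / s)) K (lsel (p.1 0)) ≤ ee A s G ((p.1 0).val / s) (p.2 1) :=
    fun hx => a01 ⟨g1, b2, d2, hx⟩
  have e4 : ¬ thr (t ((p.1 1).val / s)) K (lsel (p.1 1)) ≤ ee A s G ((p.1 1).val / s) (p.2 0) :=
    fun hx => a10 ⟨g2, b1, d1, hx⟩
  have hle : (p.1 0).val / s ≤ (p.1 1).val / s := Nat.div_le_div_right (le_of_lt hr12)
  rcases Nat.lt_or_ge ((p.1 0).val / s) ((p.1 1).val / s) with hlt | hge
  · -- different strips
    have hD : p.2 0 ∈ DD A s G K m t ((p.1 0).val / s) (lsel (p.1 0)) ((p.1 1).val / s) (lsel (p.1 1)) := by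
      simp only [DD, mem_filter, mem_univ, true_and]
      exact ⟨b1, e1, not_le.mp e4⟩
    have hE : p.2 1 ∈ EE A s G K m t ((p.1 0).val / s) (lsel (p.1 0)) ((p.1 1).val / s) (lsel (p.1 1)) := by
      simp only [EE, mem_filter, mem_univ, true_and]
      exact ⟨b2, not_le.mp e3, e2⟩
    have hidx : ((((p.1 0).val / s), lsel (p.1 0)), (((p.1 1).val / s), lsel (p.1 1))) ∈
        ((range m ×ˢ range (L + 1)) ×ˢ (range m ×ˢ range (L + 1))) := by
      simp only [mem_product, mem_range]
      exact ⟨⟨hm _, Nat.lt_succ_of_le (hl _ g1)⟩, hm _, Nat.lt_succ_of_le (hl _ g2)⟩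
    have k1 : κ ((p.1 0).val / s) (lsel (p.1 0)) ((p.1 1).val / s) (lsel (p.1 1)) ≤ (p.2 0).val := by
      by_contra hcon
      apply d1
      simp only [Del2, mem_biUnion]
      refine ⟨_, hidx, ?_⟩
      simp only [hlt, if_true, mem_union, mem_filter]
      left
      exact ⟨hD, not_le.mp hcon⟩
    have k2 : (p.2 1).val < κ ((p.1 0).val / s) (lsel (p.1 0)) ((p.1 1).val / s) (lsel (p.1 1)) := by
      by_contra hcon
      apply d2
      simp only [Del2, mem_biUnion]
      refine ⟨_, hidx, ?_⟩
      simp only [hlt, if_true, mem_union, mem_filter]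
      right
      exact ⟨hE, not_lt.mp hcon⟩
    have : (p.2 0).val < (p.2 1).val := hc12
    omega
  · have heq : (p.1 0).val / s = (p.1 1).val / s := le_antisymm hle hge
    rw [heq] at e1 e3
    omega

lemma diffCount_eq (A B : Fin n → Fin n → Bool) :
    diffCount A B = ∑ r : Fin n, (univ.filter (fun c => A r c ≠ B r c)).card := by
  unfold diffCount
  rw [Finset.card_filter, Fintype.sum_prod_type]
  apply Finset.sum_congr rfl
  intro r _
  rw [Finset.card_filter]

lemma row_diff_good (A : Fin n → Fin n → Bool) (s G K m L h : ℕ) (t : ℕ → ℕ)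
    (κ : ℕ → ℕ → ℕ → ℕ → ℕ) (lsel : Fin n → ℕ) (r : Fin n)
    (hg : good A s G K L h t r)
    (hl : mism A s G r (thr (t (r.val / s)) K (lsel r)) ≤ 2 * h) :
    (univ.filter (fun c => A r c ≠ BB A s G K m L h t κ lsel r c)).card ≤
      2 * h + (Buf A s G K m t).card + (Del2 A s G K m L t κ).card := by
  classical
  have hsub : (univ.filter (fun c => A r c ≠ BB A s G K m L h t κ lsel r c)) ⊆
      ((((univ.filter fun c => A r c = true).filter
          (fun c => ee A s G (r.val / s) c < thr (t (r.val / s)) K (lsel r))) ∪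
        ((univ.filter fun c => A r c = false).filter
          (fun c => thr (t (r.val / s)) K (lsel r) ≤ ee A s G (r.val / s) c))) ∪
        (Buf A s G K m t)) ∪ (Del2 A s G K m L t κ) := by
    intro c hc
    simp only [mem_filter, mem_univ, true_and] at hc
    simp only [BB] at hc
    simp only [mem_union, mem_filter, mem_univ, true_and]
    by_cases hb : c ∈ Buf A s G K m t
    · left; right; exact hb
    by_cases hd : c ∈ Del2 A s G K m L t κ
    · right; exact hd
    left; left
    by_cases hthr : thr (t (r.val / s)) K (lsel r) ≤ ee A s G (r.val / s) c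
    · right
      refine ⟨?_, hthr⟩
      have : decide (good A s G K L h t r ∧ c ∉ Buf A s G K m t ∧ c ∉ Del2 A s G K m L t κ ∧
        thr (t (r.val / s)) K (lsel r) ≤ ee A s G (r.val / s) c) = true := by
        simp only [decide_eq_true_eq]
        exact ⟨hg, hb, hd, hthr⟩
      rw [this] at hc
      simpa using hc
    · left
      refine ⟨?_, not_le.mp hthr⟩
      have : decide (good A s G K L h t r ∧ c ∉ Buf A s G K m t ∧ c ∉ Del2 A s G K m L t κ ∧
        thr (t (r.val / s)) K (lsel r) ≤ ee A s G (r.val / s) c) = false := by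
        simp only [decide_eq_false_iff_not]
        intro hx
        exact hthr hx.2.2.2
      rw [this] at hc
      simpa using hc
  refine le_trans (card_le_card hsub) ?_
  refine le_trans (card_union_le _ _) ?_
  refine Nat.add_le_add_right ?_ _
  refine le_trans (card_union_le _ _) ?_
  refine Nat.add_le_add_right ?_ _
  refine le_trans (card_union_le _ _) ?_
  exact hl

theorem core (A : Fin n → Fin n → Bool) (g K G h μ : ℕ) (hg : 0 < g) (hK : 0 < K) (hG : 0 < G)
    (hN1 : (copies I2 A).card < (μ + 1) * (μ + 1) * (G * G))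
    (hN2 : 2 * (n / (g * K * G) + 1) * (copies I2 A).card ≤ (K * G) * (K * G) * n ^ 2) :
    ∃ B : Fin n → Fin n → Bool, IsFree I2 B ∧ ∃ bad : ℕ,
      bad * ((h + 1) * (h + 1)) ≤
        2 * (K * G) * (n / (g * K * G) + 1) * n ^ 2 + 2 * (g * K * G) * n ^ 2 ∧
      diffCount A B ≤ bad * n + n * (2 * h + (n / (g * K * G) + 1) * (n / K) +
        ((n / (g * K * G) + 1) * (g + 3)) * ((n / (g * K * G) + 1) * (g + 3)) * (2 * μ)) := by
  classical
  set s := g * K * G with hs_def
  set m := n / s + 1 with hm_def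
  have hs : 0 < s := by positivity
  have hm : ∀ r : Fin n, r.val / s < m := by
    intro r
    have : r.val / s ≤ n / s := Nat.div_le_div_right (le_of_lt r.isLt)
    omega
  choose t ht1 ht2 using fun i => exists_offset A s G K i hK
  choose κ hκ using fun i l j l' => exists_cut A s G K m μ hG t ht1 hN1 i l j l'
  have hsel : ∀ r : Fin n, ∃ l, good A s G K (g + 2) h t r →
      (l ≤ g + 2 ∧ mism A s G r (thr (t (r.val / s)) K l) ≤ 2 * h) := by
    intro r
    by_cases hgr : good A s G K (g + 2) h t r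
    · obtain ⟨l, hl1, hl2⟩ := hgr
      exact ⟨l, fun _ => ⟨hl1, hl2⟩⟩
    · exact ⟨0, fun hx => absurd hx hgr⟩
  choose lsel hlsel using hsel
  refine ⟨BB A s G K m (g + 2) h t κ lsel, BB_free A s G K m (g + 2) h t κ lsel hm
    (fun r hr => (hlsel r hr).1), (univ.filter (fun r => ¬ good A s G K (g + 2) h t r)).card, ?_, ?_⟩
  · -- bound on bad rows
    have h1 := count_bad A s G K m ((h + 1) * (h + 1)) hs hG hm
      (univ.filter (fun r => ¬ good A s G K (g + 2) h t r)) (by
        intro r hr
        rw [mem_filter] at hr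
        exact bad_row A g K G h hs t ht1 r hr.2)
    have h2 := sum_kk_le A s (K * G) m
    have h3 := PP_card A s (K * G) m (by positivity)
    have hw : 0 < (K * G) * (K * G) := by positivity
    have h4 : m * (PP A s (K * G) m).card ≤ n ^ 2 := by
      have : (m * (PP A s (K * G) m).card) * ((K * G) * (K * G)) ≤ n ^ 2 * ((K * G) * (K * G)) := by
        calc (m * (PP A s (K * G) m).card) * ((K * G) * (K * G))
            = m * ((PP A s (K * G) m).card * ((K * G) * (K * G))) := by ring
          _ ≤ m * (2 * (copies I2 A).card) := Nat.mul_le_mul_left m h3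
          _ = 2 * m * (copies I2 A).card := by ring
          _ ≤ (K * G) * (K * G) * n ^ 2 := hN2
          _ = n ^ 2 * ((K * G) * (K * G)) := by ring
      exact Nat.le_of_mul_le_mul_right this hw
    calc _ ≤ 2 * (K * G) * m * n ^ 2 + s * ∑ p : Fin n × Fin n, kk A s (K * G) m p := h1
      _ ≤ 2 * (K * G) * m * n ^ 2 + s * (n ^ 2 + n ^ 2) := by
          apply Nat.add_le_add_left
          apply Nat.mul_le_mul_left
          omega
      _ = _ := by ring
  · rw [diffCount_eq]
    have hB := Buf_card A s G K m t ht2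
    have hD := Del2_card A s G K m (g + 2) μ t κ hκ
    have hrow : ∀ r ∈ (univ : Finset (Fin n)),
        (univ.filter (fun c => A r c ≠ BB A s G K m (g + 2) h t κ lsel r c)).card ≤
        (if ¬ good A s G K (g + 2) h t r then n else 0) +
          (2 * h + m * (n / K) + (m * (g + 3)) * (m * (g + 3)) * (2 * μ)) := by
      intro r _
      by_cases hgr : good A s G K (g + 2) h t r
      · have := row_diff_good A s G K m (g + 2) h t κ lsel r hgr (hlsel r hgr).2
        simp only [hgr, not_true_eq_false, if_false]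
        have e : g + 2 + 1 = g + 3 := rfl
        rw [e] at hD
        omega
      · simp only [hgr, not_false_eq_true, if_true]
        have : (univ.filter (fun c => A r c ≠ BB A s G K m (g + 2) h t κ lsel r c)).card ≤ n := by
          calc _ ≤ (univ : Finset (Fin n)).card := card_filter_le _ _
            _ = n := by simp
        omega
    refine le_trans (Finset.sum_le_sum hrow) ?_
    rw [Finset.sum_add_distrib]
    simp only [sum_const, card_univ, Fintype.card_fin, smul_eq_mul]
    rw [← Finset.sum_filter]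
    simp only [sum_const, smul_eq_mul]
    exact le_rfl

end Vale.Agent.Lib.P037
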