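import Vale.Agent.Lib.P037.Basic
open Finset

namespace Vale.Agent.Lib.P037

variable {n : ℕ}

/-- fine degree index -/
def ee (A : Fin n → Fin n → Bool) (s G i : ℕ) (c : Fin n) : ℕ := deg A s i c / G

/-- the column pair crosses robustly in strip `i` -/
def cross (A : Fin n → Fin n → Bool) (s w i : ℕ) (c c' : Fin n) : Prop :=
  w ≤ (xs A s i c c').card ∧ w ≤ (xs A s i c' c).card

lemma deg_lt_of_ee (A : Fin n → Fin n → Bool) (s G K i : ℕ) (hG : 0 < G) (c c' : Fin n)
    (h : ee A s G i c < ee A s G i c' + K) : deg A s i c < deg A s i c' + K * G := by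
  unfold ee at h
  have h1 := Nat.div_add_mod (deg A s i c) G
  have h2 := Nat.mod_lt (deg A s i c) hG
  have h3 := Nat.div_add_mod (deg A s i c') G
  set a := deg A s i c / G
  set b := deg A s i c' / G
  have h4 : G * (a + 1) ≤ G * (b + K) := Nat.mul_le_mul_left G (by omega)
  have h5 : G * (a + 1) = G * a + G := by ring
  have h6 : G * (b + K) = G * b + K * G := by ring
  omega

open Classical in
lemma xs_le_of_ee (A : Fin n → Fin n → Bool) (s G K i : ℕ) (hs : 0 < s) (hG : 0 < G) (c c' : Fin n)
    (h : ee A s G i c < ee A s G i c' + K) :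
    (xs A s i c c').card ≤ 2 * (K * G) + s * (if cross A s (K * G) i c c' then 1 else 0) := by
  by_cases h2 : (xs A s i c c').card < 2 * (K * G)
  · omega
  · have h3 := deg_lt_of_ee A s G K i hG c c' h
    have h4 := deg_add A s i c c'
    have hc : cross A s (K * G) i c c' := by
      constructor <;> omega
    rw [if_pos hc]
    have := xs_card_le A s i hs c c'
    omega

/-- near inversions of row `r` -/
def NIset (A : Fin n → Fin n → Bool) (s G K : ℕ) (r : Fin n) : Finset (Fin n × Fin n) :=
  ((univ.filter fun c => A r c = true) ×ˢ (univ.filter fun c => A r c = false)).filter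
    (fun p => ee A s G (r.val / s) p.1 < ee A s G (r.val / s) p.2 + K)

open Classical in
/-- number of strips in which the pair crosses -/
noncomputable def kk (A : Fin n → Fin n → Bool) (s w m : ℕ) (p : Fin n × Fin n) : ℕ :=
  ((range m).filter (fun i => cross A s w i p.1 p.2)).card

open Classical in
lemma fiber_le (A : Fin n → Fin n → Bool) (s G K m : ℕ) (hs : 0 < s) (hG : 0 < G)
    (hm : ∀ r : Fin n, r.val / s < m) (p : Fin n × Fin n) :
    (univ.filter (fun r : Fin n => p ∈ NIset A s G K r)).card
      ≤ 2 * (K * G) * m + s * kk A s (K * G) m p := by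
  have hmaps : ∀ r ∈ (univ.filter (fun r : Fin n => p ∈ NIset A s G K r)), r.val / s ∈ range m := by
    intro r _
    exact mem_range.mpr (hm r)
  rw [Finset.card_eq_sum_card_fiberwise hmaps]
  have hle : ∀ i ∈ range m, ((univ.filter (fun r : Fin n => p ∈ NIset A s G K r)).filter
      (fun r => r.val / s = i)).card ≤ 2 * (K * G) + s * (if cross A s (K * G) i p.1 p.2 then 1 else 0) := by
    intro i _
    by_cases hc : ee A s G i p.1 < ee A s G i p.2 + K
    · refine le_trans ?_ (xs_le_of_ee A s G K i hs hG p.1 p.2 hc)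
      apply card_le_card
      intro r hr
      simp only [NIset, mem_filter, mem_univ, true_and, mem_product, xs] at hr ⊢
      exact ⟨hr.2, hr.1.1.1, hr.1.1.2⟩
    · have : ((univ.filter (fun r : Fin n => p ∈ NIset A s G K r)).filter
        (fun r => r.val / s = i)) = ∅ := by
        apply Finset.filter_eq_empty_iff.mpr
        intro r hr hri
        simp only [NIset, mem_filter, mem_univ, true_and, mem_product] at hr
        rw [hri] at hr
        exact hc hr.2
      rw [this]; simp
  refine le_trans (Finset.sum_le_sum hle) ?_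
  rw [Finset.sum_add_distrib]
  simp only [sum_const, card_range, smul_eq_mul, kk]
  rw [Finset.card_filter, Finset.mul_sum]
  apply le_of_eq
  ring

open Classical in
lemma count_bad (A : Fin n → Fin n → Bool) (s G K m X : ℕ) (hs : 0 < s) (hG : 0 < G)
    (hm : ∀ r : Fin n, r.val / s < m) (Bad : Finset (Fin n))
    (hBad : ∀ r ∈ Bad, X ≤ (NIset A s G K r).card) :
    Bad.card * X ≤ 2 * (K * G) * m * n ^ 2 + s * ∑ p : Fin n × Fin n, kk A s (K * G) m p := by
  calc Bad.card * X = ∑ _r ∈ Bad, X := by simp
    _ ≤ ∑ r ∈ Bad, (NIset A s G K r).card := Finset.sum_le_sum hBad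
    _ ≤ ∑ r : Fin n, (NIset A s G K r).card :=
        Finset.sum_le_sum_of_subset (Finset.subset_univ _)
    _ = ∑ r : Fin n, ((univ : Finset (Fin n × Fin n)).bipartiteAbove
          (fun r p => p ∈ NIset A s G K r) r).card := by
        apply Finset.sum_congr rfl
        intro r _
        congr 1
        ext p
        simp [Finset.bipartiteAbove]
    _ = ∑ p : Fin n × Fin n, ((univ : Finset (Fin n)).bipartiteBelow
          (fun r p => p ∈ NIset A s G K r) p).card :=
        Finset.sum_card_bipartiteAbove_eq_sum_card_bipartiteBelow _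
    _ ≤ ∑ p : Fin n × Fin n, (2 * (K * G) * m + s * kk A s (K * G) m p) := by
        apply Finset.sum_le_sum
        intro p _
        exact fiber_le A s G K m hs hG hm p
    _ = 2 * (K * G) * m * n ^ 2 + s * ∑ p : Fin n × Fin n, kk A s (K * G) m p := by
        rw [Finset.sum_add_distrib, Finset.mul_sum]
        simp only [sum_const, card_univ, Fintype.card_prod, Fintype.card_fin, smul_eq_mul]
        ring

open Classical in
/-- column pairs crossing in at least two strips -/
noncomputable def PP (A : Fin n → Fin n → Bool) (s w m : ℕ) : Finset (Fin n × Fin n) :=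
  univ.filter (fun p => 2 ≤ kk A s w m p)

open Classical in
lemma sum_kk_le (A : Fin n → Fin n → Bool) (s w m : ℕ) :
    ∑ p : Fin n × Fin n, kk A s w m p ≤ n ^ 2 + m * (PP A s w m).card := by
  have h1 : ∀ p ∈ (univ : Finset (Fin n × Fin n)),
      kk A s w m p ≤ 1 + m * (if 2 ≤ kk A s w m p then 1 else 0) := by
    intro p _
    have hk : kk A s w m p ≤ m := by
      unfold kk
      calc _ ≤ (range m).card := card_filter_le _ _
        _ = m := card_range m
    split_ifs with h
    · omega
    · omega
  refine le_trans (Finset.sum_le_sum h1) ?_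
  rw [Finset.sum_add_distrib, ← Finset.mul_sum]
  simp only [sum_const, card_univ, Fintype.card_prod, Fintype.card_fin, smul_eq_mul, PP]
  rw [Finset.card_filter]
  apply le_of_eq
  ring

lemma PP_spec (A : Fin n → Fin n → Bool) (s w m : ℕ) (hw : 0 < w) (p : Fin n × Fin n)
    (hp : p ∈ PP A s w m) :
    (p.1 < p.2 ∧ w * w ≤ (rowPairs A p.1 p.2).card) ∨
    (p.2 < p.1 ∧ w * w ≤ (rowPairs A p.2 p.1).card) := by
  classical
  unfold PP at hp
  rw [mem_filter] at hp
  have hp2 := hp.2
  unfold kk at hp2
  obtain ⟨a, ha, b, hb, hab⟩ := Finset.one_lt_card.mp (lt_of_lt_of_le one_lt_two hp2)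
  rw [mem_filter] at ha hb
  -- wlog a < b
  have key : ∀ i j : ℕ, i < j → cross A s w i p.1 p.2 → cross A s w j p.1 p.2 →
      (p.1 < p.2 ∧ w * w ≤ (rowPairs A p.1 p.2).card) ∨
      (p.2 < p.1 ∧ w * w ≤ (rowPairs A p.2 p.1).card) := by
    intro i j hij hi hj
    have hne : p.1 ≠ p.2 := by
      intro heq
      have h0 : (xs A s i p.1 p.2).card = 0 := by
        rw [card_eq_zero]
        apply Finset.filter_eq_empty_iff.mpr
        intro r _ hr
        rw [heq] at hr
        obtain ⟨-, h1, h2⟩ := hr
        rw [h1] at h2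
        exact absurd h2 (by simp)
      have := hi.1
      omega
    rcases lt_or_gt_of_ne hne with hlt | hgt
    · left
      refine ⟨hlt, le_trans ?_ (xs_mul_le A s i j hij p.1 p.2)⟩
      exact Nat.mul_le_mul hi.1 hj.2
    · right
      refine ⟨hgt, le_trans ?_ (xs_mul_le A s i j hij p.2 p.1)⟩
      exact Nat.mul_le_mul hi.2 hj.1
  rcases lt_or_gt_of_ne hab with h | h
  · exact key a b h ha.2 hb.2
  · exact key b a h hb.2 ha.2

lemma PP_card (A : Fin n → Fin n → Bool) (s w m : ℕ) (hw : 0 < w) :
    (PP A s w m).card * (w * w) ≤ 2 * (copies I2 A).card := by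
  classical
  have h1 := Finset.card_filter_add_card_filter_not (s := PP A s w m) (fun p => p.1 < p.2)
  have h2 : ((PP A s w m).filter (fun p => p.1 < p.2)).card * (w * w) ≤ (copies I2 A).card := by
    apply copies_ge
    intro p hp
    rw [mem_filter] at hp
    rcases PP_spec A s w m hw p hp.1 with h | h
    · exact h
    · exact absurd hp.2 (not_lt.mpr (le_of_lt h.1))
  have h3 : ((PP A s w m).filter (fun p => ¬ p.1 < p.2)).card * (w * w) ≤ (copies I2 A).card := by
    have himg : (((PP A s w m).filter (fun p => ¬ p.1 < p.2)).image Prod.swap).card =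
        ((PP A s w m).filter (fun p => ¬ p.1 < p.2)).card :=
      Finset.card_image_of_injective _ Prod.swap_injective
    rw [← himg]
    apply copies_ge
    intro q hq
    rw [mem_image] at hq
    obtain ⟨p, hp, rfl⟩ := hq
    rw [mem_filter] at hp
    rcases PP_spec A s w m hw p hp.1 with h | h
    · exact absurd h.1 hp.2
    · exact h
  nlinarith

end Vale.Agent.Lib.P037
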