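import Vale.Agent.Lib.P037.Basic
open Finset

namespace Vale.Agent.Lib.P037

variable {n : ℕ}

lemma sq_le_lt (F : Finset (Fin n)) :
    F.card ^ 2 ≤ F.card + 2 * ((F ×ˢ F).filter (fun p => p.1 < p.2)).card := by
  classical
  have hsub : F ×ˢ F ⊆ ((F ×ˢ F).filter (fun p => p.1 = p.2) ∪ (F ×ˢ F).filter (fun p => p.1 < p.2)) ∪
      (F ×ˢ F).filter (fun p => p.2 < p.1) := by
    intro p hp
    simp only [mem_union, mem_filter]
    rcases lt_trichotomy p.1 p.2 with h | h | h
    · left; right; exact ⟨hp, h⟩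
    · left; left; exact ⟨hp, h⟩
    · right; exact ⟨hp, h⟩
  have h1 : ((F ×ˢ F).filter (fun p => p.1 = p.2)).card ≤ F.card := by
    apply Finset.card_le_card_of_injOn (fun p => p.1)
    · intro p hp
      simp only [mem_coe, mem_filter, mem_product] at hp
      exact hp.1.1
    · intro p hp q hq hpq
      simp only [mem_coe, mem_filter, mem_product] at hp hq
      simp only at hpq
      exact Prod.ext hpq (by rw [← hp.2, ← hq.2, hpq])
  have h2 : ((F ×ˢ F).filter (fun p => p.2 < p.1)).card ≤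
      ((F ×ˢ F).filter (fun p => p.1 < p.2)).card := by
    apply Finset.card_le_card_of_injOn (fun p => (p.2, p.1))
    · intro p hp
      simp only [mem_coe, mem_filter, mem_product] at hp ⊢
      exact ⟨⟨hp.1.2, hp.1.1⟩, hp.2⟩
    · intro p _ q _ hpq
      simp only [Prod.mk.injEq] at hpq
      exact Prod.ext hpq.2 hpq.1
  have h3 := card_le_card hsub
  rw [card_product] at h3
  have h4 := card_union_le ((F ×ˢ F).filter (fun p => p.1 = p.2) ∪ (F ×ˢ F).filter (fun p => p.1 < p.2))
      ((F ×ˢ F).filter (fun p => p.2 < p.1))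
  have h5 := card_union_le ((F ×ˢ F).filter (fun p => p.1 = p.2)) ((F ×ˢ F).filter (fun p => p.1 < p.2))
  have : F.card ^ 2 = F.card * F.card := by ring
  omega

/-- Cauchy-Schwarz combined with the splitting of squares. -/
lemma sq_sum_le_pairs {ι : Type*} (U : Finset ι) (F : ι → Finset (Fin n)) :
    (∑ u ∈ U, (F u).card) ^ 2 ≤ U.card * (∑ u ∈ U, (F u).card +
      2 * ∑ u ∈ U, ((F u ×ˢ F u).filter (fun p => p.1 < p.2)).card) := by
  calc (∑ u ∈ U, (F u).card) ^ 2 ≤ U.card * ∑ u ∈ U, (F u).card ^ 2 := sq_sum_le_card_mul_sum_sq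
    _ ≤ U.card * ∑ u ∈ U, ((F u).card + 2 * ((F u ×ˢ F u).filter (fun p => p.1 < p.2)).card) := by
        apply Nat.mul_le_mul_left
        apply Finset.sum_le_sum
        intro u _
        exact sq_le_lt (F u)
    _ = _ := by rw [Finset.sum_add_distrib, Finset.mul_sum]

end Vale.Agent.Lib.P037
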