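import Vale.Agent.Lib.P037.Count
open Finset

namespace Vale.Agent.Lib.P037

variable {n : ℕ}

/-- allowed thresholds -/
def thr (t K : ℕ) : ℕ → ℕ
  | 0 => 0
  | (l+1) => t + l * K

lemma thr_step (t K : ℕ) (ht : t < K) (l : ℕ) : thr t K (l+1) ≤ thr t K l + K := by
  cases l with
  | zero => simp [thr]; omega
  | succ l => simp only [thr]; nlinarith

lemma thr_gap (t K : ℕ) (ht : t < K) (l e : ℕ) (h1 : e < thr t K l) (h2 : (e + 1) % K ≠ t) :
    e + 1 < thr t K l := by
  cases l with
  | zero => simp [thr] at h1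
  | succ l =>
    simp only [thr] at h1 ⊢
    by_contra hcon
    have heq : e + 1 = t + l * K := by omega
    apply h2
    rw [heq, Nat.add_mul_mod_self_right, Nat.mod_eq_of_lt ht]

lemma exists_offset (A : Fin n → Fin n → Bool) (s G K i : ℕ) (hK : 0 < K) :
    ∃ t, t < K ∧ (univ.filter (fun c : Fin n => (ee A s G i c + 1) % K = t)).card ≤ n / K := by
  have h := Finset.exists_card_fiber_lt_of_card_lt_mul (s := (univ : Finset (Fin n))) (t := range K)
    (f := fun c : Fin n => (ee A s G i c + 1) % K) (n := n / K + 1)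
    (by simpa using Nat.lt_mul_div_succ n hK)
  obtain ⟨t, ht, hcard⟩ := h
  exact ⟨t, mem_range.mp ht, by omega⟩

/-- buffer columns -/
def Buf (A : Fin n → Fin n → Bool) (s G K m : ℕ) (t : ℕ → ℕ) : Finset (Fin n) :=
  (range m).biUnion (fun i => univ.filter (fun c : Fin n => (ee A s G i c + 1) % K = t i))

lemma Buf_card (A : Fin n → Fin n → Bool) (s G K m : ℕ) (t : ℕ → ℕ)
    (ht : ∀ i, (univ.filter (fun c : Fin n => (ee A s G i c + 1) % K = t i)).card ≤ n / K) :
    (Buf A s G K m t).card ≤ m * (n / K) := by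
  have := Finset.card_biUnion_le_card_mul (range m)
    (fun i => univ.filter (fun c : Fin n => (ee A s G i c + 1) % K = t i)) (n / K) (fun i _ => ht i)
  simpa [Buf] using this

lemma not_mem_Buf (A : Fin n → Fin n → Bool) (s G K m : ℕ) (t : ℕ → ℕ) (c : Fin n)
    (hc : c ∉ Buf A s G K m t) (i : ℕ) (hi : i < m) : (ee A s G i c + 1) % K ≠ t i := by
  intro h
  apply hc
  simp only [Buf, mem_biUnion, mem_range, mem_filter, mem_univ, true_and]
  exact ⟨i, hi, h⟩

/-- a robust degree gap gives many rows with pattern one-zero -/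
lemma xs_ge_of_gap (A : Fin n → Fin n → Bool) (s G i : ℕ) (hG : 0 < G) (c c' : Fin n)
    (h : ee A s G i c' + 2 ≤ ee A s G i c) : G ≤ (xs A s i c c').card := by
  unfold ee at h
  have h1 := Nat.div_add_mod (deg A s i c) G
  have h3 := Nat.div_add_mod (deg A s i c') G
  have h2 := Nat.mod_lt (deg A s i c') hG
  have h4 := deg_add A s i c c'
  set a := deg A s i c / G
  set b := deg A s i c' / G
  have h5 : G * (b + 2) ≤ G * a := Nat.mul_le_mul_left G h
  have h6 : G * (b + 2) = G * b + 2 * G := by ring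
  omega

/-- columns with pattern one-zero with respect to two row classes -/
def DD (A : Fin n → Fin n → Bool) (s G K m : ℕ) (t : ℕ → ℕ) (i l j l' : ℕ) : Finset (Fin n) :=
  univ.filter (fun c => c ∉ Buf A s G K m t ∧ thr (t i) K l ≤ ee A s G i c ∧
    ee A s G j c < thr (t j) K l')

/-- columns with pattern zero-one with respect to two row classes -/
def EE (A : Fin n → Fin n → Bool) (s G K m : ℕ) (t : ℕ → ℕ) (i l j l' : ℕ) : Finset (Fin n) :=
  univ.filter (fun c => c ∉ Buf A s G K m t ∧ ee A s G i c < thr (t i) K l ∧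
    thr (t j) K l' ≤ ee A s G j c)

lemma DD_EE_robust (A : Fin n → Fin n → Bool) (s G K m : ℕ) (hG : 0 < G) (t : ℕ → ℕ)
    (ht : ∀ i, t i < K) (i l j l' : ℕ) (hij : i < j) (hj : j < m) (c c' : Fin n)
    (hc : c ∈ DD A s G K m t i l j l') (hc' : c' ∈ EE A s G K m t i l j l') :
    G * G ≤ (rowPairs A c c').card := by
  simp only [DD, EE, mem_filter, mem_univ, true_and] at hc hc'
  obtain ⟨hb, h1, h2⟩ := hc
  obtain ⟨hb', h1', h2'⟩ := hc'
  have g1 := thr_gap (t i) K (ht i) l _ h1' (not_mem_Buf A s G K m t c' hb' i (by omega))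
  have g2 := thr_gap (t j) K (ht j) l' _ h2 (not_mem_Buf A s G K m t c hb j hj)
  refine le_trans ?_ (xs_mul_le A s i j hij c c')
  apply Nat.mul_le_mul
  · exact xs_ge_of_gap A s G i hG c c' (by omega)
  · exact xs_ge_of_gap A s G j hG c' c (by omega)

lemma exists_cut (A : Fin n → Fin n → Bool) (s G K m μ : ℕ) (hG : 0 < G) (t : ℕ → ℕ)
    (ht : ∀ i, t i < K) (hN : (copies I2 A).card < (μ + 1) * (μ + 1) * (G * G))
    (i l j l' : ℕ) :
    ∃ κ : ℕ, i < j → j < m →
      ((DD A s G K m t i l j l').filter (fun c => c.val < κ)).card +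
      ((EE A s G K m t i l j l').filter (fun c => κ ≤ c.val)).card ≤ 2 * μ := by
  by_cases hij : i < j ∧ j < m
  · obtain ⟨hij, hj⟩ := hij
    rcases threshold_lemma (DD A s G K m t i l j l') (EE A s G K m t i l j l')
      (fun c => c.val) (fun l => l) 1 μ n rfl (fun _ => le_rfl) (fun c _ => c.isLt) with h | h
    · obtain ⟨κ, -, hκ⟩ := h
      exact ⟨κ, fun _ _ => hκ⟩
    · exfalso
      have := copies_ge A (((DD A s G K m t i l j l') ×ˢ (EE A s G K m t i l j l')).filter
        (fun p => p.1.val < p.2.val + 1)) (G * G) (by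
          intro p hp
          simp only [mem_filter, mem_product] at hp
          obtain ⟨⟨hp1, hp2⟩, hp3⟩ := hp
          refine ⟨?_, DD_EE_robust A s G K m hG t ht i l j l' hij hj p.1 p.2 hp1 hp2⟩
          have hne : p.1 ≠ p.2 := by
            intro heq
            rw [heq] at hp1
            simp only [DD, EE, mem_filter, mem_univ, true_and] at hp1 hp2
            omega
          have hne' : p.1.val ≠ p.2.val := fun h => hne (Fin.ext h)
          show p.1.val < p.2.val
          omega)
      have h2 := Nat.mul_le_mul_right (G * G) h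
      omega
  · exact ⟨0, fun h1 h2 => absurd ⟨h1, h2⟩ hij⟩

end Vale.Agent.Lib.P037
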