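import Mathlib

namespace Vale.Agent.Lib.P037

open Classical in
/-- The set of ordered copies of the `k × k` binary pattern `H` in the `n × n` binary matrix `A`:
pairs of strictly increasing row and column selections on which `A` agrees with `H`. -/
noncomputable def copies {k n : ℕ} (H : Fin k → Fin k → Bool) (A : Fin n → Fin n → Bool) :
    Finset ((Fin k → Fin n) × (Fin k → Fin n)) :=
  Finset.univ.filter
    (fun p => StrictMono p.1 ∧ StrictMono p.2 ∧ ∀ i j, A (p.1 i) (p.2 j) = H i j)

/-- `A` is `H`-free: it has no ordered copy of `H`. -/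
def IsFree {k n : ℕ} (H : Fin k → Fin k → Bool) (A : Fin n → Fin n → Bool) : Prop :=
  copies H A = ∅

/-- Number of entries in which two matrices differ. -/
def diffCount {n : ℕ} (A B : Fin n → Fin n → Bool) : ℕ :=
  (Finset.univ.filter (fun p : Fin n × Fin n => A p.1 p.2 ≠ B p.1 p.2)).card

/-- `A` is `ε`-far from `H`-freeness: every `H`-free matrix differs from `A` in at least
`ε n ^ 2` entries. -/
def IsFar {k n : ℕ} (H : Fin k → Fin k → Bool) (A : Fin n → Fin n → Bool) (ε : ℝ) : Prop :=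
  ∀ B : Fin n → Fin n → Bool, IsFree H B → ε * (n : ℝ) ^ 2 ≤ (diffCount A B : ℝ)

/-- The polynomial removal property for the pattern `H`. -/
def PolyRemoval {k : ℕ} (H : Fin k → Fin k → Bool) : Prop :=
  ∃ c C : ℝ, 0 < c ∧ 0 < C ∧ ∀ (n : ℕ), 1 ≤ n → ∀ (ε : ℝ), 0 < ε → ε < 1 →
    ∀ A : Fin n → Fin n → Bool, IsFar H A ε →
      c * ε ^ C * (n : ℝ) ^ (2 * k) ≤ ((copies H A).card : ℝ)

end Vale.Agent.Lib.P037
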