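import Vale.Agent.Lib.P037.Defs
open Finset

namespace Vale.Agent.Lib.P037

/-- passage from an integer parameter version to the real statement -/
lemma polyRemoval_of_nat {k : ℕ} (H : Fin k → Fin k → Bool) (a e : ℕ) (ha : 0 < a) (he : 0 < e)
    (h : ∀ (n : ℕ) (A : Fin n → Fin n → Bool) (M : ℕ), 32 ≤ M → 1 ≤ (copies H A).card →
      a * M ^ e * (copies H A).card < n ^ (2 * k) →
      ∃ B : Fin n → Fin n → Bool, IsFree H B ∧ M * diffCount A B ≤ 6 * n ^ 2) :
    PolyRemoval H := by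
  have haR : (0 : ℝ) < a := by exact_mod_cast ha
  refine ⟨1 / (a * 33 ^ e), e, by positivity, by exact_mod_cast he, ?_⟩
  intro n hn ε hε0 hε1 A hfar
  have hnR : (0 : ℝ) < n := by exact_mod_cast hn
  have hN0 : 1 ≤ (copies H A).card := by
    by_contra hcon
    have h0 : (copies H A).card = 0 := by omega
    have hfree : IsFree H A := Finset.card_eq_zero.mp h0
    have h1 := hfar A hfree
    have hd : diffCount A A = 0 := by simp [diffCount]
    rw [hd] at h1
    have h2 : 0 < ε * (n : ℝ) ^ 2 := by positivity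
    simp at h1
    linarith
  obtain ⟨Z, hZ_def⟩ : ∃ Z, Z = ⌈32 / ε⌉₊ := ⟨_, rfl⟩
  have hZ1 : 32 / ε ≤ (Z : ℝ) := by rw [hZ_def]; exact Nat.le_ceil _
  have hZ2 : (Z : ℝ) < 32 / ε + 1 := by rw [hZ_def]; exact Nat.ceil_lt_add_one (by positivity)
  have hZ32 : 32 ≤ Z := by
    have : (32 : ℝ) ≤ 32 / ε := by rw [le_div_iff₀ hε0]; nlinarith
    exact_mod_cast le_trans this hZ1
  have h3 : 32 ≤ ε * Z := by
    rw [div_le_iff₀ hε0] at hZ1; linarith
  have h4 : ε * Z ≤ 33 := by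
    have : ε * Z < ε * (32 / ε + 1) := mul_lt_mul_of_pos_left hZ2 hε0
    have h5 : ε * (32 / ε + 1) = 32 + ε := by field_simp
    linarith
  have hmain : n ^ (2 * k) ≤ a * Z ^ e * (copies H A).card := by
    by_contra hcon
    obtain ⟨B, hB, hd⟩ := h n A Z hZ32 hN0 (not_le.mp hcon)
    have h1 := hfar B hB
    have h2 : (Z : ℝ) * (diffCount A B : ℝ) ≤ 6 * (n : ℝ) ^ 2 := by exact_mod_cast hd
    have hn2 : (0 : ℝ) < (n : ℝ) ^ 2 := by positivity
    have hZR : (0 : ℝ) < Z := by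
      have : (32 : ℝ) ≤ Z := by exact_mod_cast hZ32
      linarith
    have h5 : (Z : ℝ) * (ε * (n : ℝ) ^ 2) ≤ 6 * (n : ℝ) ^ 2 :=
      le_trans (mul_le_mul_of_nonneg_left h1 hZR.le) h2
    nlinarith
  have hmainR : (n : ℝ) ^ (2 * k) ≤ a * (Z : ℝ) ^ e * ((copies H A).card : ℝ) := by
    exact_mod_cast hmain
  have hpow : ε ^ ((e : ℕ) : ℝ) = ε ^ (e : ℕ) := Real.rpow_natCast ε e
  rw [hpow]
  have h6 : (ε * Z) ^ e ≤ (33 : ℝ) ^ e := pow_le_pow_left₀ (by positivity) h4 e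
  have hNR : (0 : ℝ) ≤ ((copies H A).card : ℝ) := by positivity
  calc 1 / (a * 33 ^ e) * ε ^ e * (n : ℝ) ^ (2 * k)
      ≤ 1 / (a * 33 ^ e) * ε ^ e * (a * (Z : ℝ) ^ e * ((copies H A).card : ℝ)) := by
        apply mul_le_mul_of_nonneg_left hmainR (by positivity)
    _ = (ε * Z) ^ e / 33 ^ e * ((copies H A).card : ℝ) := by
        rw [mul_pow]; field_simp
    _ ≤ 1 * ((copies H A).card : ℝ) := by
        apply mul_le_mul_of_nonneg_right _ hNR
        rw [div_le_one (by positivity)]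
        exact h6
    _ = _ := one_mul _

end Vale.Agent.Lib.P037
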