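import Vale.Agent.Lib.P037.Sym
open Finset

namespace Vale.Agent.Lib.P037

lemma mem_copies {k n : ℕ} (H : Fin k → Fin k → Bool) (A : Fin n → Fin n → Bool)
    (p : (Fin k → Fin n) × (Fin k → Fin n)) :
    p ∈ copies H A ↔ StrictMono p.1 ∧ StrictMono p.2 ∧ ∀ i j, A (p.1 i) (p.2 j) = H i j := by
  classical
  unfold copies
  simp only [mem_filter, mem_univ, true_and]

/-- transfer of the polynomial removal property along a symmetry of the problem -/
lemma polyRemoval_of_sym {k : ℕ} (H H' : Fin k → Fin k → Bool)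
    (Φ : ∀ n : ℕ, (Fin n → Fin n → Bool) → (Fin n → Fin n → Bool))
    (hinv : ∀ n A, Φ n (Φ n A) = A)
    (hcop : ∀ n A, (copies H' (Φ n A)).card = (copies H A).card)
    (hdiff : ∀ n A B, diffCount (Φ n A) (Φ n B) = diffCount A B)
    (h : PolyRemoval H) : PolyRemoval H' := by
  obtain ⟨c, C, hc, hC, hmain⟩ := h
  refine ⟨c, C, hc, hC, ?_⟩
  intro n hn ε h0 h1 A hfar
  have := hmain n hn ε h0 h1 (Φ n A) (by
    intro B hB
    have hB' : IsFree H' (Φ n B) := by
      unfold IsFree at hB ⊢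
      apply Finset.card_eq_zero.mp
      rw [hcop, hB]; rfl
    have := hfar (Φ n B) hB'
    rw [← hdiff, hinv] at this
    exact this)
  rw [← hcop, hinv] at this
  exact this

/-- transpose -/
def tr {a b : ℕ} (A : Fin a → Fin b → Bool) : Fin b → Fin a → Bool := fun r c => A c r

lemma card_copies_tr {k n : ℕ} (H : Fin k → Fin k → Bool) (A : Fin n → Fin n → Bool) :
    (copies (tr H) (tr A)).card = (copies H A).card := by
  apply Finset.card_bij (fun p _ => (p.2, p.1))
  · intro p hp
    rw [mem_copies] at hp ⊢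
    exact ⟨hp.2.1, hp.1, fun i j => hp.2.2 j i⟩
  · intro p _ q _ hpq
    simp only [Prod.mk.injEq] at hpq
    exact Prod.ext hpq.2 hpq.1
  · intro p hp
    refine ⟨(p.2, p.1), ?_, rfl⟩
    rw [mem_copies] at hp ⊢
    exact ⟨hp.2.1, hp.1, fun i j => hp.2.2 j i⟩

lemma diffCount_tr {n : ℕ} (A B : Fin n → Fin n → Bool) :
    diffCount (tr A) (tr B) = diffCount A B := by
  unfold diffCount
  apply Finset.card_bij (fun p _ => (p.2, p.1))
  · intro p hp
    rw [mem_filter] at hp ⊢
    exact ⟨mem_univ _, hp.2⟩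
  · intro p _ q _ hpq
    simp only [Prod.mk.injEq] at hpq
    exact Prod.ext hpq.2 hpq.1
  · intro p hp
    refine ⟨(p.2, p.1), ?_, rfl⟩
    rw [mem_filter] at hp ⊢
    exact ⟨mem_univ _, hp.2⟩

lemma polyRemoval_tr {k : ℕ} (H : Fin k → Fin k → Bool) (h : PolyRemoval H) :
    PolyRemoval (tr H) :=
  polyRemoval_of_sym H (tr H) (fun _ A => tr A) (fun _ _ => rfl)
    (fun _ A => card_copies_tr H A) (fun _ A B => diffCount_tr A B) h

/-- reversal of the order of the rows -/
def rrev {a b : ℕ} (A : Fin a → Fin b → Bool) : Fin a → Fin b → Bool := fun r c => A (Fin.rev r) c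

lemma rrev_rrev {a b : ℕ} (A : Fin a → Fin b → Bool) : rrev (rrev A) = A := by
  funext r c; simp [rrev]

lemma strictMono_rev {k n : ℕ} (f : Fin k → Fin n) (hf : StrictMono f) :
    StrictMono (fun i => Fin.rev (f (Fin.rev i))) := by
  intro i j hij
  exact Fin.rev_lt_rev.mpr (hf (Fin.rev_lt_rev.mpr hij))

lemma card_copies_rrev {k n : ℕ} (H : Fin k → Fin k → Bool) (A : Fin n → Fin n → Bool) :
    (copies (rrev H) (rrev A)).card = (copies H A).card := by
  apply Finset.card_bij (fun p _ => ((fun i => Fin.rev (p.1 (Fin.rev i))), p.2))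
  · intro p hp
    rw [mem_copies] at hp ⊢
    refine ⟨strictMono_rev _ hp.1, hp.2.1, fun i j => ?_⟩
    have := hp.2.2 (Fin.rev i) j
    simpa [rrev] using this
  · intro p _ q _ hpq
    simp only [Prod.mk.injEq] at hpq
    refine Prod.ext ?_ hpq.2
    funext i
    have := congrFun hpq.1 (Fin.rev i)
    simpa using this
  · intro p hp
    refine ⟨((fun i => Fin.rev (p.1 (Fin.rev i))), p.2), ?_, ?_⟩
    · rw [mem_copies] at hp ⊢
      refine ⟨strictMono_rev _ hp.1, hp.2.1, fun i j => ?_⟩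
      have := hp.2.2 (Fin.rev i) j
      simpa [rrev] using this
    · simp

lemma diffCount_rrev {n : ℕ} (A B : Fin n → Fin n → Bool) :
    diffCount (rrev A) (rrev B) = diffCount A B := by
  unfold diffCount
  apply Finset.card_bij (fun p _ => (Fin.rev p.1, p.2))
  · intro p hp
    rw [mem_filter] at hp ⊢
    exact ⟨mem_univ _, hp.2⟩
  · intro p _ q _ hpq
    simp only [Prod.mk.injEq] at hpq
    exact Prod.ext (Fin.rev_injective hpq.1) hpq.2
  · intro p hp
    refine ⟨(Fin.rev p.1, p.2), ?_, by simp⟩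
    rw [mem_filter] at hp ⊢
    refine ⟨mem_univ _, ?_⟩
    simpa [rrev] using hp.2

lemma polyRemoval_rrev {k : ℕ} (H : Fin k → Fin k → Bool) (h : PolyRemoval H) :
    PolyRemoval (rrev H) :=
  polyRemoval_of_sym H (rrev H) (fun _ A => rrev A) (fun _ A => rrev_rrev A)
    (fun _ A => card_copies_rrev H A) (fun _ A B => diffCount_rrev A B) h

end Vale.Agent.Lib.P037
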