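import Vale.Agent.Lib.P037.Count2
import Vale.Agent.Lib.P037.Sym2
import Vale.Agent.Lib.P037.NatReal
open Finset

namespace Vale.Agent.Lib.P037

variable {n : ℕ}

/-- the pattern with two equal rows `w` -/
def eqRows (w : Fin 2 → Bool) : Fin 2 → Fin 2 → Bool := fun _ j => w j

/-- rows containing the word `w` in the columns `u.1 < u.2` -/
def rowsOf (A : Fin n → Fin n → Bool) (w : Fin 2 → Bool) (u : Fin n × Fin n) : Finset (Fin n) :=
  univ.filter fun r => u.1 < u.2 ∧ A r u.1 = w 0 ∧ A r u.2 = w 1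

/-- occurrences of the word `w` in the row `r` -/
def occ (A : Fin n → Fin n → Bool) (w : Fin 2 → Bool) (r : Fin n) : Finset (Fin n × Fin n) :=
  univ.filter fun u => u.1 < u.2 ∧ A r u.1 = w 0 ∧ A r u.2 = w 1

lemma sum_occ (A : Fin n → Fin n → Bool) (w : Fin 2 → Bool) :
    ∑ r, (occ A w r).card = ∑ u, (rowsOf A w u).card := by
  have := Finset.sum_card_bipartiteAbove_eq_sum_card_bipartiteBelow
    (s := (univ : Finset (Fin n))) (t := (univ : Finset (Fin n × Fin n)))
    (fun r u => u.1 < u.2 ∧ A r u.1 = w 0 ∧ A r u.2 = w 1)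
  exact this

lemma pairs_le_copies (A : Fin n → Fin n → Bool) (w : Fin 2 → Bool) :
    ∑ u, ((rowsOf A w u ×ˢ rowsOf A w u).filter (fun p => p.1 < p.2)).card
      ≤ (copies (eqRows w) A).card := by
  classical
  rw [← card_sigma]
  apply Finset.card_le_card_of_injOn
    (fun q => ((![q.2.1, q.2.2] : Fin 2 → Fin n), (![q.1.1, q.1.2] : Fin 2 → Fin n)))
  · intro q hq
    simp only [coe_sigma, Set.mem_sigma_iff, mem_coe, mem_filter, mem_product, rowsOf, mem_univ,
      true_and] at hq
    obtain ⟨⟨⟨h1, h2, h3⟩, ⟨_, h4, h5⟩⟩, h6⟩ := hq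
    rw [mem_coe, mem_copies]
    refine ⟨?_, ?_, ?_⟩
    · intro a b hab
      fin_cases a <;> fin_cases b <;> simp_all
    · intro a b hab
      fin_cases a <;> fin_cases b <;> simp_all
    · intro a b
      fin_cases a <;> fin_cases b <;> simp_all [eqRows]
  · intro q _ q' _ hqq
    simp only [Prod.mk.injEq] at hqq
    obtain ⟨h1, h2⟩ := hqq
    have a1 := congrFun h1 0
    have a2 := congrFun h1 1
    have b1 := congrFun h2 0
    have b2 := congrFun h2 1
    simp at a1 a2 b1 b2
    obtain ⟨⟨x1, x2⟩, ⟨y1, y2⟩⟩ := q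
    obtain ⟨⟨x1', x2'⟩, ⟨y1', y2'⟩⟩ := q'
    simp_all

lemma occ_sq (A : Fin n → Fin n → Bool) (w : Fin 2 → Bool) :
    (∑ r, (occ A w r).card) ^ 2 ≤
      n ^ 2 * (∑ r, (occ A w r).card + 2 * (copies (eqRows w) A).card) := by
  rw [sum_occ]
  have h := sq_sum_le_pairs (univ : Finset (Fin n × Fin n)) (rowsOf A w)
  have hc : (univ : Finset (Fin n × Fin n)).card = n ^ 2 := by
    simp [sq]
  rw [hc] at h
  refine le_trans h ?_
  apply Nat.mul_le_mul_left
  have := pairs_le_copies A w
  omega

/-- the row can be made free of the word `w` by `2 h` changes, using a threshold -/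
def goodRow (A : Fin n → Fin n → Bool) (w : Fin 2 → Bool) (h : ℕ) (r : Fin n) : Prop :=
  ∃ l : ℕ, ((univ.filter fun c : Fin n => A r c = w 0).filter (fun c => c.val < l)).card +
    ((univ.filter fun c : Fin n => A r c = w 1).filter (fun c => l ≤ c.val)).card ≤ 2 * h

lemma bad_occ (A : Fin n → Fin n → Bool) (w : Fin 2 → Bool) (h : ℕ) (r : Fin n)
    (hr : ¬ goodRow A w h r) : (h + 1) * (h + 1) ≤ (occ A w r).card + n := by
  classical
  rcases threshold_lemma (univ.filter fun c : Fin n => A r c = w 0)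
    (univ.filter fun c : Fin n => A r c = w 1) (fun c => c.val) id 1 h n rfl
    (fun l => le_rfl) (fun c _ => c.isLt) with h1 | h1
  · exfalso
    obtain ⟨l, _, hl⟩ := h1
    exact hr ⟨l, hl⟩
  · refine le_trans h1 ?_
    have hsub : (((univ.filter fun c : Fin n => A r c = w 0) ×ˢ
        (univ.filter fun c : Fin n => A r c = w 1)).filter (fun p => p.1.val < p.2.val + 1)) ⊆
        occ A w r ∪ (univ : Finset (Fin n)).image (fun c => (c, c)) := by
      intro p hp
      simp only [mem_filter, mem_product, mem_univ, true_and] at hp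
      rw [mem_union]
      by_cases hlt : p.1 < p.2
      · left
        simp only [occ, mem_filter, mem_univ, true_and]
        exact ⟨hlt, hp.1.1, hp.1.2⟩
      · right
        rw [mem_image]
        refine ⟨p.1, mem_univ _, ?_⟩
        have : p.1 = p.2 := by
          apply Fin.ext
          have := hp.2
          have h2 : ¬ p.1.val < p.2.val := hlt
          omega
        exact Prod.ext rfl this
    refine le_trans (card_le_card hsub) (le_trans (card_union_le _ _) ?_)
    have : ((univ : Finset (Fin n)).image (fun c => (c, c))).card ≤ n := by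
      refine le_trans card_image_le ?_
      simp
    omega

theorem coreEq (A : Fin n → Fin n → Bool) (w : Fin 2 → Bool) (h : ℕ) :
    ∃ B : Fin n → Fin n → Bool, IsFree (eqRows w) B ∧ ∃ b T : ℕ,
      diffCount A B ≤ n * (2 * h) + b * n ∧ b * ((h + 1) * (h + 1)) ≤ T + b * n ∧
      T ^ 2 ≤ n ^ 2 * (T + 2 * (copies (eqRows w) A).card) := by
  classical
  obtain ⟨l, hl⟩ : ∃ l : Fin n → ℕ, ∀ r, goodRow A w h r →
      ((univ.filter fun c : Fin n => A r c = w 0).filter (fun c => c.val < l r)).card +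
      ((univ.filter fun c : Fin n => A r c = w 1).filter (fun c => l r ≤ c.val)).card ≤ 2 * h := by
    refine ⟨fun r => if hg : goodRow A w h r then hg.choose else 0, ?_⟩
    intro r hg
    simp only [dif_pos hg]
    exact hg.choose_spec
  refine ⟨fun r c => if c.val < l r then !(w 0) else !(w 1), ?_,
    (univ.filter fun r => ¬ goodRow A w h r).card, ∑ r, (occ A w r).card, ?_, ?_, occ_sq A w⟩
  · unfold IsFree
    apply Finset.eq_empty_of_forall_notMem
    intro p hp
    rw [mem_copies] at hp
    obtain ⟨_, h2, h3⟩ := hp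
    have e1 := h3 0 0
    have e2 := h3 0 1
    have hlt : (p.2 0).val < (p.2 1).val := h2 (by decide)
    simp only [eqRows] at e1 e2
    by_cases hc : (p.2 0).val < l (p.1 0)
    · rw [if_pos hc] at e1
      cases hw : w 0 <;> simp [hw] at e1
    · rw [if_neg (by omega)] at e2
      cases hw : w 1 <;> simp [hw] at e2
  · have hrow : ∀ r : Fin n, (univ.filter (fun c => A r c ≠
        (if c.val < l r then !(w 0) else !(w 1)))).card ≤
        2 * h + (if goodRow A w h r then 0 else n) := by
      intro r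
      by_cases hg : goodRow A w h r
      · rw [if_pos hg]
        refine le_trans ?_ (hl r hg)
        refine le_trans ?_ (card_union_le _ _)
        apply card_le_card
        intro c hc
        rw [mem_filter] at hc
        rw [mem_union, mem_filter, mem_filter, mem_filter, mem_filter]
        by_cases hcl : c.val < l r
        · left
          rw [if_pos hcl] at hc
          refine ⟨⟨mem_univ _, ?_⟩, hcl⟩
          have := hc.2
          cases hw : w 0 <;> cases ha : A r c <;> simp_all
        · right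
          rw [if_neg hcl] at hc
          refine ⟨⟨mem_univ _, ?_⟩, by omega⟩
          have := hc.2
          cases hw : w 1 <;> cases ha : A r c <;> simp_all
      · rw [if_neg hg]
        have : (univ.filter (fun c => A r c ≠
          (if c.val < l r then !(w 0) else !(w 1)))).card ≤ n := by
          refine le_trans (card_le_univ _) ?_
          simp
        omega
    have hd : diffCount A (fun r c => if c.val < l r then !(w 0) else !(w 1)) =
        ∑ r : Fin n, (univ.filter (fun c => A r c ≠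
        (if c.val < l r then !(w 0) else !(w 1)))).card := by
      unfold diffCount
      rw [Finset.card_filter, Fintype.sum_prod_type]
      apply Finset.sum_congr rfl
      intro r _
      rw [Finset.card_filter]
    rw [hd]
    refine le_trans (Finset.sum_le_sum (fun r _ => hrow r)) ?_
    rw [Finset.sum_add_distrib]
    apply Nat.add_le_add
    · simp
    · rw [Finset.sum_ite]
      simp
  · calc (univ.filter fun r => ¬ goodRow A w h r).card * ((h + 1) * (h + 1))
        = ∑ _r ∈ (univ.filter fun r => ¬ goodRow A w h r), (h + 1) * (h + 1) := by simp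
      _ ≤ ∑ r ∈ (univ.filter fun r => ¬ goodRow A w h r), ((occ A w r).card + n) := by
          apply Finset.sum_le_sum
          intro r hr
          rw [mem_filter] at hr
          exact bad_occ A w h r hr.2
      _ = ∑ r ∈ (univ.filter fun r => ¬ goodRow A w h r), (occ A w r).card +
          (univ.filter fun r => ¬ goodRow A w h r).card * n := by
          rw [Finset.sum_add_distrib]; simp
      _ ≤ _ := by
          apply Nat.add_le_add_right
          exact Finset.sum_le_sum_of_subset (filter_subset _ _)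

theorem main_nat_eq (A : Fin n → Fin n → Bool) (w : Fin 2 → Bool) (M : ℕ) (hM : 32 ≤ M)
    (hN0 : 1 ≤ (copies (eqRows w) A).card)
    (hlt : 16 * M ^ 12 * (copies (eqRows w) A).card < n ^ (2 * 2)) :
    ∃ B : Fin n → Fin n → Bool, IsFree (eqRows w) B ∧ M * diffCount A B ≤ 6 * n ^ 2 := by
  obtain ⟨N, hN_def⟩ : ∃ N, N = (copies (eqRows w) A).card := ⟨_, rfl⟩
  rw [← hN_def] at hN0 hlt
  have hM0 : 0 < M := by omega
  have hlt4 : 16 * M ^ 12 * N < n ^ 4 := by simpa using hlt
  have F3 : 2 * M ^ 3 ≤ n := by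
    by_contra hcon
    have hcon := not_le.mp hcon
    have h1 : n ^ 4 < (2 * M ^ 3) ^ 4 := Nat.pow_lt_pow_left hcon (by norm_num)
    have h2 : (2 * M ^ 3) ^ 4 = 16 * M ^ 12 := by ring
    have h3 : 16 * M ^ 12 ≤ 16 * M ^ 12 * N := Nat.le_mul_of_pos_right _ hN0
    omega
  have hn0 : 0 < n := lt_of_lt_of_le (by positivity) F3
  obtain ⟨h, hh⟩ : ∃ h, h = n / M := ⟨_, rfl⟩
  have F2 : M * h ≤ n := by rw [hh]; exact Nat.mul_div_le n _
  have F1 : n < M * (h + 1) := by rw [hh]; exact Nat.lt_mul_div_succ n hM0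
  obtain ⟨B, hB, b, T, hd, G1, G2⟩ := coreEq A w h
  rw [← hN_def] at G2
  refine ⟨B, hB, ?_⟩
  have X : M * b ≤ 4 * n := by
    by_contra hcon
    have hcon := not_le.mp hcon
    -- (h+1)^2 is large
    have a1 : n * n < (M * (h + 1)) * (M * (h + 1)) := Nat.mul_lt_mul'' F1 F1
    have a2 : 2 * M ^ 3 * n ≤ n * n := Nat.mul_le_mul_right _ F3
    have a3 : M ^ 2 * (2 * n) ≤ M ^ 2 * ((h + 1) * (h + 1)) := by
      have e1 : M ^ 2 * (2 * n) ≤ 2 * M ^ 3 * n := by
        have : M ^ 2 * (2 * n) * 1 ≤ M ^ 2 * (2 * n) * M := Nat.mul_le_mul_left _ hM0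
        calc M ^ 2 * (2 * n) = M ^ 2 * (2 * n) * 1 := by ring
          _ ≤ M ^ 2 * (2 * n) * M := this
          _ = 2 * M ^ 3 * n := by ring
      have e2 : (M * (h + 1)) * (M * (h + 1)) = M ^ 2 * ((h + 1) * (h + 1)) := by ring
      omega
    have a4 : 2 * n ≤ (h + 1) * (h + 1) := Nat.le_of_mul_le_mul_left a3 (by positivity)
    have a5 : b * (2 * n) ≤ b * ((h + 1) * (h + 1)) := Nat.mul_le_mul_left _ a4
    have a6 : b * ((h + 1) * (h + 1)) ≤ 2 * T := by
      have : b * (2 * n) = 2 * (b * n) := by ring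
      omega
    have a7 : (4 * n) * (n * n) < (M * b) * ((M * (h + 1)) * (M * (h + 1))) :=
      Nat.mul_lt_mul'' hcon a1
    have a8 : (M * b) * ((M * (h + 1)) * (M * (h + 1))) = M ^ 3 * (b * ((h + 1) * (h + 1))) := by
      ring
    have a9 : M ^ 3 * (b * ((h + 1) * (h + 1))) ≤ M ^ 3 * (2 * T) := Nat.mul_le_mul_left _ a6
    have a10 : 2 * (n * (n * n)) < M ^ 3 * T := by
      have e1 : (4 * n) * (n * n) = 4 * (n * (n * n)) := by ring
      have e2 : M ^ 3 * (2 * T) = 2 * (M ^ 3 * T) := by ring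
      omega
    have a11 : M ^ 3 * (4 * (n * n)) ≤ M ^ 3 * T := by
      have e1 : M ^ 3 * (4 * (n * n)) = 2 * ((2 * M ^ 3) * (n * n)) := by ring
      have e2 : (2 * M ^ 3) * (n * n) ≤ n * (n * n) := Nat.mul_le_mul_right _ F3
      omega
    have a12 : 4 * (n * n) ≤ T := Nat.le_of_mul_le_mul_left a11 (by positivity)
    have a13 : 4 * (n ^ 2 * T) ≤ T ^ 2 := by
      calc 4 * (n ^ 2 * T) = (4 * (n * n)) * T := by ring
        _ ≤ T * T := Nat.mul_le_mul_right _ a12
        _ = T ^ 2 := by ring
    have a14 : 3 * T ^ 2 ≤ 8 * (n ^ 2 * N) := by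
      have : n ^ 2 * (T + 2 * N) = n ^ 2 * T + 2 * (n ^ 2 * N) := by ring
      omega
    have a15 : (2 * (n * (n * n))) * (2 * (n * (n * n))) < (M ^ 3 * T) * (M ^ 3 * T) :=
      Nat.mul_lt_mul'' a10 a10
    have a16 : n ^ 2 * (12 * n ^ 4) < n ^ 2 * (8 * (M ^ 6 * N)) := by
      calc n ^ 2 * (12 * n ^ 4) = 3 * ((2 * (n * (n * n))) * (2 * (n * (n * n)))) := by ring
        _ < 3 * ((M ^ 3 * T) * (M ^ 3 * T)) := by omega
        _ = M ^ 6 * (3 * T ^ 2) := by ring
        _ ≤ M ^ 6 * (8 * (n ^ 2 * N)) := Nat.mul_le_mul_left _ a14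
        _ = n ^ 2 * (8 * (M ^ 6 * N)) := by ring
    have a17 : 12 * n ^ 4 < 8 * (M ^ 6 * N) := Nat.lt_of_mul_lt_mul_left a16
    have a18 : M ^ 6 * N ≤ 16 * M ^ 12 * N := by
      apply Nat.mul_le_mul_right
      calc M ^ 6 = 1 * M ^ 6 := by ring
        _ ≤ 16 * M ^ 12 := Nat.mul_le_mul (by norm_num) (Nat.pow_le_pow_right hM0 (by norm_num))
    omega
  calc M * diffCount A B ≤ M * (n * (2 * h) + b * n) := Nat.mul_le_mul_left _ hd
    _ = 2 * n * (M * h) + (M * b) * n := by ring
    _ ≤ 2 * n * n + (4 * n) * n := by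
        apply Nat.add_le_add
        · exact Nat.mul_le_mul_left _ F2
        · exact Nat.mul_le_mul_right _ X
    _ = 6 * n ^ 2 := by ring

theorem polyRemoval_eqRows (w : Fin 2 → Bool) : PolyRemoval (eqRows w) :=
  polyRemoval_of_nat (eqRows w) 16 12 (by norm_num) (by norm_num)
    (fun _ A M hM hN0 hlt => main_nat_eq A w M hM hN0 hlt)

end Vale.Agent.Lib.P037
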