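import Vale.Agent.Lib.P037.LCore
open Finset

namespace Vale.Agent.Lib.P037

variable {n : ℕ}

lemma exists_anchor (A : Fin n → Fin n → Bool) (S : Finset (Fin n)) (s : ℕ) (Z : Finset (Fin n))
    (h h' η Γ Qb e g zb : ℕ) (r : Fin n) (β : Fin n → ℕ)
    (hK : 2 * h ≤ (univ.filter fun c => A r c = true).card)
    (hNb : (univ.filter fun v => A r v = true ∧
            ¬ ∃ y ∈ S, y.val / s = r.val / s ∧ y ≤ r ∧ A y v = true).card ≤ h')
    (hNa : (univ.filter fun v => A r v = true ∧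
            ¬ ∃ y ∈ S, y.val / s = r.val / s ∧ r ≤ y ∧ A y v = true).card ≤ h')
    (hZ : Z.card ≤ zb)
    (hV1 : ∀ y ∈ S, y < r → (vset A y r).card ≤ Γ)
    (hV2 : ∀ y ∈ S, r < y → (vset A r y).card ≤ Γ)
    (hS : S.card ≤ Qb) (he : Qb * Γ < (e + 1) * (η + 1))
    (hnum : g + zb + 2 * h' + e ≤ 2 * h) (hg : 0 < g) :
    ∃ v y1 y2 : Fin n, A r v = true ∧ v ∉ Z ∧
      (univ.filter fun c => A r c = true ∧ c < v).card ≤ 2 * h ∧
      (y1 ∈ S ∧ y1.val / s = r.val / s ∧ A y1 v = true ∧ tl A y1 r v ≤ η) ∧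
      (y2 ∈ S ∧ y2.val / s = r.val / s ∧ A y2 v = true ∧ tl A r y2 v ≤ η) ∧
      g * β v ≤ ∑ v, β v := by
  classical
  obtain ⟨p, hp⟩ := exists_head (univ.filter fun c => A r c = true) (2 * h) hK
  set Head := (univ.filter fun c => A r c = true).filter (fun c => c.val < p) with hHead
  set NSb := (univ.filter fun v => A r v = true ∧
            ¬ ∃ y ∈ S, y.val / s = r.val / s ∧ y ≤ r ∧ A y v = true) with hNSb
  set NSa := (univ.filter fun v => A r v = true ∧
            ¬ ∃ y ∈ S, y.val / s = r.val / s ∧ r ≤ y ∧ A y v = true) with hNSa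
  let E : Fin n → Finset (Fin n) := fun y =>
    if y < r then (univ.filter fun v => A y v = true ∧ A r v = true ∧ η < tl A y r v)
    else if r < y then (univ.filter fun v => A r v = true ∧ A y v = true ∧ η < tl A r y v)
    else ∅
  have hEcard : ∀ y ∈ S, (E y).card * (η + 1) ≤ Γ := by
    intro y hy
    simp only [E]
    split_ifs with h1 h2
    · exact le_trans (exc_card A y r η) (hV1 y hy h1)
    · exact le_trans (exc_card A r y η) (hV2 y hy h2)
    · simp
  set Exc := S.biUnion E with hExc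
  have hExc_card : Exc.card ≤ e := by
    have h1 : Exc.card * (η + 1) ≤ S.card * Γ := by
      calc Exc.card * (η + 1) ≤ (∑ y ∈ S, (E y).card) * (η + 1) :=
            Nat.mul_le_mul_right _ card_biUnion_le
        _ = ∑ y ∈ S, (E y).card * (η + 1) := by rw [Finset.sum_mul]
        _ ≤ ∑ _y ∈ S, Γ := Finset.sum_le_sum hEcard
        _ = S.card * Γ := by simp
    have h2 : Exc.card * (η + 1) < (e + 1) * (η + 1) :=
      lt_of_le_of_lt (le_trans h1 (Nat.mul_le_mul_right _ hS)) he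
    have := Nat.lt_of_mul_lt_mul_right h2
    omega
  set C := Head \ (((Z ∪ NSb) ∪ NSa) ∪ Exc) with hC
  have hCcard : g ≤ C.card := by
    have h1 : Head.card ≤ C.card + (((Z ∪ NSb) ∪ NSa) ∪ Exc).card := by
      have := Finset.card_le_card_sdiff_add_card (s := Head) (t := (((Z ∪ NSb) ∪ NSa) ∪ Exc))
      omega
    have h2 : (((Z ∪ NSb) ∪ NSa) ∪ Exc).card ≤ zb + h' + h' + e := by
      refine le_trans (card_union_le _ _) ?_
      refine Nat.add_le_add ?_ hExc_card
      refine le_trans (card_union_le _ _) ?_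
      refine Nat.add_le_add ?_ hNa
      refine le_trans (card_union_le _ _) ?_
      exact Nat.add_le_add hZ hNb
    omega
  have hCne : C.Nonempty := by
    rw [← card_pos]; omega
  obtain ⟨v, hvC, hvmin⟩ := Finset.exists_min_image C β hCne
  rw [hC, mem_sdiff] at hvC
  obtain ⟨hvH, hvN⟩ := hvC
  simp only [mem_union, not_or] at hvN
  obtain ⟨⟨⟨hvZ, hvNb⟩, hvNa⟩, hvE⟩ := hvN
  rw [hHead, mem_filter, mem_filter] at hvH
  have hAv : A r v = true := hvH.1.2
  have hb : ∃ y ∈ S, y.val / s = r.val / s ∧ y ≤ r ∧ A y v = true := by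
    by_contra hcon
    apply hvNb
    rw [hNSb, mem_filter]
    exact ⟨mem_univ _, hAv, hcon⟩
  have ha : ∃ y ∈ S, y.val / s = r.val / s ∧ r ≤ y ∧ A y v = true := by
    by_contra hcon
    apply hvNa
    rw [hNSa, mem_filter]
    exact ⟨mem_univ _, hAv, hcon⟩
  obtain ⟨y1, hy1, hs1, hle1, hA1⟩ := hb
  obtain ⟨y2, hy2, hs2, hle2, hA2⟩ := ha
  refine ⟨v, y1, y2, hAv, hvZ, ?_, ⟨hy1, hs1, hA1, ?_⟩, ⟨hy2, hs2, hA2, ?_⟩, ?_⟩
  · rw [← hp]
    apply card_le_card
    intro c hc
    rw [mem_filter] at hc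
    rw [mem_filter, mem_filter]
    have : c.val < v.val := hc.2.2
    exact ⟨⟨mem_univ _, hc.2.1⟩, by omega⟩
  · rcases lt_or_eq_of_le hle1 with hlt | heq
    · by_contra hcon
      apply hvE
      rw [hExc, mem_biUnion]
      refine ⟨y1, hy1, ?_⟩
      simp only [E, hlt, if_true, mem_filter, mem_univ, true_and]
      exact ⟨hA1, hAv, not_le.mp hcon⟩
    · rw [heq, tl_self]; omega
  · rcases lt_or_eq_of_le hle2 with hlt | heq
    · by_contra hcon
      apply hvE
      rw [hExc, mem_biUnion]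
      refine ⟨y2, hy2, ?_⟩
      have hnlt : ¬ y2 < r := not_lt.mpr hle2
      simp only [E, hnlt, hlt, if_true, if_false, mem_filter, mem_univ, true_and]
      exact ⟨hAv, hA2, not_le.mp hcon⟩
    · rw [← heq, tl_self]; omega
  · calc g * β v ≤ C.card * β v := Nat.mul_le_mul_right _ hCcard
      _ = ∑ _x ∈ C, β v := by simp
      _ ≤ ∑ x ∈ C, β x := Finset.sum_le_sum hvmin
      _ ≤ ∑ x, β x := Finset.sum_le_sum_of_subset (subset_univ _)

end Vale.Agent.Lib.P037
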