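import Mathlib
open Finset

namespace Vale.Agent.Lib.P037

section Select
variable {ι α : Type*} [DecidableEq ι] [DecidableEq α]

/-- elements already covered at `r` by the selected indices of the same group with smaller key -/
def Cov (κ grp : ι → ℕ) (K : ι → Finset α) (T : Finset ι) (r : ι) : Finset α :=
  (T.filter (fun y => κ y < κ r ∧ grp y = grp r)).biUnion K

lemma cov_insert (κ grp : ι → ℕ) (K : ι → Finset α) (T : Finset ι) (r r0 : ι)
    (h : ¬ κ r0 < κ r) : Cov κ grp K (insert r0 T) r = Cov κ grp K T r := by
  unfold Cov
  rw [Finset.filter_insert]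
  simp [h]

lemma select_aux (κ grp : ι → ℕ) (hκ : Function.Injective κ) (K : ι → Finset α)
    (good0 : ι → Prop) (conf : ι → ι → Prop) (h' : ℕ) (t : ℕ) :
    ∃ T : Finset ι, (∀ y ∈ T, κ y < t) ∧ (∀ y ∈ T, good0 y) ∧
      (∀ y ∈ T, ∀ y' ∈ T, κ y < κ y' → ¬ conf y y') ∧
      (∀ y ∈ T, h' ≤ (K y \ Cov κ grp K T y).card) ∧
      (∀ r, κ r < t → r ∈ T ∨ ¬ good0 r ∨ (∃ y ∈ T, κ y < κ r ∧ conf y r) ∨
        (K r \ Cov κ grp K T r).card < h') := by
  classical
  induction t with
  | zero =>
    refine ⟨∅, by simp, by simp, by simp, by simp, ?_⟩
    intro r hr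
    omega
  | succ t ih =>
    obtain ⟨T, h1, h2, h3, h4, h5⟩ := ih
    by_cases hex : ∃ r0, κ r0 = t
    · obtain ⟨r0, hr0⟩ := hex
      by_cases hc : good0 r0 ∧ (∀ y ∈ T, ¬ conf y r0) ∧ h' ≤ (K r0 \ Cov κ grp K T r0).card
      · obtain ⟨c1, c2, c3⟩ := hc
        have hcov : ∀ r, κ r ≤ t → Cov κ grp K (insert r0 T) r = Cov κ grp K T r := by
          intro r hr
          apply cov_insert
          omega
        refine ⟨insert r0 T, ?_, ?_, ?_, ?_, ?_⟩
        · intro y hy
          rcases mem_insert.mp hy with rfl | hy
          · omega
          · have := h1 y hy; omega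
        · intro y hy
          rcases mem_insert.mp hy with rfl | hy
          · exact c1
          · exact h2 y hy
        · intro y hy y' hy' hlt
          rcases mem_insert.mp hy with e1 | hyT
          · rcases mem_insert.mp hy' with e2 | hyT'
            · rw [e1, e2] at hlt; omega
            · have := h1 y' hyT'; rw [e1] at hlt; omega
          · rcases mem_insert.mp hy' with e2 | hyT'
            · rw [e2]; exact c2 y hyT
            · exact h3 y hyT y' hyT' hlt
        · intro y hy
          rcases mem_insert.mp hy with rfl | hy
          · rw [hcov _ (by omega)]; exact c3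
          · rw [hcov _ (by have := h1 y hy; omega)]; exact h4 y hy
        · intro r hr
          by_cases hrt : κ r = t
          · have : r = r0 := hκ (by omega)
            left; rw [this]; exact mem_insert_self _ _
          · have hlt : κ r < t := by omega
            rw [hcov _ (by omega)]
            rcases h5 r hlt with h | h | h | h
            · left; exact mem_insert_of_mem h
            · right; left; exact h
            · right; right; left
              obtain ⟨y, hy, hy2⟩ := h
              exact ⟨y, mem_insert_of_mem hy, hy2⟩
            · right; right; right; exact h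
      · refine ⟨T, ?_, h2, h3, h4, ?_⟩
        · intro y hy; have := h1 y hy; omega
        · intro r hr
          by_cases hrt : κ r = t
          · have hrr : r = r0 := hκ (by omega)
            subst hrr
            by_cases g0 : good0 r
            · by_cases g1 : ∀ y ∈ T, ¬ conf y r
              · right; right; right
                by_contra hcon
                exact hc ⟨g0, g1, not_lt.mp hcon⟩
              · right; right; left
                simp only [not_forall, not_not] at g1
                obtain ⟨y, hy, hy2⟩ := g1
                exact ⟨y, hy, by have := h1 y hy; omega, hy2⟩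
            · right; left; exact g0
          · exact h5 r (by omega)
    · refine ⟨T, ?_, h2, h3, h4, ?_⟩
      · intro y hy; have := h1 y hy; omega
      · intro r hr
        have : κ r ≠ t := fun h => hex ⟨r, h⟩
        exact h5 r (by omega)

omit [DecidableEq ι] in
lemma select_card [Fintype α] (κ grp : ι → ℕ) (hκ : Function.Injective κ) (K : ι → Finset α)
    (h' : ℕ) (T : Finset ι) (hb : ∀ y ∈ T, h' ≤ (K y \ Cov κ grp K T y).card) (i : ℕ) :
    (T.filter (fun y => grp y = i)).card * h' ≤ Fintype.card α := by
  classical
  have hdisj : ∀ x ∈ T.filter (fun y => grp y = i), ∀ y ∈ T.filter (fun y => grp y = i), x ≠ y →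
      Disjoint (K x \ Cov κ grp K T x) (K y \ Cov κ grp K T y) := by
    have key : ∀ x ∈ T.filter (fun y => grp y = i), ∀ y ∈ T.filter (fun y => grp y = i),
        κ x < κ y → Disjoint (K x \ Cov κ grp K T x) (K y \ Cov κ grp K T y) := by
      intro x hx y hy hlt
      rw [Finset.disjoint_left]
      intro a ha hb'
      rw [mem_sdiff] at ha hb'
      apply hb'.2
      unfold Cov
      rw [mem_biUnion]
      rw [mem_filter] at hx hy
      exact ⟨x, by rw [mem_filter]; exact ⟨hx.1, hlt, by rw [hx.2, hy.2]⟩, ha.1⟩
    intro x hx y hy hne
    have hk : κ x ≠ κ y := fun h => hne (hκ h)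
    rcases Nat.lt_or_gt_of_ne hk with h | h
    · exact key x hx y hy h
    · exact (key y hy x hx h).symm
  calc (T.filter (fun y => grp y = i)).card * h'
      = ∑ _y ∈ T.filter (fun y => grp y = i), h' := by simp
    _ ≤ ∑ y ∈ T.filter (fun y => grp y = i), (K y \ Cov κ grp K T y).card := by
        apply Finset.sum_le_sum
        intro y hy
        exact hb y (mem_filter.mp hy).1
    _ = ((T.filter (fun y => grp y = i)).biUnion (fun y => K y \ Cov κ grp K T y)).card := by
        rw [Finset.card_biUnion hdisj]
    _ ≤ Fintype.card α := Finset.card_le_univ _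

omit [DecidableEq ι] in
lemma select_card_total [Fintype α] (κ grp : ι → ℕ) (hκ : Function.Injective κ) (K : ι → Finset α)
    (h' : ℕ) (T : Finset ι) (hb : ∀ y ∈ T, h' ≤ (K y \ Cov κ grp K T y).card) (m : ℕ)
    (hm : ∀ y ∈ T, grp y < m) :
    T.card * h' ≤ m * Fintype.card α := by
  classical
  have h1 : T.card = ∑ i ∈ range m, (T.filter (fun y => grp y = i)).card := by
    apply Finset.card_eq_sum_card_fiberwise
    intro y hy
    simpa using hm y hy
  rw [h1, Finset.sum_mul]
  calc ∑ i ∈ range m, (T.filter (fun y => grp y = i)).card * h'
      ≤ ∑ _i ∈ range m, Fintype.card α := by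
        apply Finset.sum_le_sum
        intro i _
        exact select_card κ grp hκ K h' T hb i
    _ = m * Fintype.card α := by simp

end Select

end Vale.Agent.Lib.P037
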