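import Vale.Agent.Lib.P037.LDefs
import Vale.Agent.Lib.P037.LSelect
open Finset

namespace Vale.Agent.Lib.P037

variable {n : ℕ}

lemma bp_irrefl (A : Fin n → Fin n → Bool) (Γ : ℕ) (a : Fin n) : ¬ bp A Γ a a := by
  intro h
  unfold bp badS at h
  simp at h

lemma sample_exists (A : Fin n → Fin n → Bool) (s h' Γ P : ℕ) :
    ∃ S : Finset (Fin n),
      (∀ y ∈ S, y ∉ dirty A Γ P) ∧ (∀ y ∈ S, ∀ y' ∈ S, ¬ bp A Γ y y') ∧
      S.card * h' ≤ 2 * ((n / s + 1) * n) ∧
      (∀ r, r ∉ dirty A Γ P → (∀ y ∈ S, ¬ bp A Γ y r) →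
        ((univ.filter fun v => A r v = true ∧
            ¬ ∃ y ∈ S, y.val / s = r.val / s ∧ y ≤ r ∧ A y v = true).card ≤ h' ∧
         (univ.filter fun v => A r v = true ∧
            ¬ ∃ y ∈ S, y.val / s = r.val / s ∧ r ≤ y ∧ A y v = true).card ≤ h')) := by
  classical
  have hinj2 : Function.Injective (fun r : Fin n => n - 1 - r.val) := by
    intro a b hab
    have ha := a.isLt
    have hb := b.isLt
    simp only at hab
    exact Fin.ext (by omega)
  obtain ⟨T1, a1, a2, a3, a4, a5⟩ := select_aux (fun r : Fin n => r.val) (fun r => r.val / s)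
    Fin.val_injective (fun r => univ.filter fun c => A r c = true) (fun r => r ∉ dirty A Γ P)
    (bp A Γ) h' n
  obtain ⟨T2, b1, b2, b3, b4, b5⟩ := select_aux (fun r : Fin n => n - 1 - r.val) (fun r => r.val / s)
    hinj2 (fun r => univ.filter fun c => A r c = true)
    (fun r => r ∉ dirty A Γ P ∧ ∀ y ∈ T1, ¬ bp A Γ y r) (bp A Γ) h' n
  have hgrp : ∀ y : Fin n, y.val / s < n / s + 1 := by
    intro y
    have : y.val / s ≤ n / s := Nat.div_le_div_right (le_of_lt y.isLt)
    omega
  have c1 := select_card_total (fun r : Fin n => r.val) (fun r => r.val / s)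
    Fin.val_injective (fun r => univ.filter fun c => A r c = true) h' T1 a4 (n / s + 1)
    (fun y _ => hgrp y)
  have c2 := select_card_total (fun r : Fin n => n - 1 - r.val) (fun r => r.val / s)
    hinj2 (fun r => univ.filter fun c => A r c = true) h' T2 b4 (n / s + 1)
    (fun y _ => hgrp y)
  rw [Fintype.card_fin] at c1 c2
  refine ⟨T1 ∪ T2, ?_, ?_, ?_, ?_⟩
  · intro y hy
    rcases mem_union.mp hy with h | h
    · exact a2 y h
    · exact (b2 y h).1
  · intro y hy y' hy'
    rcases mem_union.mp hy with h | h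
    · rcases mem_union.mp hy' with h' | h'
      · rcases lt_trichotomy y.val y'.val with hlt | heq | hgt
        · exact a3 y h y' h' hlt
        · have : y = y' := Fin.ext heq
          rw [this]; exact bp_irrefl A Γ y'
        · exact fun hb => a3 y' h' y h hgt (bp_symm A Γ _ _ hb)
      · exact (b2 y' h').2 y h
    · rcases mem_union.mp hy' with h' | h'
      · exact fun hb => (b2 y h).2 y' h' (bp_symm A Γ _ _ hb)
      · have hy1 := y.isLt
        have hy2 := y'.isLt
        rcases lt_trichotomy y.val y'.val with hlt | heq | hgt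
        · exact fun hb => b3 y' h' y h (by omega) (bp_symm A Γ _ _ hb)
        · have : y = y' := Fin.ext heq
          rw [this]; exact bp_irrefl A Γ y'
        · exact b3 y h y' h' (by omega)
  · have := card_union_le T1 T2
    calc (T1 ∪ T2).card * h' ≤ (T1.card + T2.card) * h' := Nat.mul_le_mul_right _ this
      _ = T1.card * h' + T2.card * h' := by ring
      _ ≤ (n / s + 1) * n + (n / s + 1) * n := Nat.add_le_add c1 c2
      _ = _ := by ring
  · intro r hr1 hr2
    constructor
    · rcases a5 r r.isLt with h | h | h | h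
      · have : (univ.filter fun v => A r v = true ∧
            ¬ ∃ y ∈ T1 ∪ T2, y.val / s = r.val / s ∧ y ≤ r ∧ A y v = true) = ∅ := by
          rw [filter_eq_empty_iff]
          intro v _ hv
          exact hv.2 ⟨r, mem_union_left _ h, rfl, le_rfl, hv.1⟩
        rw [this]; simp
      · exact absurd hr1 h
      · obtain ⟨y, hy, _, hy2⟩ := h
        exact absurd hy2 (hr2 y (mem_union_left _ hy))
      · refine le_trans (card_le_card ?_) (le_of_lt h)
        intro v hv
        rw [mem_filter] at hv
        rw [mem_sdiff, mem_filter]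
        refine ⟨⟨mem_univ _, hv.2.1⟩, ?_⟩
        intro hcov
        unfold Cov at hcov
        rw [mem_biUnion] at hcov
        obtain ⟨y, hy, hyv⟩ := hcov
        rw [mem_filter] at hy hyv
        exact hv.2.2 ⟨y, mem_union_left _ hy.1, hy.2.2, le_of_lt hy.2.1, hyv.2⟩
    · have hrn := r.isLt
      rcases b5 r (by omega) with h | h | h | h
      · have : (univ.filter fun v => A r v = true ∧
            ¬ ∃ y ∈ T1 ∪ T2, y.val / s = r.val / s ∧ r ≤ y ∧ A y v = true) = ∅ := by
          rw [filter_eq_empty_iff]
          intro v _ hv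
          exact hv.2 ⟨r, mem_union_right _ h, rfl, le_rfl, hv.1⟩
        rw [this]; simp
      · exact absurd ⟨hr1, fun y hy => hr2 y (mem_union_left _ hy)⟩ h
      · obtain ⟨y, hy, _, hy2⟩ := h
        exact absurd hy2 (hr2 y (mem_union_right _ hy))
      · refine le_trans (card_le_card ?_) (le_of_lt h)
        intro v hv
        rw [mem_filter] at hv
        rw [mem_sdiff, mem_filter]
        refine ⟨⟨mem_univ _, hv.2.1⟩, ?_⟩
        intro hcov
        unfold Cov at hcov
        rw [mem_biUnion] at hcov
        obtain ⟨y, hy, hyv⟩ := hcov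
        rw [mem_filter] at hy hyv
        have hyn := y.isLt
        have hlt : r.val < y.val := by
          have := hy.2.1
          simp only at this
          omega
        exact hv.2.2 ⟨y, mem_union_right _ hy.1, hy.2.2, le_of_lt hlt, hyv.2⟩

end Vale.Agent.Lib.P037
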