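import Vale.Agent.Lib.P037.LRow
import Vale.Agent.Lib.P037.LSample
open Finset

namespace Vale.Agent.Lib.P037

variable {n : ℕ}

open Classical in
lemma row_diffL (A : Fin n → Fin n → Bool) (S : Finset (Fin n)) (s : ℕ) (Z : Finset (Fin n))
    (hE : ∀ y ∈ S, ∀ y' ∈ S, y < y' → ∀ c1 c2 : Fin n, c1 < c2 →
      (A y c1 = true ∧ c1 ∉ Z) → (A y c2 = true ∧ c2 ∉ Z) →
      (A y' c1 = true ∧ c1 ∉ Z) → (A y' c2 = true ∧ c2 ∉ Z))
    (r v y1 y2 : Fin n) (hv : A r v = true) (hvZ : v ∉ Z)
    (hy1 : y1 ∈ S) (hs1 : y1.val / s = r.val / s) (hA1 : A y1 v = true)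
    (hy2 : y2 ∈ S) (hs2 : y2.val / s = r.val / s) (hA2 : A y2 v = true)
    (b : Fin n → Bool) (hb : ∀ c, b c = true ↔ Reach S (fun r => r.val / s)
        (fun y c => A y c = true ∧ c ∉ Z) (r.val / s + 1) v c) :
    (univ.filter fun c => A r c ≠ b c).card ≤
      (univ.filter fun c => A r c = true ∧ c < v).card + Z.card + tl A r y2 v + tl A y1 r v +
      (orb S (fun r => r.val / s) (fun y c => A y c = true ∧ c ∉ Z) (r.val / s + 1) v \
        orb S (fun r => r.val / s) (fun y c => A y c = true ∧ c ∉ Z) (r.val / s) v).card := by
  have hsub : (univ.filter fun c => A r c ≠ b c) ⊆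
      ((((univ.filter fun c => A r c = true ∧ c < v) ∪ Z) ∪
        (univ.filter fun c => v < c ∧ A r c = true ∧ A y2 c = false)) ∪
        (univ.filter fun c => v < c ∧ A y1 c = true ∧ A r c = false)) ∪
      (orb S (fun r => r.val / s) (fun y c => A y c = true ∧ c ∉ Z) (r.val / s + 1) v \
        orb S (fun r => r.val / s) (fun y c => A y c = true ∧ c ∉ Z) (r.val / s) v) := by
    intro c hc
    rw [mem_filter] at hc
    have hc := hc.2
    simp only [mem_union, mem_filter, mem_univ, true_and, mem_sdiff, mem_orb]
    by_cases hR : Reach S (fun r => r.val / s) (fun y c => A y c = true ∧ c ∉ Z) (r.val / s + 1) v c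
    · -- B = 1, so A = 0
      have hAr : A r c = false := by
        have : b c = true := (hb c).mpr hR
        rw [this] at hc
        simpa using hc
      have hle := reach_le hR
      have hne : v ≠ c := by
        intro he
        rw [he, hAr] at hv
        exact absurd hv (by decide)
      have hlt : v < c := lt_of_le_of_ne hle hne
      by_cases hR0 : Reach S (fun r => r.val / s) (fun y c => A y c = true ∧ c ∉ Z) (r.val / s) v c
      · left; right
        have hlate : ∀ y0 ∈ S, y0.val / s < r.val / s → y0 < y1 := by
          intro y0 _ h0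
          by_contra hcon
          have hle' : y1.val ≤ y0.val := not_lt.mp hcon
          have := Nat.div_le_div_right (c := s) hle'
          omega
        have := reach_sub_row (S := S) (st := fun r => r.val / s)
          (Kp := fun y c => A y c = true ∧ c ∉ Z) hE hy1 hlate ⟨hA1, hvZ⟩ hR0
        exact ⟨hlt, this.1, hAr⟩
      · right; exact ⟨hR, hR0⟩
    · have hAr : A r c = true := by
        have : b c = false := by
          by_contra hcon
          exact hR ((hb c).mp (by simpa using hcon))
        rw [this] at hc
        simpa using hc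
      rcases lt_trichotomy c v with hlt | heq | hgt
      · left; left; left; left; exact ⟨hAr, hlt⟩
      · exfalso
        apply hR
        rw [heq]
        exact Relation.ReflTransGen.refl
      · by_cases hcZ : c ∈ Z
        · left; left; left; right; exact hcZ
        · left; left; right
          refine ⟨hgt, hAr, ?_⟩
          by_contra hcon
          have hA2c : A y2 c = true := by simpa using hcon
          apply hR
          apply Relation.ReflTransGen.single
          exact ⟨hgt, y2, hy2, by show y2.val / s < r.val / s + 1; omega, ⟨hA2, hvZ⟩, ⟨hA2c, hcZ⟩⟩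
  refine le_trans (card_le_card hsub) ?_
  refine le_trans (card_union_le _ _) ?_
  refine Nat.add_le_add_right ?_ _
  refine le_trans (card_union_le _ _) ?_
  refine Nat.add_le_add_right ?_ _
  refine le_trans (card_union_le _ _) ?_
  refine Nat.add_le_add_right ?_ _
  exact card_union_le _ _

lemma strip_card (s i : ℕ) (hs : 0 < s) :
    (univ.filter fun r : Fin n => r.val / s = i).card ≤ s := by
  have : (univ.filter fun r : Fin n => r.val / s = i).card ≤ (Finset.Ico (i*s) (i*s+s)).card := by
    apply Finset.card_le_card_of_injOn (fun r => r.val)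
    · intro r hr
      simp only [mem_coe, mem_filter, mem_univ, true_and] at hr
      simp only [coe_Ico, Set.mem_Ico]
      constructor
      · rw [← hr]; exact Nat.div_mul_le_self _ _
      · rw [← hr]
        have h2 := Nat.div_add_mod r.val s
        have h3 := Nat.mod_lt r.val hs
        nlinarith [Nat.mul_comm s (r.val / s)]
    · intro a _ b _ hab
      exact Fin.ext hab
  simpa using this

end Vale.Agent.Lib.P037
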