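import Vale.Agent.Lib.P037.Basic
open Finset

namespace Vale.Agent.Lib.P037

variable {n : ℕ}

/-- the pattern with rows `1 1` and `1 0` -/
def L2 : Fin 2 → Fin 2 → Bool := fun i j => !(decide (i = 1) && decide (j = 1))

/-- column pairs completing the row pair `(y, y')` to a copy of `L2` -/
def vset (A : Fin n → Fin n → Bool) (y y' : Fin n) : Finset (Fin n × Fin n) :=
  univ.filter fun p => p.1 < p.2 ∧ A y p.1 = true ∧ A y p.2 = true ∧
    A y' p.1 = true ∧ A y' p.2 = false

lemma copiesL_ge (A : Fin n → Fin n → Bool) (S : Finset (Fin n × Fin n)) (X : ℕ)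
    (hS : ∀ p ∈ S, p.1 < p.2 ∧ X ≤ (vset A p.1 p.2).card) :
    S.card * X ≤ (copies L2 A).card := by
  classical
  calc S.card * X = ∑ _p ∈ S, X := by simp
    _ ≤ ∑ p ∈ S, (vset A p.1 p.2).card := Finset.sum_le_sum (fun p hp => (hS p hp).2)
    _ = (S.sigma (fun p => vset A p.1 p.2)).card := by rw [card_sigma]
    _ ≤ (copies L2 A).card := by
      apply Finset.card_le_card_of_injOn
        (fun q => ((![q.1.1, q.1.2] : Fin 2 → Fin n), (![q.2.1, q.2.2] : Fin 2 → Fin n)))
      · intro q hq
        simp only [coe_sigma, Set.mem_sigma_iff, mem_coe] at hq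
        obtain ⟨hq1, hq2⟩ := hq
        have hlt := (hS q.1 hq1).1
        simp only [vset, mem_filter, mem_univ, true_and] at hq2
        obtain ⟨h1, h2, h3, h4, h5⟩ := hq2
        simp only [copies, mem_coe, mem_filter, mem_univ, true_and]
        refine ⟨?_, ?_, ?_⟩
        · intro a b hab
          fin_cases a <;> fin_cases b <;> simp_all
        · intro a b hab
          fin_cases a <;> fin_cases b <;> simp_all
        · intro a b
          fin_cases a <;> fin_cases b <;> simp_all [L2]
      · intro q _ q' _ hqq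
        simp only [Prod.mk.injEq] at hqq
        obtain ⟨h1, h2⟩ := hqq
        have a1 := congrFun h1 0
        have a2 := congrFun h1 1
        have b1 := congrFun h2 0
        have b2 := congrFun h2 1
        simp at a1 a2 b1 b2
        obtain ⟨⟨x1, x2⟩, ⟨y1, y2⟩⟩ := q
        obtain ⟨⟨x1', x2'⟩, ⟨y1', y2'⟩⟩ := q'
        simp_all

/-- row pairs with many violating column pairs -/
def badS (A : Fin n → Fin n → Bool) (Γ : ℕ) : Finset (Fin n × Fin n) :=
  univ.filter fun p => p.1 < p.2 ∧ Γ < (vset A p.1 p.2).card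

lemma badS_card (A : Fin n → Fin n → Bool) (Γ : ℕ) :
    (badS A Γ).card * (Γ + 1) ≤ (copies L2 A).card := by
  apply copiesL_ge
  intro p hp
  simp only [badS, mem_filter, mem_univ, true_and] at hp
  exact ⟨hp.1, hp.2⟩

/-- symmetric version of the bad relation -/
def bp (A : Fin n → Fin n → Bool) (Γ : ℕ) (a b : Fin n) : Prop :=
  (a, b) ∈ badS A Γ ∨ (b, a) ∈ badS A Γ

lemma bp_symm (A : Fin n → Fin n → Bool) (Γ : ℕ) (a b : Fin n) (h : bp A Γ a b) : bp A Γ b a :=
  Or.symm h

open Classical in
/-- the rows forming a bad pair with `a` -/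
noncomputable def partners (A : Fin n → Fin n → Bool) (Γ : ℕ) (a : Fin n) : Finset (Fin n) :=
  univ.filter (fun b => bp A Γ a b)

lemma mem_partners (A : Fin n → Fin n → Bool) (Γ : ℕ) (a b : Fin n) :
    b ∈ partners A Γ a ↔ bp A Γ a b := by
  classical
  unfold partners
  simp only [mem_filter, mem_univ, true_and]

lemma sum_partners (A : Fin n → Fin n → Bool) (Γ : ℕ) :
    ∑ a, (partners A Γ a).card ≤ 2 * (badS A Γ).card := by
  classical
  have h1 : ∀ a, (partners A Γ a).card ≤
      ((badS A Γ).filter (fun p => p.1 = a)).card + ((badS A Γ).filter (fun p => p.2 = a)).card := by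
    intro a
    have hsub : partners A Γ a ⊆ ((badS A Γ).filter (fun p => p.1 = a)).image Prod.snd ∪
        ((badS A Γ).filter (fun p => p.2 = a)).image Prod.fst := by
      intro b hb
      rw [mem_partners] at hb
      unfold bp at hb
      rw [mem_union, mem_image, mem_image]
      rcases hb with hb | hb
      · left; exact ⟨(a, b), by rw [mem_filter]; exact ⟨hb, rfl⟩, rfl⟩
      · right; exact ⟨(b, a), by rw [mem_filter]; exact ⟨hb, rfl⟩, rfl⟩
    refine le_trans (card_le_card hsub) (le_trans (card_union_le _ _) ?_)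
    exact Nat.add_le_add card_image_le card_image_le
  have h2 : (badS A Γ).card = ∑ a, ((badS A Γ).filter (fun p => p.1 = a)).card :=
    Finset.card_eq_sum_card_fiberwise (fun _ _ => mem_univ _)
  have h3 : (badS A Γ).card = ∑ a, ((badS A Γ).filter (fun p => p.2 = a)).card :=
    Finset.card_eq_sum_card_fiberwise (fun _ _ => mem_univ _)
  calc ∑ a, (partners A Γ a).card
      ≤ ∑ a, (((badS A Γ).filter (fun p => p.1 = a)).card +
          ((badS A Γ).filter (fun p => p.2 = a)).card) := Finset.sum_le_sum (fun a _ => h1 a)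
    _ = 2 * (badS A Γ).card := by
        rw [Finset.sum_add_distrib, ← h2, ← h3]; ring

/-- rows with many bad partners -/
noncomputable def dirty (A : Fin n → Fin n → Bool) (Γ P : ℕ) : Finset (Fin n) :=
  univ.filter fun a => P < (partners A Γ a).card

lemma dirty_card (A : Fin n → Fin n → Bool) (Γ P : ℕ) :
    (dirty A Γ P).card * (P + 1) ≤ 2 * (badS A Γ).card := by
  classical
  calc (dirty A Γ P).card * (P + 1) = ∑ _a ∈ dirty A Γ P, (P + 1) := by simp
    _ ≤ ∑ a ∈ dirty A Γ P, (partners A Γ a).card := by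
        apply Finset.sum_le_sum
        intro a ha
        simp only [dirty, mem_filter, mem_univ, true_and] at ha
        exact ha
    _ ≤ ∑ a, (partners A Γ a).card :=
        Finset.sum_le_sum_of_subset (subset_univ _)
    _ ≤ _ := sum_partners A Γ

lemma exists_cutL (A : Fin n → Fin n → Bool) (y y' : Fin n) (hz : ℕ)
    (hv : (vset A y y').card < (hz + 1) * (hz + 1)) :
    ∃ l : ℕ, (univ.filter fun c : Fin n => (A y c = true ∧ A y' c = true) ∧ c.val < l).card +
      (univ.filter fun c : Fin n => (A y c = true ∧ A y' c = false) ∧ l ≤ c.val).card ≤ 2 * hz := by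
  rcases threshold_lemma (univ.filter fun c : Fin n => A y c = true ∧ A y' c = true)
    (univ.filter fun c : Fin n => A y c = true ∧ A y' c = false) (fun c => c.val) (fun l => l)
    1 hz n rfl (fun l => le_rfl) (fun c _ => c.isLt) with h | h
  · obtain ⟨l, _, hl⟩ := h
    refine ⟨l, ?_⟩
    rw [Finset.filter_filter, Finset.filter_filter] at hl
    exact hl
  · exfalso
    have hsub : (((univ.filter fun c : Fin n => A y c = true ∧ A y' c = true) ×ˢ
        (univ.filter fun c : Fin n => A y c = true ∧ A y' c = false)).filter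
          (fun p => p.1.val < p.2.val + 1)) ⊆ vset A y y' := by
      intro p hp
      simp only [mem_filter, mem_product, mem_univ, true_and] at hp
      obtain ⟨⟨⟨a1, a2⟩, a3, a4⟩, a5⟩ := hp
      simp only [vset, mem_filter, mem_univ, true_and]
      refine ⟨?_, a1, a3, a2, a4⟩
      have hne : p.1 ≠ p.2 := by
        intro he
        rw [he, a4] at a2
        exact absurd a2 (by decide)
      have hne' : p.1.val ≠ p.2.val := fun he => hne (Fin.ext he)
      show p.1.val < p.2.val
      omega
    have := card_le_card hsub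
    omega

/-- the cleaned columns -/
def Zc (A : Fin n → Fin n → Bool) (S : Finset (Fin n)) (l : Fin n → Fin n → ℕ) : Finset (Fin n) :=
  (S ×ˢ S).biUnion fun q =>
    if q.1 < q.2 then
      (univ.filter fun c : Fin n => (A q.1 c = true ∧ A q.2 c = true) ∧ c.val < l q.1 q.2) ∪
      (univ.filter fun c : Fin n => (A q.1 c = true ∧ A q.2 c = false) ∧ l q.1 q.2 ≤ c.val)
    else ∅

lemma Zc_card (A : Fin n → Fin n → Bool) (S : Finset (Fin n)) (l : Fin n → Fin n → ℕ) (hz : ℕ)
    (hl : ∀ y ∈ S, ∀ y' ∈ S, y < y' →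
      (univ.filter fun c : Fin n => (A y c = true ∧ A y' c = true) ∧ c.val < l y y').card +
      (univ.filter fun c : Fin n => (A y c = true ∧ A y' c = false) ∧ l y y' ≤ c.val).card ≤ 2 * hz) :
    (Zc A S l).card ≤ S.card * S.card * (2 * hz) := by
  have := Finset.card_biUnion_le_card_mul (S ×ˢ S) (fun q =>
    if q.1 < q.2 then
      (univ.filter fun c : Fin n => (A q.1 c = true ∧ A q.2 c = true) ∧ c.val < l q.1 q.2) ∪
      (univ.filter fun c : Fin n => (A q.1 c = true ∧ A q.2 c = false) ∧ l q.1 q.2 ≤ c.val)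
    else ∅) (2 * hz) (by
      intro q hq
      rw [mem_product] at hq
      split_ifs with hlt
      · exact le_trans (card_union_le _ _) (hl _ hq.1 _ hq.2 hlt)
      · simp)
  simpa [Zc] using this

lemma Zc_exact (A : Fin n → Fin n → Bool) (S : Finset (Fin n)) (l : Fin n → Fin n → ℕ) :
    ∀ y ∈ S, ∀ y' ∈ S, y < y' → ∀ c1 c2 : Fin n, c1 < c2 →
      (A y c1 = true ∧ c1 ∉ Zc A S l) → (A y c2 = true ∧ c2 ∉ Zc A S l) →
      (A y' c1 = true ∧ c1 ∉ Zc A S l) → (A y' c2 = true ∧ c2 ∉ Zc A S l) := by
  intro y hy y' hy' hlt c1 c2 hc h1 h2 h3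
  refine ⟨?_, h2.2⟩
  by_contra hcon
  have hf : A y' c2 = false := by simpa using hcon
  have k1 : l y y' ≤ c1.val := by
    by_contra hk
    apply h1.2
    simp only [Zc, mem_biUnion]
    refine ⟨(y, y'), by rw [mem_product]; exact ⟨hy, hy'⟩, ?_⟩
    simp only [hlt, if_true, mem_union, mem_filter, mem_univ, true_and]
    left
    exact ⟨⟨h1.1, h3.1⟩, not_le.mp hk⟩
  apply h2.2
  simp only [Zc, mem_biUnion]
  refine ⟨(y, y'), by rw [mem_product]; exact ⟨hy, hy'⟩, ?_⟩
  simp only [hlt, if_true, mem_union, mem_filter, mem_univ, true_and]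
  right
  have : c1.val < c2.val := hc
  exact ⟨⟨h2.1, hf⟩, by omega⟩

end Vale.Agent.Lib.P037
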