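import Mathlib
open Finset

namespace Vale.Agent.Lib.P037

section Forest
variable {n : ℕ} (S : Finset (Fin n)) (st : Fin n → ℕ) (Kp : Fin n → Fin n → Prop)

/-- two columns are linked at level `i` if they occur together in a sample row of a strip `< i` -/
def Link (i : ℕ) (c c' : Fin n) : Prop :=
  c < c' ∧ ∃ y ∈ S, st y < i ∧ Kp y c ∧ Kp y c'

/-- reachability along links -/
def Reach (i : ℕ) : Fin n → Fin n → Prop := Relation.ReflTransGen (Link S st Kp i)

variable {S st Kp}

lemma link_mono {i j : ℕ} (hij : i ≤ j) {c c' : Fin n} (h : Link S st Kp i c c') :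
    Link S st Kp j c c' := by
  obtain ⟨h1, y, hy, h2, h3⟩ := h
  exact ⟨h1, y, hy, by omega, h3⟩

lemma reach_mono {i j : ℕ} (hij : i ≤ j) {c c' : Fin n} (h : Reach S st Kp i c c') :
    Reach S st Kp j c c' := by
  induction h with
  | refl => exact Relation.ReflTransGen.refl
  | tail _ hl ih => exact Relation.ReflTransGen.tail ih (link_mono hij hl)

lemma reach_le {i : ℕ} {c c' : Fin n} (h : Reach S st Kp i c c') : c ≤ c' := by
  induction h with
  | refl => exact le_rfl
  | tail _ hl ih => exact le_trans ih (le_of_lt hl.1)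

lemma link_comp (hE : ∀ y ∈ S, ∀ y' ∈ S, y < y' → ∀ c1 c2 : Fin n, c1 < c2 →
      Kp y c1 → Kp y c2 → Kp y' c1 → Kp y' c2)
    {i : ℕ} {v x y : Fin n} (h1 : Link S st Kp i v x) (h2 : Link S st Kp i v y) (hxy : x < y) :
    Link S st Kp i x y := by
  obtain ⟨a1, y1, hy1, b1, c1, d1⟩ := h1
  obtain ⟨a2, y2, hy2, b2, c2, d2⟩ := h2
  rcases lt_trichotomy y1 y2 with hlt | heq | hgt
  · exact ⟨hxy, y2, hy2, b2, hE y1 hy1 y2 hy2 hlt v x a1 c1 d1 c2, d2⟩
  · subst heq
    exact ⟨hxy, y1, hy1, b1, d1, d2⟩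
  · exact ⟨hxy, y1, hy1, b1, d1, hE y2 hy2 y1 hy1 hgt v y a2 c2 d2 c1⟩

lemma reach_chain (hE : ∀ y ∈ S, ∀ y' ∈ S, y < y' → ∀ c1 c2 : Fin n, c1 < c2 →
      Kp y c1 → Kp y c2 → Kp y' c1 → Kp y' c2)
    {i : ℕ} : ∀ (k : ℕ) (v x y : Fin n), n - v.val ≤ k → Reach S st Kp i v x →
      Reach S st Kp i v y → x < y → Reach S st Kp i x y := by
  intro k
  induction k with
  | zero =>
    intro v x y hk
    have := v.isLt
    omega
  | succ k ih =>
    intro v x y hk h1 h2 hxy
    rcases Relation.ReflTransGen.cases_head h1 with e1 | ⟨v1, l1, r1⟩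
    · rw [← e1]; exact h2
    · rcases Relation.ReflTransGen.cases_head h2 with e2 | ⟨u1, l2, r2⟩
      · exfalso
        have := reach_le h1
        rw [e2] at this
        exact absurd hxy (not_lt.mpr this)
      · have hv1 : v < v1 := l1.1
        have hu1 : v < u1 := l2.1
        have hv1' : v.val < v1.val := hv1
        have hu1' : v.val < u1.val := hu1
        rcases lt_trichotomy v1 u1 with hlt | heq | hgt
        · have l3 := link_comp hE l1 l2 hlt
          exact ih v1 x y (by omega) r1 (Relation.ReflTransGen.head l3 r2) hxy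
        · subst heq
          exact ih v1 x y (by omega) r1 r2 hxy
        · have l3 := link_comp hE l2 l1 hgt
          exact ih u1 x y (by omega) (Relation.ReflTransGen.head l3 r1) r2 hxy

lemma reach_sub_row (hE : ∀ y ∈ S, ∀ y' ∈ S, y < y' → ∀ c1 c2 : Fin n, c1 < c2 →
      Kp y c1 → Kp y c2 → Kp y' c1 → Kp y' c2)
    {i : ℕ} {y : Fin n} (hy : y ∈ S) (hlate : ∀ y0 ∈ S, st y0 < i → y0 < y)
    {v x : Fin n} (hv : Kp y v) (h : Reach S st Kp i v x) : Kp y x := by
  induction h with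
  | refl => exact hv
  | tail _ hl ih =>
    obtain ⟨a, y0, hy0, b, c, d⟩ := hl
    exact hE y0 hy0 y hy (hlate y0 hy0 b) _ _ a c d ih

end Forest

end Vale.Agent.Lib.P037
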