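import Vale.Agent.Lib.P037.LAnchor
open Finset

namespace Vale.Agent.Lib.P037

variable {n : ℕ}

lemma diffCount_sum (A B : Fin n → Fin n → Bool) :
    diffCount A B = ∑ r : Fin n, (univ.filter (fun c => A r c ≠ B r c)).card := by
  unfold diffCount
  rw [Finset.card_filter, Fintype.sum_prod_type]
  apply Finset.sum_congr rfl
  intro r _
  rw [Finset.card_filter]

lemma sum_strip_le (s m : ℕ) (hs : 0 < s) (hm : ∀ r : Fin n, r.val / s < m) (f : ℕ → ℕ) :
    ∑ r : Fin n, f (r.val / s) ≤ s * ∑ i ∈ range m, f i := by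
  classical
  have h1 : ∑ r : Fin n, f (r.val / s) =
      ∑ i ∈ range m, ∑ r ∈ (univ.filter fun r : Fin n => r.val / s = i), f (r.val / s) := by
    rw [Finset.sum_fiberwise_of_maps_to]
    intro r _
    exact mem_range.mpr (hm r)
  rw [h1, Finset.mul_sum]
  apply Finset.sum_le_sum
  intro i _
  calc ∑ r ∈ (univ.filter fun r : Fin n => r.val / s = i), f (r.val / s)
      = ∑ _r ∈ (univ.filter fun r : Fin n => r.val / s = i), f i := by
        apply Finset.sum_congr rfl
        intro r hr
        rw [mem_filter] at hr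
        rw [hr.2]
    _ = (univ.filter fun r : Fin n => r.val / s = i).card * f i := by simp
    _ ≤ s * f i := Nat.mul_le_mul_right _ (strip_card s i hs)

theorem coreL (A : Fin n → Fin n → Bool) (s h h' η hz P Qb e g : ℕ) (hs : 0 < s) (hg : 0 < g)
    (hQ : 2 * ((n / s + 1) * n) < (Qb + 1) * h')
    (he : Qb * (hz * hz + 2 * hz) < (e + 1) * (η + 1))
    (hnum : g + Qb * Qb * (2 * hz) + 2 * h' + e ≤ 2 * h) :
    ∃ B : Fin n → Fin n → Bool, IsFree L2 B ∧ ∃ d x : ℕ,
      d * ((P + 1) * ((hz + 1) * (hz + 1))) ≤ 2 * (copies L2 A).card ∧ g * x ≤ s * (n * n) ∧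
      diffCount A B ≤ n * (2 * h + Qb * Qb * (2 * hz) + 2 * η) + (d + Qb * P) * n + x := by
  classical
  obtain ⟨Γ, hΓ⟩ : ∃ Γ, Γ = hz * hz + 2 * hz := ⟨_, rfl⟩
  have hΓ1 : Γ + 1 = (hz + 1) * (hz + 1) := by rw [hΓ]; ring
  rw [← hΓ] at he
  obtain ⟨S, s1, s2, s3, s4⟩ := sample_exists A s h' Γ P
  have hScard : S.card ≤ Qb := by
    have : S.card * h' < (Qb + 1) * h' := lt_of_le_of_lt s3 hQ
    have := Nat.lt_of_mul_lt_mul_right this
    omega
  have hvs : ∀ a b : Fin n, ¬ bp A Γ a b → a < b → (vset A a b).card ≤ Γ := by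
    intro a b hab hlt
    by_contra hcon
    apply hab
    left
    simp only [badS, mem_filter, mem_univ, true_and]
    exact ⟨hlt, not_le.mp hcon⟩
  have hcut : ∀ y y' : Fin n, ∃ l : ℕ, (vset A y y').card < (hz + 1) * (hz + 1) →
      (univ.filter fun c : Fin n => (A y c = true ∧ A y' c = true) ∧ c.val < l).card +
      (univ.filter fun c : Fin n => (A y c = true ∧ A y' c = false) ∧ l ≤ c.val).card ≤ 2 * hz := by
    intro y y'
    by_cases hv : (vset A y y').card < (hz + 1) * (hz + 1)
    · obtain ⟨l, hl⟩ := exists_cutL A y y' hz hv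
      exact ⟨l, fun _ => hl⟩
    · exact ⟨0, fun hx => absurd hx hv⟩
  choose l hl using hcut
  obtain ⟨Z, hZdef⟩ : ∃ Z, Z = Zc A S l := ⟨_, rfl⟩
  have hZcard : Z.card ≤ Qb * Qb * (2 * hz) := by
    rw [hZdef]
    refine le_trans (Zc_card A S l hz ?_) ?_
    · intro y hy y' hy' hlt
      apply hl
      have := hvs y y' (s2 y hy y' hy') hlt
      omega
    · exact Nat.mul_le_mul_right _ (Nat.mul_le_mul hScard hScard)
  have hE : ∀ y ∈ S, ∀ y' ∈ S, y < y' → ∀ c1 c2 : Fin n, c1 < c2 →
      (A y c1 = true ∧ c1 ∉ Z) → (A y c2 = true ∧ c2 ∉ Z) →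
      (A y' c1 = true ∧ c1 ∉ Z) → (A y' c2 = true ∧ c2 ∉ Z) := by
    rw [hZdef]; exact Zc_exact A S l
  let β : ℕ → Fin n → ℕ := fun i v =>
    (orb S (fun r => r.val / s) (fun y c => A y c = true ∧ c ∉ Z) (i + 1) v \
        orb S (fun r => r.val / s) (fun y c => A y c = true ∧ c ∉ Z) i v).card
  let gd : Fin n → Prop := fun r => r ∉ dirty A Γ P ∧ (∀ y ∈ S, ¬ bp A Γ y r) ∧
    2 * h ≤ (univ.filter fun c => A r c = true).card
  have hanc : ∀ r : Fin n, ∃ v y1 y2 : Fin n, gd r → (A r v = true ∧ v ∉ Z ∧
      (univ.filter fun c => A r c = true ∧ c < v).card ≤ 2 * h ∧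
      (y1 ∈ S ∧ y1.val / s = r.val / s ∧ A y1 v = true ∧ tl A y1 r v ≤ η) ∧
      (y2 ∈ S ∧ y2.val / s = r.val / s ∧ A y2 v = true ∧ tl A r y2 v ≤ η) ∧
      g * β (r.val / s) v ≤ ∑ v, β (r.val / s) v) := by
    intro r
    by_cases hgr : gd r
    · obtain ⟨g1, g2, g3⟩ := hgr
      obtain ⟨v, y1, y2, hh⟩ := exists_anchor A S s Z h h' η Γ Qb e g (Qb * Qb * (2 * hz)) r
        (β (r.val / s)) g3 (s4 r g1 g2).1 (s4 r g1 g2).2 hZcard
        (fun y hy hlt => hvs y r (g2 y hy) hlt)
        (fun y hy hlt => hvs r y (fun hb => g2 y hy (bp_symm A Γ _ _ hb)) hlt)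
        hScard he hnum hg
      exact ⟨v, y1, y2, fun _ => hh⟩
    · exact ⟨r, r, r, fun hx => absurd hx hgr⟩
  choose anc y1 y2 hprop using hanc
  have hm : ∀ r : Fin n, r.val / s < n / s + 1 := by
    intro r
    have : r.val / s ≤ n / s := Nat.div_le_div_right (le_of_lt r.isLt)
    omega
  obtain ⟨B, hBdef⟩ : ∃ B : Fin n → Fin n → Bool, ∀ r c, B r c = true ↔
      (gd r ∧ Reach S (fun r => r.val / s)
      (fun y c => A y c = true ∧ c ∉ Z) (r.val / s + 1) (anc r) c) :=
    ⟨fun r c => decide (gd r ∧ Reach S (fun r => r.val / s)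
      (fun y c => A y c = true ∧ c ∉ Z) (r.val / s + 1) (anc r) c), fun r c => by simp⟩
  refine ⟨B, BL_free S s _ hE gd anc B hBdef, (dirty A Γ P).card,
    ∑ r : Fin n, (if gd r then β (r.val / s) (anc r) else 0), ?_, ?_, ?_⟩
  · have h1 := dirty_card A Γ P
    have h2 := badS_card A Γ
    rw [← hΓ1]
    calc (dirty A Γ P).card * ((P + 1) * (Γ + 1))
        = ((dirty A Γ P).card * (P + 1)) * (Γ + 1) := by ring
      _ ≤ (2 * (badS A Γ).card) * (Γ + 1) := Nat.mul_le_mul_right _ h1
      _ = 2 * ((badS A Γ).card * (Γ + 1)) := by ring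
      _ ≤ _ := Nat.mul_le_mul_left _ h2
  · rw [Finset.mul_sum]
    calc ∑ r : Fin n, g * (if gd r then β (r.val / s) (anc r) else 0)
        ≤ ∑ r : Fin n, (fun i => ∑ v, β i v) (r.val / s) := by
          apply Finset.sum_le_sum
          intro r _
          by_cases hgr : gd r
          · simp only [hgr, if_true]
            exact (hprop r hgr).2.2.2.2.2
          · simp only [hgr, if_false]; omega
      _ ≤ s * ∑ i ∈ range (n / s + 1), ∑ v, β i v := sum_strip_le s _ hs hm (fun i => ∑ v, β i v)
      _ ≤ s * (n * n) := by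
          apply Nat.mul_le_mul_left
          rw [Finset.sum_comm]
          calc ∑ v : Fin n, ∑ i ∈ range (n / s + 1), β i v ≤ ∑ _v : Fin n, n := by
                apply Finset.sum_le_sum
                intro v _
                exact orb_potential S _ _ v _
            _ = n * n := by simp
  · rw [diffCount_sum]
    set lost := dirty A Γ P ∪ S.biUnion (fun y => partners A Γ y) with hlost
    have hlostcard : lost.card ≤ (dirty A Γ P).card + Qb * P := by
      refine le_trans (card_union_le _ _) (Nat.add_le_add_left ?_ _)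
      refine le_trans (Finset.card_biUnion_le_card_mul S _ P ?_) (Nat.mul_le_mul_right _ hScard)
      intro y hy
      have := s1 y hy
      simp only [dirty, mem_filter, mem_univ, true_and, not_lt] at this
      exact this
    have hrow : ∀ r ∈ (univ : Finset (Fin n)),
        (univ.filter (fun c => A r c ≠ B r c)).card ≤
        (2 * h + Qb * Qb * (2 * hz) + 2 * η) + (if r ∈ lost then n else 0) +
          (if gd r then β (r.val / s) (anc r) else 0) := by
      intro r _
      by_cases hgr : gd r
      · obtain ⟨p1, p2, p3, ⟨q1, q2, q3, q4⟩, ⟨r1, r2, r3, r4⟩, _⟩ := hprop r hgr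
        have := row_diffL A S s Z hE r (anc r) (y1 r) (y2 r) p1 p2 q1 q2 q3 r1 r2 r3 (B r)
          (fun c => by rw [hBdef]; exact ⟨fun hx => hx.2, fun hx => ⟨hgr, hx⟩⟩)
        simp only [hgr, if_true]
        have hβ : β (r.val / s) (anc r) =
          (orb S (fun r => r.val / s) (fun y c => A y c = true ∧ c ∉ Z) (r.val / s + 1) (anc r) \
            orb S (fun r => r.val / s) (fun y c => A y c = true ∧ c ∉ Z) (r.val / s) (anc r)).card := rfl
        rw [hβ]
        omega
      · simp only [hgr, if_false]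
        have hB0 : ∀ c, B r c = false := by
          intro c
          by_contra hcon
          exact hgr ((hBdef r c).mp (by simpa using hcon)).1
        simp only [hB0]
        by_cases hl : r ∈ lost
        · simp only [hl, if_true]
          have : (univ.filter (fun c => A r c ≠ false)).card ≤ n := by
            calc _ ≤ (univ : Finset (Fin n)).card := card_filter_le _ _
              _ = n := by simp
          omega
        · simp only [hl, if_false]
          rw [hlost, mem_union, not_or, mem_biUnion] at hl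
          have hk : ¬ 2 * h ≤ (univ.filter fun c => A r c = true).card := by
            intro hk
            apply hgr
            refine ⟨hl.1, ?_, hk⟩
            intro y hy hb
            apply hl.2
            exact ⟨y, hy, (mem_partners A Γ y r).mpr hb⟩
          have heq : (univ.filter (fun c => A r c ≠ false)) = (univ.filter fun c => A r c = true) := by
            ext c; simp
          rw [heq]
          omega
    refine le_trans (Finset.sum_le_sum hrow) ?_
    rw [Finset.sum_add_distrib, Finset.sum_add_distrib]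
    simp only [sum_const, card_univ, Fintype.card_fin, smul_eq_mul]
    rw [← Finset.sum_filter]
    simp only [sum_const, smul_eq_mul]
    have : (univ.filter fun r => r ∈ lost).card ≤ (dirty A Γ P).card + Qb * P := by
      have he : (univ.filter fun r => r ∈ lost) = lost := by ext r; simp
      rw [he]; exact hlostcard
    have h2 := Nat.mul_le_mul_right n this
    omega

end Vale.Agent.Lib.P037
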