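import Vale.Agent.Lib.P037.LDefs
import Vale.Agent.Lib.P037.LForest
open Finset

namespace Vale.Agent.Lib.P037

variable {n : ℕ}

/-- number of columns to the right of `v` that are ones in row `a` and zeros in row `b` -/
def tl (A : Fin n → Fin n → Bool) (a b v : Fin n) : ℕ :=
  (univ.filter fun c => v < c ∧ A a c = true ∧ A b c = false).card

lemma tl_self (A : Fin n → Fin n → Bool) (a v : Fin n) : tl A a a v = 0 := by
  unfold tl
  rw [card_eq_zero, filter_eq_empty_iff]
  intro c _ hc
  rw [hc.2.1] at hc
  exact absurd hc.2.2 (by decide)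

lemma tl_sum (A : Fin n → Fin n → Bool) (a b : Fin n) (E : Finset (Fin n))
    (hE : ∀ v ∈ E, A a v = true ∧ A b v = true) :
    ∑ v ∈ E, tl A a b v ≤ (vset A a b).card := by
  classical
  unfold tl
  rw [← card_sigma]
  apply Finset.card_le_card_of_injOn (fun q => (q.1, q.2))
  · intro q hq
    simp only [coe_sigma, Set.mem_sigma_iff, mem_coe, mem_filter, mem_univ, true_and] at hq
    obtain ⟨h1, h2, h3, h4⟩ := hq
    simp only [vset, mem_coe, mem_filter, mem_univ, true_and]
    exact ⟨h2, (hE _ h1).1, h3, (hE _ h1).2, h4⟩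
  · intro q _ q' _ hqq
    simp only [Prod.mk.injEq] at hqq
    exact Sigma.ext hqq.1 (heq_of_eq hqq.2)

lemma exc_card (A : Fin n → Fin n → Bool) (a b : Fin n) (η : ℕ) :
    (univ.filter fun v => A a v = true ∧ A b v = true ∧ η < tl A a b v).card * (η + 1) ≤
      (vset A a b).card := by
  classical
  calc (univ.filter fun v => A a v = true ∧ A b v = true ∧ η < tl A a b v).card * (η + 1)
      = ∑ _v ∈ (univ.filter fun v => A a v = true ∧ A b v = true ∧ η < tl A a b v), (η + 1) := by
        simp
    _ ≤ ∑ v ∈ (univ.filter fun v => A a v = true ∧ A b v = true ∧ η < tl A a b v), tl A a b v := by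
        apply Finset.sum_le_sum
        intro v hv
        rw [mem_filter] at hv
        exact hv.2.2.2
    _ ≤ _ := by
        apply tl_sum
        intro v hv
        rw [mem_filter] at hv
        exact ⟨hv.2.1, hv.2.2.1⟩

lemma exists_head (K : Finset (Fin n)) (w : ℕ) (hK : w ≤ K.card) :
    ∃ p : ℕ, (K.filter (fun c => c.val < p)).card = w := by
  classical
  have hex : ∃ p, w ≤ (K.filter (fun c => c.val < p)).card := by
    refine ⟨n, ?_⟩
    have : K.filter (fun c => c.val < n) = K := by
      apply filter_true_of_mem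
      intro c _
      exact c.isLt
    rw [this]; exact hK
  let p := Nat.find hex
  have hp : w ≤ (K.filter (fun c => c.val < p)).card := Nat.find_spec hex
  refine ⟨p, le_antisymm ?_ hp⟩
  by_cases hp0 : p = 0
  · rw [hp0]
    simp
  · obtain ⟨q, hq⟩ := Nat.exists_eq_succ_of_ne_zero hp0
    have hq' : ¬ w ≤ (K.filter (fun c => c.val < q)).card := by
      intro hcon
      have := Nat.find_min' hex hcon
      omega
    have hsub : K.filter (fun c => c.val < p) ⊆
        (K.filter (fun c => c.val < q)) ∪ (K.filter (fun c => c.val = q)) := by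
      intro c hc
      rw [mem_filter] at hc
      rw [mem_union, mem_filter, mem_filter]
      by_cases h : c.val < q
      · left; exact ⟨hc.1, h⟩
      · right; exact ⟨hc.1, by omega⟩
    have hone : (K.filter (fun c => c.val = q)).card ≤ 1 := by
      rw [card_le_one]
      intro a ha b hb
      rw [mem_filter] at ha hb
      exact Fin.ext (by omega)
    have := le_trans (card_le_card hsub) (card_union_le _ _)
    omega

open Classical in
/-- the columns reachable from `v` at level `i` -/
noncomputable def orb (S : Finset (Fin n)) (st : Fin n → ℕ) (Kp : Fin n → Fin n → Prop)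
    (i : ℕ) (v : Fin n) : Finset (Fin n) :=
  univ.filter (fun x => Reach S st Kp i v x)

lemma mem_orb (S : Finset (Fin n)) (st : Fin n → ℕ) (Kp : Fin n → Fin n → Prop)
    (i : ℕ) (v x : Fin n) : x ∈ orb S st Kp i v ↔ Reach S st Kp i v x := by
  classical
  unfold orb
  simp only [mem_filter, mem_univ, true_and]

lemma orb_mono (S : Finset (Fin n)) (st : Fin n → ℕ) (Kp : Fin n → Fin n → Prop)
    {i j : ℕ} (hij : i ≤ j) (v : Fin n) : orb S st Kp i v ⊆ orb S st Kp j v := by
  intro x hx
  rw [mem_orb] at hx ⊢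
  exact reach_mono hij hx

lemma orb_potential (S : Finset (Fin n)) (st : Fin n → ℕ) (Kp : Fin n → Fin n → Prop)
    (v : Fin n) (m : ℕ) :
    ∑ i ∈ range m, (orb S st Kp (i + 1) v \ orb S st Kp i v).card ≤ n := by
  classical
  have h : ∀ m, ∑ i ∈ range m, (orb S st Kp (i + 1) v \ orb S st Kp i v).card
      + (orb S st Kp 0 v).card = (orb S st Kp m v).card := by
    intro m
    induction m with
    | zero => simp
    | succ m ih =>
      rw [Finset.sum_range_succ]
      have h1 := Finset.card_sdiff_add_card_eq_card (orb_mono S st Kp (show m ≤ m + 1 by omega) v)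
      omega
  have h2 : (orb S st Kp m v).card ≤ n := by
    calc _ ≤ (univ : Finset (Fin n)).card := card_le_univ _
      _ = n := by simp
  have := h m
  omega

lemma BL_free (S : Finset (Fin n)) (s : ℕ) (Kp : Fin n → Fin n → Prop)
    (hE : ∀ y ∈ S, ∀ y' ∈ S, y < y' → ∀ c1 c2 : Fin n, c1 < c2 →
      Kp y c1 → Kp y c2 → Kp y' c1 → Kp y' c2)
    (gd : Fin n → Prop) (anc : Fin n → Fin n) (B : Fin n → Fin n → Bool)
    (hB : ∀ r c, B r c = true ↔ (gd r ∧
      Reach S (fun r => r.val / s) Kp (r.val / s + 1) (anc r) c)) :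
    IsFree L2 B := by
  classical
  unfold IsFree
  rw [Finset.eq_empty_iff_forall_notMem]
  intro p hp
  simp only [copies, mem_filter, mem_univ, true_and] at hp
  obtain ⟨hr, hc, hpat⟩ := hp
  have hr12 : p.1 0 < p.1 1 := hr (by decide)
  have hc12 : p.2 0 < p.2 1 := hc (by decide)
  have h00 : B (p.1 0) (p.2 0) = true := by rw [hpat 0 0]; decide
  have h01 : B (p.1 0) (p.2 1) = true := by rw [hpat 0 1]; decide
  have h10 : B (p.1 1) (p.2 0) = true := by rw [hpat 1 0]; decide
  have h11 : B (p.1 1) (p.2 1) = false := by rw [hpat 1 1]; decide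
  have a00 := (hB _ _).mp h00
  have a01 := (hB _ _).mp h01
  have a10 := (hB _ _).mp h10
  have a11 : ¬ (gd (p.1 1) ∧ Reach S (fun r => r.val / s) Kp ((p.1 1).val / s + 1) (anc (p.1 1)) (p.2 1)) := by
    intro hx
    rw [(hB _ _).mpr hx] at h11
    exact absurd h11 (by decide)
  apply a11
  refine ⟨a10.1, ?_⟩
  have hle : (p.1 0).val / s + 1 ≤ (p.1 1).val / s + 1 := by
    have : (p.1 0).val / s ≤ (p.1 1).val / s := Nat.div_le_div_right (le_of_lt hr12)
    omega
  have k1 := reach_chain hE n (anc (p.1 0)) (p.2 0) (p.2 1) (by omega) a00.2 a01.2 hc12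
  exact Relation.ReflTransGen.trans a10.2 (reach_mono hle k1)

end Vale.Agent.Lib.P037
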