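import Vale.Agent.Lib.P037.Defs
open Finset

namespace Vale.Agent.Lib.P037

/-- entrywise complement -/
def bcompl {a b : ℕ} (A : Fin a → Fin b → Bool) : Fin a → Fin b → Bool := fun r c => !(A r c)

lemma bcompl_bcompl {a b : ℕ} (A : Fin a → Fin b → Bool) : bcompl (bcompl A) = A := by
  funext r c; simp [bcompl]

lemma copies_compl {k n : ℕ} (H : Fin k → Fin k → Bool) (A : Fin n → Fin n → Bool) :
    copies (bcompl H) (bcompl A) = copies H A := by
  classical
  ext p
  unfold copies
  rw [mem_filter, mem_filter]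
  simp only [mem_univ, true_and, bcompl]
  constructor
  · rintro ⟨h1, h2, h3⟩
    refine ⟨h1, h2, fun i j => ?_⟩
    have := h3 i j
    simpa using this
  · rintro ⟨h1, h2, h3⟩
    refine ⟨h1, h2, fun i j => ?_⟩
    rw [h3 i j]

lemma diffCount_compl {n : ℕ} (A B : Fin n → Fin n → Bool) :
    diffCount (bcompl A) (bcompl B) = diffCount A B := by
  unfold diffCount
  congr 1
  ext p
  simp [bcompl]

lemma polyRemoval_compl {k : ℕ} (H : Fin k → Fin k → Bool) (h : PolyRemoval H) :
    PolyRemoval (bcompl H) := by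
  obtain ⟨c, C, hc, hC, hmain⟩ := h
  refine ⟨c, C, hc, hC, ?_⟩
  intro n hn ε h0 h1 A hfar
  have := hmain n hn ε h0 h1 (bcompl A) (by
    intro B hB
    have hB' : IsFree (bcompl H) (bcompl B) := by
      unfold IsFree at hB ⊢
      rw [copies_compl]; exact hB
    have := hfar (bcompl B) hB'
    rw [← diffCount_compl, bcompl_bcompl] at this
    exact this)
  rw [← copies_compl, bcompl_bcompl] at this
  exact this

end Vale.Agent.Lib.P037
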